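import Vale.Agent.P195.Desc

namespace Vale.Agent.P195

theorem WW_zero' {u : R} (hu : u ∈ WW 0 0) : ∃ c : ℚ, u = c • (1 : R) := by
  obtain ⟨c, hc⟩ := WW_zero hu
  exact ⟨c, by rw [hc, Algebra.algebraMap_eq_smul_one]⟩

theorem WW_one {u : R} (hu : u ∈ WW 0 1) : ∃ a b : ℚ, u = a • x 0 + b • x 1 := by
  obtain ⟨v₀, g₀, v₁, g₁, g⟩ := KxL.K0 (p := 0) (n := 1) (by simp [KxL]) hu
  obtain ⟨a, rfl⟩ := WW_zero' (u := v₀) g₀
  obtain ⟨b, rfl⟩ := WW_zero' (u := v₁) g₁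
  refine ⟨a, b, ?_⟩
  have := Sp_neg (by norm_num) g
  simpa [KxL, sub_eq_zero] using this

theorem x_indep {a b : ℚ} (h : a • x 0 + b • x 1 = 0) : a = 0 ∧ b = 0 := by
  have key : ∀ i j, ad (D i) (x j) = if i = j then -1 else 0 := by
    intro i j; rw [ad_apply, D_x]; split_ifs <;> simp
  have h0 := congrArg (ad (D 0)) h
  have h1 := congrArg (ad (D 1)) h
  simp only [map_add, map_smul, key, map_zero] at h0 h1
  simp [one_ne] at h0 h1
  exact ⟨h0, h1⟩

variable {I : Type} [Fintype I]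

structure Cx (Q : Fin 2 → KP) (par : I → Fin 2) (Dm : (Fin 6 × I → R) →ₗ[ℚ] (Fin 6 × I → R))
    (C : Fin 2 → I → I → ℚ) : Prop where
  side : Side Q
  S1 : ∀ i, (Q 0).S i 1 = x i
  Sx : ∀ i j, (Q 0).S i (x j) = x i * x j
  DD : ∀ y, Dm (Dm y) = 0
  lead : ∀ n ℓ h, ∀ y ∈ LL par ℓ n (h + 1), Dm y - LD Q par y ∈ LL par (ℓ - 1) n h
  zero : ∀ n ℓ, ∀ y ∈ LL par ℓ n 0, Dm y = 0
  form : ∀ y c, Dm y (0, c) = (Q (par c)).S 0 (y (1, c)) + (Q (par c)).S 1 (y (2, c)) +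
    ∑ b, (C 0 b c • y (1, b) + C 1 b c • y (2, b))
  Cpar : ∀ i b c, par b = par c → C i b c = 0
  inj : ∀ ν : I → ℚ, (∀ b, par b = 1 → ν b = 0) → (∀ i c, ∑ b, ν b * C i b c = 0) → ν = 0

theorem par_cases (a : Fin 2) : a = 0 ∨ a = 1 := by fin_cases a <;> simp

theorem LL0 {par : I → Fin 2} {n : ℤ} {h : ℕ} {y : Fin 6 × I → R} (hy : y ∈ LL par 0 n h)
    (g : Fin 6 × I) : y g ∈ WW (-io g.1 (par g.2)) (n - wo g.1 (par g.2)) :=
  WW_mono (hy g).1 (by have := (par g.2).isLt; omega) rfl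

noncomputable def zn (ν : I → ℚ) : Fin 6 × I → R := fun g =>
  ![0, ν g.2 • x 1, -(ν g.2 • x 0), 0, 0, 0] g.1

theorem zn_mem {par : I → Fin 2} {ν : I → ℚ} (hν : ∀ b, par b = 1 → ν b = 0) :
    zn ν ∈ LL par 0 2 1 := by
  rintro ⟨σ, b⟩
  rcases par_cases (par b) with h | h
  · fin_cases σ <;> simp [zn, hd, h, io, wo, sft] <;>
      exact Submodule.smul_mem _ _ (x_mem _)
  · fin_cases σ <;> simp [zn, hd, hν b h]

namespace Cx

variable {Q : Fin 2 → KP} {par : I → Fin 2} {Dm : (Fin 6 × I → R) →ₗ[ℚ] (Fin 6 × I → R)}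
  {C : Fin 2 → I → I → ℚ} (X : Cx Q par Dm C)
include X

theorem D_zn {ν : I → ℚ} (hν : ∀ b, par b = 1 → ν b = 0) (c : I) :
    Dm (zn ν) (0, c) = (-∑ b, ν b * C 1 b c) • x 0 + (∑ b, ν b * C 0 b c) • x 1 := by
  have e : (Q (par c)).S 0 (zn ν (1, c)) + (Q (par c)).S 1 (zn ν (2, c)) = 0 := by
    rcases par_cases (par c) with h | h
    · simp [zn, h, X.Sx, x_comm 0 1]
    · simp [zn, hν c h]
  rw [X.form, e, zero_add, neg_smul, Finset.sum_smul, Finset.sum_smul, ← Finset.sum_neg_distrib,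
    ← Finset.sum_add_distrib]
  refine Finset.sum_congr rfl fun b _ => ?_
  simp only [zn, Matrix.cons_val, smul_neg, smul_smul, mul_comm]
  abel

theorem base1 {n : ℤ} (h0 : 0 ≤ n) (h2 : n ≤ 2) {y : Fin 6 × I → R} (hy : y ∈ LL par 0 n 1)
    (hc : Dm y = 0) : y = 0 := by
  have p1 : ∀ b, par b = 1 → y (1, b) = 0 ∧ y (2, b) = 0 := fun b h =>
    ⟨Sp_neg (by simp [h, io, sft]) (LL0 hy (1, b)), Sp_neg (by simp [h, io, sft]) (LL0 hy (2, b))⟩
  have p0 : ∀ b, ∃ ν : ℚ, (par b = 1 → ν = 0) ∧ (n ≠ 2 → ν = 0) ∧ y (1, b) = ν • x 1 ∧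
      y (2, b) = -(ν • x 0) := by
    intro b
    rcases par_cases (par b) with h | h
    · have m1 : y (1, b) ∈ WW 0 (n - 1) := by simpa [h, io, wo, sft] using LL0 hy (1, b)
      have m2 : y (2, b) ∈ WW 0 (n - 1) := by simpa [h, io, wo, sft] using LL0 hy (2, b)
      by_cases hn : n = 0
      · exact ⟨0, by simp, by simp, by simpa using WW_neg (by omega) m1,
          by simpa using WW_neg (by omega) m2⟩
      have e := X.form y b
      rw [hc, Finset.sum_eq_zero (fun c _ => by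
        rcases par_cases (par c) with h' | h'
        · simp [X.Cpar _ c b (h'.trans h.symm)]
        · simp [p1 c h']), add_zero, h] at e
      obtain ⟨c, gc, g₀, g₁⟩ := (Q 0).K1 (p := 0) (n := n) (by rw [X.side.d0]; omega)
        (u₀ := y (1, b)) (u₁ := y (2, b)) (by simpa [X.side.o0, X.side.w0] using m1)
        (by simpa [X.side.o0, X.side.w0] using m2) (by rw [← e]; exact zero_mem _)
      have f₀ := Sp_neg (by simp [X.side.o0]) g₀
      have f₁ := Sp_neg (by simp [X.side.o0]) g₁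
      rw [sub_eq_zero] at f₀
      rw [add_eq_zero_iff_eq_neg] at f₁
      simp only [X.side.o0, X.side.w0, sub_zero] at gc
      by_cases hn2 : n = 2
      · obtain ⟨ν, rfl⟩ := WW_zero' (WW_mono gc le_rfl (by omega))
        exact ⟨ν, by simp [h], by simp [hn2], by rw [f₀, map_smul, X.S1],
          by rw [f₁, map_smul, X.S1]⟩
      · have := WW_neg (by omega) gc
        subst this
        exact ⟨0, by simp, by simp, by simpa using f₀, by simpa using f₁⟩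
    · exact ⟨0, by simp, by simp, by simp [p1 b h], by simp [p1 b h]⟩
  choose ν hν hν' e1 e2 using p0
  have e : y = zn ν := by
    funext ⟨σ, b⟩
    have z := fun σ => (hy (σ, b)).2
    fin_cases σ
    · exact z 0 (by simp [hd])
    · exact e1 b
    · exact e2 b
    · exact z 3 (by simp [hd])
    · exact z 4 (by simp [hd])
    · exact z 5 (by simp [hd])
  have : ν = 0 := X.inj ν hν fun i c => by
    have h := X.D_zn hν c
    rw [← e, hc] at h
    have := x_indep h.symm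
    fin_cases i
    · exact this.2
    · exact neg_eq_zero.mp this.1
  rw [e, this]
  funext ⟨σ, b⟩
  fin_cases σ <;> simp [zn]

theorem exactS {n : ℤ} (h0 : 0 ≤ n) (h2 : n ≤ 2) (ℓ : ℕ) {h : ℕ} {y : Fin 6 × I → R}
    (hy : y ∈ LL par ℓ n (h + 1)) (hc : Dm y = 0) : ∃ z ∈ LL par ℓ n (h + 2), y = Dm z := by
  obtain ⟨t, ht, ht'⟩ := descend X.side h0 Dm X.DD (X.lead n) ℓ y hy hc
  refine ⟨t, ht, sub_eq_zero.mp ?_⟩
  rcases h with _ | h
  · exact X.base1 h0 h2 ht' (by rw [map_sub, hc, X.DD, sub_zero])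
  · funext ⟨σ, b⟩
    by_cases hσ : hd σ = h + 1 + 1
    · refine Sp_neg ?_ (LL0 ht' (σ, b))
      rcases par_cases (par b) with h | h <;> fin_cases σ <;> simp [h, io, sft, hd] at hσ ⊢
    · exact (ht' (σ, b)).2 hσ

theorem base0 {n : ℤ} (h1 : 1 ≤ n) {y : Fin 6 × I → R} (hy : y ∈ LL par 0 n 0) :
    ∃ z ∈ LL par 0 n 1, ∀ c, par c = 0 → (y - Dm z) (0, c) = 0 := by
  have p0 : ∀ b, ∃ v : R × R, (par b = 1 → v = 0) ∧ (par b = 0 → v.1 ∈ WW 0 (n - 1) ∧
      v.2 ∈ WW 0 (n - 1) ∧ y (0, b) = (Q 0).S 0 v.1 + (Q 0).S 1 v.2) := by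
    intro b
    rcases par_cases (par b) with h | h
    · have m : y (0, b) ∈ WW 0 n := by simpa [h, io, wo, sft] using LL0 hy (0, b)
      obtain ⟨v₀, g₀, v₁, g₁, g⟩ := (Q 0).K0 (by rw [X.side.d0]; omega) m
      exact ⟨(v₀, v₁), by simp [h], fun _ => ⟨by simpa [X.side.o0, X.side.w0] using g₀,
        by simpa [X.side.o0, X.side.w0] using g₁, sub_eq_zero.mp (Sp_neg (by simp) g)⟩⟩
    · exact ⟨0, by simp, by simp [h]⟩
  choose v hv hv' using p0
  refine ⟨fun g => ![0, (v g.2).1, (v g.2).2, 0, 0, 0] g.1, ?_, fun c h => ?_⟩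
  · rintro ⟨σ, b⟩
    rcases par_cases (par b) with h | h
    · have := hv' b h
      fin_cases σ <;> simp [hd, h, io, wo, sft, this.1, this.2.1]
    · fin_cases σ <;> simp [hd, hv b h]
  · rw [Pi.sub_apply, X.form, Finset.sum_eq_zero (fun b _ => by
        rcases par_cases (par b) with h' | h'
        · simp [X.Cpar _ b c (h'.trans h.symm)]
        · simp [hv b h']), add_zero, h, (hv' c h).2.2]
    simp

theorem exact0 {n : ℤ} (h0 : 0 ≤ n) (h2 : n ≤ 2) {U : Type} [AddCommGroup U] [Module ℚ U]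
    (Au : (I → R) →ₗ[ℚ] U) (hA : ∀ ℓ, ∀ z ∈ LL par ℓ n 1, Au (fun b => Dm z (0, b)) = 0)
    (hA1 : n ≤ 1 → ∀ l : I → ℚ, (∀ b, ((par b).val : ℤ) ≠ n → l b = 0) →
      Au (fun b => l b • 1) = 0 → l = 0)
    (hA2 : n = 2 → ∀ l m : I → ℚ, (∀ b, par b = 0 → l b = 0 ∧ m b = 0) →
      Au (fun b => l b • x 0 + m b • x 1) = 0 → ∃ ν : I → ℚ, (∀ b, par b = 1 → ν b = 0) ∧
        ∀ c, l c = -∑ b, ν b * C 1 b c ∧ m c = ∑ b, ν b * C 0 b c)
    (ℓ : ℕ) {y : Fin 6 × I → R} (hy : y ∈ LL par ℓ n 0) (hc : Au (fun b => y (0, b)) = 0) :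
    ∃ z ∈ LL par ℓ n 1, y = Dm z := by
  obtain ⟨t, ht, ht'⟩ := descend X.side h0 Dm X.DD (X.lead n) ℓ y hy (X.zero _ _ _ hy)
  have red : ∃ s ∈ LL par 0 n 1, 1 ≤ n → ∀ c, par c = 0 → (y - Dm t - Dm s) (0, c) = 0 := by
    by_cases h1 : 1 ≤ n
    · obtain ⟨s, hs, hs'⟩ := X.base0 h1 ht'
      exact ⟨s, hs, fun _ => hs'⟩
    · exact ⟨0, zero_mem _, fun h => absurd h h1⟩
  obtain ⟨s, hs, hs'⟩ := red
  have hw : y - Dm t - Dm s ∈ LL par 0 n 0 :=
    Submodule.sub_mem _ ht' (Dm_mem X.side Dm (X.lead n) hs)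
  have hwA : Au (fun b => (y - Dm t - Dm s) (0, b)) = 0 := by
    have : (fun b => (y - Dm t - Dm s) (0, b)) =
        (fun b => y (0, b)) - (fun b => Dm t (0, b)) - fun b => Dm s (0, b) := rfl
    rw [this, map_sub, map_sub, hc, hA _ _ ht, hA _ _ hs]; simp
  generalize hwe : y - Dm t - Dm s = w at hw hwA hs'
  have fin : ∀ r ∈ LL par 0 n 1, (∀ c, w (0, c) = Dm r (0, c)) → ∃ z ∈ LL par ℓ n 1, y = Dm z := by
    intro r hr e
    refine ⟨t + s + r, Submodule.add_mem _ (Submodule.add_mem _ ht (LL_mono (by omega) hs))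
      (LL_mono (by omega) hr), ?_⟩
    have : w = Dm r := by
      funext ⟨σ, b⟩
      by_cases hσ : σ = 0
      · rw [hσ, e]
      · have h3 : hd σ ≠ 0 := by fin_cases σ <;> simp [hd] at hσ ⊢
        rw [(hw (σ, b)).2 h3, ((Dm_mem X.side Dm (X.lead n) hr) (σ, b)).2 h3]
    rw [map_add, map_add, ← this, ← hwe]; abel
  have m : ∀ b, w (0, b) ∈ WW 0 (n - (par b).val) := fun b => by
    simpa [io, wo, sft] using LL0 hw (0, b)
  by_cases hn : n = 2
  · have p : ∀ b, ∃ lm : ℚ × ℚ, (par b = 0 → lm.1 = 0 ∧ lm.2 = 0) ∧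
        w (0, b) = lm.1 • x 0 + lm.2 • x 1 := by
      intro b
      rcases par_cases (par b) with h | h
      · exact ⟨0, by simp, by simp [hs' (by omega) b h]⟩
      · obtain ⟨l, m', e⟩ := WW_one (WW_mono (m b) le_rfl (by simp [h, hn]))
        exact ⟨(l, m'), by simp [h], e⟩
    choose lm h3 h4 using p
    obtain ⟨ν, hν, hν'⟩ := hA2 hn (fun b => (lm b).1) (fun b => (lm b).2) h3
      (by rw [← hwA]; congr 1; funext b; exact (h4 b).symm)
    refine fin (zn ν) (hn ▸ zn_mem hν) fun c => ?_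
    rw [X.D_zn hν, h4, (hν' c).1, (hν' c).2]
  · have p : ∀ b, ∃ l : ℚ, (((par b).val : ℤ) ≠ n → l = 0) ∧ w (0, b) = l • 1 := by
      intro b
      by_cases h : ((par b).val : ℤ) = n
      · obtain ⟨l, e⟩ := WW_zero' (WW_mono (m b) le_rfl (by omega))
        exact ⟨l, by simp [h], e⟩
      · refine ⟨0, by simp, ?_⟩
        rw [zero_smul]
        rcases par_cases (par b) with h' | h'
        · exact hs' (by simp [h'] at h; omega) b h'
        · exact WW_neg (by simp [h'] at h ⊢; omega) (m b)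
    choose l h3 h4 using p
    have := hA1 (by omega) l h3 (by rw [← hwA]; congr 1; funext b; exact (h4 b).symm)
    refine fin 0 (zero_mem _) fun c => ?_
    rw [h4, this]; simp

end Cx

end Vale.Agent.P195
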