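import Vale.Agent.P195.TS

namespace Vale.Agent.P195

open Matrix

section
variable {A : Type} [Fintype A]

noncomputable def cG (X : Matrix A A R) : (A → MM) →ₗ[ℚ] (A → MM) :=
  LinearMap.pi fun g => ∑ g', act (X g g') ∘ₗ LinearMap.proj g'

theorem cG_apply (X : Matrix A A R) (μ : A → MM) (g : A) : cG X μ g = ∑ g', act (X g g') (μ g') := by
  simp [cG]

theorem cG_mul {X Y : Matrix A A R} (hX : ∀ g g', X g g' ∈ GA) (hY : ∀ g g', Y g g' ∈ GA)
    (μ : A → MM) : cG (X * Y) μ = cG X (cG Y μ) := by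
  funext g
  simp only [cG_apply, mul_apply, map_sum, LinearMap.sum_apply, act_mulG (hX _ _) (hY _ _)]
  exact Finset.sum_comm

theorem cG_add (X Y : Matrix A A R) (μ : A → MM) : cG (X + Y) μ = cG X μ + cG Y μ := by
  funext g; simp [cG_apply, Finset.sum_add_distrib]
theorem cG_sub (X Y : Matrix A A R) (μ : A → MM) : cG (X - Y) μ = cG X μ - cG Y μ := by
  funext g; simp [cG_apply]
theorem cG_smul (c : ℚ) (X : Matrix A A R) (μ : A → MM) : cG (c • X) μ = c • cG X μ := by
  funext g; simp [cG_apply, Finset.smul_sum]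
theorem cG_zero (μ : A → MM) : cG (0 : Matrix A A R) μ = 0 := by
  funext g; simp [cG_apply]
end

variable {n : ℕ}

theorem cG_big (X : Matrix (Fin 6) (Fin 6) (MR n)) (μ : AA n → MM) (σ : Fin 6) (b : II n) :
    cG (big X) μ (σ, b) = ∑ τ, cG (X σ τ) (fun c => μ (τ, c)) b := by
  simp only [cG_apply, Fintype.sum_prod_type]; rfl

theorem cG_dg (f : Fin 2 → R) (v : II n → MM) (b : II n) : cG (dg f) v b = act (f (par b)) (v b) := by
  rw [cG_apply, Finset.sum_eq_single b]
  · simp [dg_apply]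
  · intro c _ hc; simp [dg_apply, hc.symm]
  · simp

theorem cG_cm (Y : Matrix (II n) (II n) ℚ) (v : II n → MM) (b : II n) :
    cG (cm Y) v b = ∑ c, Y b c • v c := by simp only [cG_apply, cm_apply, act_smul1]

theorem cG_sG (i j : Fin 2) (v : II n → MM) (b : II n) :
    cG (ss n i * GG n j) v b = act (sv i (par b)) (cG (GG n j) v b) := by
  rw [GG, cG_cm, map_sum, cG_apply]
  simp only [ss, dg_mul, cm_apply, mul_smul_comm, mul_one, map_smul, LinearMap.smul_apply]

theorem cG_GG (i j : Fin 2) (v : II n → MM) : cG (GG n i * GG n j) v = cG (GG n i) (cG (GG n j) v) :=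
  cG_mul (fun _ _ => by rw [GG, cm_apply]; exact GA.smul_mem GA.one_mem _)
    (fun _ _ => by rw [GG, cm_apply]; exact GA.smul_mem GA.one_mem _) v

def Nm (μ : AA n → MM) : Prop := ∀ g, μ g ∈ Md (1 - wo g.1 (par g.2))

theorem Nm.cG {μ : AA n → MM} (h : Nm μ) {X : MA n}
    (hX : ∀ g g', ∃ p, X g g' ∈ WW p (wo g.1 (par g.2) - wo g'.1 (par g'.2))) : Nm (cG X μ) :=
  fun g => by
    rw [cG_apply]
    exact Submodule.sum_mem _ fun g' _ => act_mem (hX g g').choose_spec (h g') (by omega)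

theorem cG_z {X : MA n} {μ : AA n → MM} {g : AA n} (h : ∀ g', X g g' = 0 ∨ μ g' = 0) :
    cG X μ g = 0 := by
  rw [cG_apply]
  exact Finset.sum_eq_zero fun g' _ => by rcases h g' with e | e <;> simp [e]

theorem Only.cG {h k : ℕ} {μ : AA n → MM} (o : Only h μ) {X : MA n}
    (hX : ∀ g g', hd g.1 ≠ hd g'.1 + k → X g g' = 0) : Only (h + k) (cG X μ) := fun g hg =>
  cG_z fun g' => by
    by_cases e : hd g'.1 = h
    · exact Or.inl (hX g g' (by omega))
    · exact Or.inr (o g' e)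

theorem Only.zero {h : ℕ} {μ : AA n → MM} (o : Only h μ) (hh : 3 < h) : μ = 0 :=
  funext fun g => o g (by have := hd_le g.1; omega)

theorem d_GA (g g' : AA n) : dB n g g' ∈ GA := W_GA (Ent_d g g').1

theorem Ent_k (g g' : AA n) : kB n g g' ∈ WW 1 (wo g.1 (par g.2) - wo g'.1 (par g'.2)) ∧
    (hd g.1 + 1 ≠ hd g'.1 → kB n g g' = 0) := by
  obtain ⟨σ, b⟩ := g
  obtain ⟨τ, c⟩ := g'
  have hb := (par b).isLt
  have hc := (par c).isLt
  have h1 : ∀ W, (par c = par b → W = 0) → (1 : MR n) b c ∈ WW 1 W := fun W h => by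
    rw [← map_one dg]; exact dg_mem fun e => h e ▸ one_mem_Sp (by omega)
  induction σ using all6 <;> induction τ using all6 <;>
    simp only [kB, big_apply, kap, of_apply, cons_val', cons_val, cons_val_fin_one, cons_val_zero,
      cons_val_one, Matrix.zero_apply, zero_mem, implies_true, and_self, hd, wo, sft,
      Matrix.sub_apply, Matrix.add_apply, Matrix.neg_apply, ne_eq, not_true, false_implies,
      and_true, zero_add, Nat.reduceAdd, neg_mem_iff]
  · exact add_mem (dg_mem fun e => Sp_to (tv_mem _ _) (by omega) (by rw [e]; omega))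
      (G_mem fun _ => by omega)
  · exact add_mem (dg_mem fun e => Sp_to (tv_mem _ _) (by omega) (by rw [e]; omega))
      (G_mem fun _ => by omega)
  · exact h1 _ fun e => by rw [e]; omega
  · exact h1 _ fun e => by rw [e]; omega
  · exact sub_mem (dg_mem fun e => Sp_to (sv_mem _ _) (by omega) (by rw [e]; omega))
      (G_mem fun _ => by omega)
  · exact sub_mem (dg_mem fun e => Sp_to (sv_mem _ _) (by omega) (by rw [e]; omega))
      (G_mem fun _ => by omega)

theorem ts_act (a : Fin 2) {d : ℤ} {m : MM} (hm : m ∈ Md d) :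
    act (tv 0 a * sv 0 a + tv 1 a * sv 1 a) m = (-d - 2 * a.val : ℚ) • m := by
  have h := euler_act hm
  rw [← act_mul (x_mem 0) (D_mem 0), ← act_mul (x_mem 1) (D_mem 1)] at h
  induction a using all2
  · simp only [tv, sv, cons_val_zero, D_x, if_true, map_add, LinearMap.add_apply, act_one]
    rw [add_add_add_comm, h]; simp; module
  · simp only [tv, sv, cons_val_one, cons_val_fin_one, map_add, LinearMap.add_apply, h]
    simp; module

theorem homot {μ : AA n → MM} (h : Nm μ) :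
    cG (dB n) (cG (kB n) μ) + cG (kB n) (cG (dB n) μ) = ((n : ℚ) - 1) • μ := by
  have hk : ∀ g g' : AA n, kB n g g' ∈ GA := fun g g' => W_GA (Ent_k g g').1
  rw [← cG_mul d_GA hk, ← cG_mul hk d_GA, ← cG_add, dB, kB, ← map_mul, ← map_mul, ← map_add,
    relM.dd_kap]
  funext ⟨σ, b⟩
  rw [cG_big, Finset.sum_eq_single σ (fun τ _ e => by rw [diagonal_apply_ne _ e.symm, cG_zero]; rfl)
    (by simp), diagonal_apply_eq, cG_sub, cG_sub]
  have e1 : GG n 0 * GG n 0 + GG n 1 * GG n 1 = dg fun a => (-n - a.val : ℚ) • 1 := by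
    simp only [GG, ← map_mul, Sg_mul, ← map_add, mtu_add]
    ext b c
    rw [cm_apply, dg_apply, mtu, of_apply, Pi.add_apply, ts_act _ (bv_mem b), Finsupp.smul_apply]
    split_ifs with e
    · subst e; simp [bv]; congr 1; ring
    · rw [bv, Finsupp.single_eq_of_ne (fun h => e (Subtype.ext h.symm))]; simp
  have e2 : tt n 0 * ss n 0 + tt n 1 * ss n 1 = dg fun a => tv 0 a * sv 0 a + tv 1 a * sv 1 a := by
    simp only [tt, ss, ← map_mul, ← map_add]; rfl
  have e3 : cG ((![0, dg etv, dg etv, dg etv, dg etv, 0] : Fin 6 → MR n) σ) (fun c => μ (σ, c)) b =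
      ((wo σ (par b) - (par b).val : ℤ) : ℚ) • μ (σ, b) := by
    induction σ using all6 <;> simp only [cons_val, cG_zero, cG_dg, etv, act_smul1, wo, sft] <;>
      generalize par b = a <;> induction a using all2 <;> simp [etq]
  rw [e1, e2, Pi.sub_apply, Pi.sub_apply, e3, cG_dg, cG_dg, ts_act _ (h (σ, b)), act_smul1,
    Pi.smul_apply]
  push_cast; module

structure Coh (n : ℕ) (ι : AA n → MM) : Prop where
  N : Nm ι
  O : Only 0 ι
  d : cG (dB n) ι = 0
  h0 : ∀ μ, Nm μ → Only 0 μ → cG (dB n) μ = 0 → ∃ l : ℚ, μ = l • ι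
  h1 : ∀ μ, Nm μ → Only 1 μ → cG (dB n) μ = 0 → ∃ ν, Nm ν ∧ Only 0 ν ∧ μ = cG (dB n) ν
  h2 : ∀ μ, Nm μ → Only 2 μ → cG (dB n) μ = 0 → ∃ ν, Nm ν ∧ Only 1 ν ∧ μ = cG (dB n) ν
  h3 : ∀ μ, Nm μ → Only 3 μ → ∃ ν, ∃ l : ℚ, Nm ν ∧ Only 2 ν ∧ μ = cG (dB n) ν + l • cG (eB n) ι
  s : ∀ ν, ∀ l : ℚ, Nm ν → cG (dB n) ν + l • cG (eB n) ι = 0 → l • ι = 0

theorem coh2 (hn : n ≠ 1) : Coh n 0 := by
  have hc : (n : ℚ) - 1 ≠ 0 := sub_ne_zero.mpr (by exact_mod_cast hn)
  have key : ∀ h μ, Nm μ → Only h μ → cG (dB n) μ = 0 → ∃ ν, Nm ν ∧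
      (∀ g, hd g.1 + 1 ≠ h → ν g = 0) ∧ μ = cG (dB n) ν := fun h μ hμ o e => by
    have := homot hμ
    rw [e, map_zero, add_zero] at this
    refine ⟨((n : ℚ) - 1)⁻¹ • cG (kB n) μ, fun g => Submodule.smul_mem _ _
      (hμ.cG (fun g g' => ⟨_, (Ent_k g g').1⟩) g), fun g hg => ?_, ?_⟩
    · rw [Pi.smul_apply, cG_z, smul_zero]
      intro g'
      by_cases e : hd g'.1 = h
      · exact Or.inl ((Ent_k g g').2 (by omega))
      · exact Or.inr (o g' e)
    · rw [map_smul, this, smul_smul, inv_mul_cancel₀ hc, one_smul]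
  refine ⟨fun _ => zero_mem _, fun _ _ => rfl, map_zero _, fun μ hμ o e => ⟨0, ?_⟩,
    fun μ hμ o e => ?_, fun μ hμ o e => ?_, fun μ hμ o => ?_, fun _ _ _ _ => smul_zero _⟩
  · obtain ⟨ν, -, h1, h2⟩ := key 0 μ hμ o e
    rw [h2, show ν = 0 from funext fun g => h1 g (by omega), map_zero, smul_zero]
  · obtain ⟨ν, h0, h1, h2⟩ := key 1 μ hμ o e
    exact ⟨ν, h0, fun g hg => h1 g (by omega), h2⟩
  · obtain ⟨ν, h0, h1, h2⟩ := key 2 μ hμ o e
    exact ⟨ν, h0, fun g hg => h1 g (by omega), h2⟩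
  · obtain ⟨ν, h0, h1, h2⟩ := key 3 μ hμ o ((o.cG dz).zero (by omega))
    exact ⟨ν, 0, h0, fun g hg => h1 g (by omega), by simpa using h2⟩

def bb (j : Fin 2) : II 1 := ⟨en j, Or.inl (by induction j using all2 <;> rfl)⟩
def bo : II 1 := ⟨0, Or.inr rfl⟩

theorem II1 {motive : II 1 → Prop} (h0 : motive (bb 0)) (h1 : motive (bb 1)) (h2 : motive bo)
    (b : II 1) : motive b := by
  have hk := b.2
  have e : ∀ c : II 1, b.1 0 = c.1 0 → b.1 1 = c.1 1 → b = c := fun c g0 g1 =>
    Subtype.ext (funext (all2 g0 g1))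
  have : (b.1 0 = 1 ∧ b.1 1 = 0) ∨ (b.1 0 = 0 ∧ b.1 1 = 1) ∨ (b.1 0 = 0 ∧ b.1 1 = 0) := by omega
  rcases this with h | h | h
  · rw [e (bb 0) h.1 h.2]; exact h0
  · rw [e (bb 1) h.1 h.2]; exact h1
  · rw [e bo h.1 h.2]; exact h2

theorem par_bb (j : Fin 2) : par (bb j) = 0 := by induction j using all2 <;> rfl
theorem par_bo : par bo = 1 := rfl
theorem bb_ne : bb 0 ≠ bb 1 := by decide
theorem bb_bo (j : Fin 2) : bb j ≠ bo := by induction j using all2 <;> decide

theorem x_coef (i : Fin 2) (m : MM) (k : Fin 2 → ℕ) : act (x i) m k = m (k + en i) :=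
  MM_ext (f := Finsupp.lapply k ∘ₗ act (x i)) (g := Finsupp.lapply (k + en i)) (fun l => by
    simp only [LinearMap.comp_apply, Finsupp.lapply_apply, act_x]
    split_ifs with h
    · rw [Finsupp.single_eq_of_ne]; · rfl
      intro e; rw [← e] at h; simp at h
    · simp only [Finsupp.single_apply]
      refine if_congr ⟨fun e => ?_, fun e => by simp [e]⟩ rfl rfl
      rw [← e]; funext j
      induction i using all2 <;> induction j using all2 <;> simp at h ⊢ <;> omega) m

theorem Md0 {m : MM} (hm : m ∈ Md 0) : m = m 0 • bv bo := by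
  have := cmb_of (n := 1) (a := 1) hm
  rw [cmb, Finset.sum_eq_single bo] at this
  · exact this.symm
  · intro b _ hb
    rw [coef_zero hm b, zero_smul]
    induction b using II1 <;> simp [par_bb] at hb ⊢
  · simp

theorem x_bo (i : Fin 2) : act (x i) (bv bo) = 0 := by rw [bv, act_x]; exact if_pos rfl
theorem D_bo (i : Fin 2) : act (D i) (bv bo) = -bv (bb i) := by rw [bv, act_D]; simp [bo, bv, bb]
theorem x_Md0 (i : Fin 2) {m : MM} (hm : m ∈ Md 0) : act (x i) m = 0 := by
  rw [Md0 hm, map_smul, x_bo, smul_zero]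

theorem bv_coef (b c : II n) : bv b c.1 = if b = c then 1 else 0 := by
  rw [bv, Finsupp.single_apply]; exact if_congr Subtype.ext_iff.symm rfl rfl

theorem sum_II1 {U : Type} [AddCommMonoid U] (f : II 1 → U) :
    ∑ b, f b = f (bb 0) + f (bb 1) + f bo := by
  have : (Finset.univ : Finset (II 1)) = {bb 0, bb 1, bo} := by
    ext b; induction b using II1 <;> simp
  rw [this, Finset.sum_insert (by simp [bb_ne, bb_bo]), Finset.sum_pair (bb_bo 1), add_assoc]

theorem G_bb (i j : Fin 2) (v : II 1 → MM) : cG (GG 1 i) v (bb j) = if i = j then v bo else 0 := by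
  rw [GG, cG_cm, sum_II1, Sg_zero (by simp [par_bb]), Sg_zero (by simp [par_bb])]
  simp only [Sg, mtu, of_apply, par_bb, sv, cons_val_zero, x_coef]
  induction i using all2 <;> induction j using all2 <;>
    simp [bv, bb, bo, Finsupp.single_apply, funext_iff, Fin.forall_fin_two]

theorem G_bo (i : Fin 2) (v : II 1 → MM) : cG (GG 1 i) v bo = -v (bb i) := by
  rw [GG, cG_cm, sum_II1, Sg_zero (b := bo) (c := bo) (by simp [par_bo])]
  simp only [Sg, mtu, of_apply, par_bo, sv, cons_val_one, cons_val_fin_one, D_bo, Finsupp.neg_apply,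
    bv_coef]
  induction i using all2 <;> simp [bb_ne, bb_ne.symm]

theorem d_form (μ : AA n → MM) (b : II n) : cG (dB n) μ (0, b) = 0 ∧
    cG (dB n) μ (1, b) = act (sv 0 (par b)) (μ (0, b)) - cG (GG n 0) (fun c => μ (0, c)) b ∧
    cG (dB n) μ (2, b) = act (sv 1 (par b)) (μ (0, b)) - cG (GG n 1) (fun c => μ (0, c)) b ∧
    cG (dB n) μ (3, b) = act (tv 0 (par b) * sv 1 (par b)) (μ (1, b)) +
      (act (sv 1 (par b)) (cG (GG n 0) (fun c => μ (1, c)) b) -
      act (sv 0 (par b)) (cG (GG n 1) (fun c => μ (1, c)) b) -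
      cG (GG n 1) (cG (GG n 0) fun c => μ (1, c)) b) +
      (cG (GG n 0) (cG (GG n 0) fun c => μ (2, c)) b - act (tv 0 (par b) * sv 0 (par b)) (μ (2, b))) ∧
    cG (dB n) μ (4, b) = cG (GG n 1) (cG (GG n 1) fun c => μ (1, c)) b -
      act (tv 1 (par b) * sv 1 (par b)) (μ (1, b)) + (act (tv 1 (par b) * sv 0 (par b)) (μ (2, b)) +
      (act (sv 0 (par b)) (cG (GG n 1) (fun c => μ (2, c)) b) -
      act (sv 1 (par b)) (cG (GG n 0) (fun c => μ (2, c)) b) -
      cG (GG n 0) (cG (GG n 1) fun c => μ (2, c)) b)) ∧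
    cG (dB n) μ (5, b) = act (tv 1 (par b)) (μ (3, b)) + cG (GG n 1) (fun c => μ (3, c)) b +
      (act (tv 0 (par b)) (μ (4, b)) + cG (GG n 0) (fun c => μ (4, c)) b) := by
  have e : ∀ i j, tt n i * ss n j = dg (tv i * sv j) := fun i j => (map_mul _ _ _).symm
  simp only [dB, cG_big, dd, Fin.sum_univ_six, of_apply, cons_val', cons_val, cons_val_fin_one,
    cons_val_zero, cons_val_one, cG_zero, Pi.zero_apply, add_zero, zero_add, cG_add, cG_sub,
    Pi.add_apply, Pi.sub_apply, cG_sG, cG_GG, e, cG_dg, Pi.mul_apply]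
  simp only [ss, tt, cG_dg, and_self]

theorem e_form (μ : AA n → MM) (σ : Fin 6) (b : II n) :
    cG (eB n) μ (σ, b) = if σ = 5 then μ (0, b) else 0 := by
  have : ∀ v : II n → MM, cG (1 : MR n) v b = v b := fun v => by
    rw [← map_one dg, cG_dg]; exact act_one _
  induction σ using all6 <;>
    simp only [eB, cG_big, eps, Fin.sum_univ_six, of_apply, cons_val', cons_val, cons_val_fin_one,
      cons_val_zero, cons_val_one, cG_zero, Pi.zero_apply, add_zero, this, Fin.reduceEq, if_true,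
      if_false]

theorem coh1 : Coh 1 bA := by
  have s0 : ∀ i, sv i 0 = x i := fun _ => rfl
  have s1 : ∀ i, sv i 1 = D i := fun _ => rfl
  have t0 : ∀ i, tv i 0 = D i := fun _ => rfl
  have t1 : ∀ i, tv i 1 = x i := fun _ => rfl
  have Dx : ∀ i j {m : MM}, m ∈ Md 0 → act (D i * x j) m = 0 := fun i j m hm => by
    rw [act_mul (D_mem i) (x_mem j), x_Md0 j hm, map_zero]
  refine ⟨fun g => ?_, fun g hg => if_neg fun e => hg (by rw [e]; rfl), funext fun g => ?_,
    fun μ hμ o e => ?_, fun μ hμ o e => ?_, fun μ hμ o e => ?_, fun μ hμ o => ?_, fun ν l hν e => ?_⟩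
  · unfold bA; split_ifs with h
    · convert bv_mem g.2 using 2; simp [h, wo, sft]
    · exact zero_mem _
  · rw [cG_apply]; exact aug_d g
  · have m : μ (0, bo) ∈ Md 0 := hμ (0, bo)
    have h1 := (d_form μ bo).2.1
    have h2 := (d_form μ bo).2.2.1
    rw [e, G_bo, par_bo, s1, Md0 m, map_smul, D_bo] at h1 h2
    refine ⟨μ (0, bo) 0, funext fun ⟨σ, b⟩ => ?_⟩
    by_cases hσ : σ = 0
    · subst hσ
      induction b using II1 <;> simp only [Pi.smul_apply, bA, if_true]
      · simp only [Pi.zero_apply] at h1; linear_combination (norm := module) -h1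
      · simp only [Pi.zero_apply] at h2; linear_combination (norm := module) -h2
      · exact Md0 m
    · rw [o _ (by induction σ using all6 <;> simp [hd] at hσ ⊢)]; simp [bA, hσ]
  · have m : ∀ j, μ (1, bb j) ∈ Md 0 ∧ μ (2, bb j) ∈ Md 0 := fun j =>
      ⟨by simpa [wo, sft, par_bb] using hμ (1, bb j), by simpa [wo, sft, par_bb] using hμ (2, bb j)⟩
    have h1 := (d_form μ (bb 0)).2.2.2.1
    have h2 := (d_form μ (bb 1)).2.2.2.1
    have h3 := (d_form μ (bb 0)).2.2.2.2.1
    have h4 := (d_form μ (bb 1)).2.2.2.2.1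
    simp only [e, par_bb, s0, t0, Dx _ _ (m _).1, Dx _ _ (m _).2, G_bb, G_bo, Pi.zero_apply,
      if_true, zero_ne_one, one_ne_zero, if_false, map_zero] at h1 h2 h3 h4
    refine ⟨fun g => if g = (0, bb 0) then μ (1, bo) else if g = (0, bb 1) then μ (2, bo) else 0,
      fun g => ?_, fun g hg => ?_, funext fun ⟨σ, b⟩ => ?_⟩
    · dsimp only; split_ifs with h h'
      · rw [h]; exact hμ (1, bo)
      · rw [h']; exact hμ (2, bo)
      · exact zero_mem _
    · dsimp only; rw [if_neg, if_neg] <;> rintro rfl <;> exact hg rfl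
    · have z : ∀ σ, hd σ ≠ 1 → _ := fun σ => o (σ, b)
      induction σ using all6
      · rw [z 0 (by decide), (d_form _ b).1]
      · rw [(d_form _ b).2.1]
        induction b using II1 <;> simp [G_bb, G_bo, par_bb, par_bo, s0, bb_ne.symm, (bb_bo _).symm]
        · linear_combination (norm := module) -h2
        · linear_combination (norm := module) h4
      · rw [(d_form _ b).2.2.1]
        induction b using II1 <;> simp [G_bb, G_bo, par_bb, par_bo, s0, bb_ne.symm, (bb_bo _).symm]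
        · linear_combination (norm := module) h1
        · linear_combination (norm := module) -h3
      · rw [z 3 (by decide), (d_form _ b).2.2.2.1]; simp [cG_apply]
      · rw [z 4 (by decide), (d_form _ b).2.2.2.2.1]; simp [cG_apply]
      · rw [z 5 (by decide), (d_form _ b).2.2.2.2.2]; simp [cG_apply]
  · have m : ∀ j, μ (3, bb j) ∈ Md 0 ∧ μ (4, bb j) ∈ Md 0 := fun j =>
      ⟨by simpa [wo, sft, par_bb] using hμ (3, bb j), by simpa [wo, sft, par_bb] using hμ (4, bb j)⟩
    let ν : AA 1 → MM := fun g => if g = (1, bo) then Up 1 (μ (3, bb 0)) - Up 0 (μ (3, bb 1)) else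
      if g = (2, bo) then Up 0 (μ (4, bb 1)) - Up 1 (μ (4, bb 0)) else 0
    have oν : Only 1 ν := fun g hg => by
      simp only [ν]; rw [if_neg, if_neg] <;> rintro rfl <;> exact hg rfl
    have k : ∀ j, (μ - cG (dB 1) ν) (3, bb j) = 0 ∧ (μ - cG (dB 1) ν) (4, bb j) = 0 := fun j => by
      rw [Pi.sub_apply, Pi.sub_apply, (d_form _ _).2.2.2.1, (d_form _ _).2.2.2.2.1]
      induction j using all2 <;>
        simp [ν, G_bb, G_bo, par_bb, s0, bb_bo, x_Up, x_Up' (show (1 : Fin 2) ≠ 0 by simp),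
          x_Up' (show (0 : Fin 2) ≠ 1 by simp), x_Md0 _ (m _).1, x_Md0 _ (m _).2]
    have e' : cG (dB 1) (μ - cG (dB 1) ν) = 0 := by
      rw [map_sub, e, ← cG_mul d_GA d_GA, dB_dB, cG_zero, sub_zero]
    have o' : Only 2 (μ - cG (dB 1) ν) := fun g hg => by
      rw [Pi.sub_apply, o g hg, oν.cG dz g hg, sub_zero]
    refine ⟨ν, fun g => ?_, oν, sub_eq_zero.mp ?_⟩
    · simp only [ν]; split_ifs with h h'
      · rw [h]; exact sub_mem (Up_mem 1 (m 0).1 rfl) (Up_mem 0 (m 1).1 rfl)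
      · rw [h']; exact sub_mem (Up_mem 0 (m 1).2 rfl) (Up_mem 1 (m 0).2 rfl)
      · exact zero_mem _
    · generalize μ - cG (dB 1) ν = ω at k e' o'
      have h1 := (d_form ω (bb 0)).2.2.2.2.2
      have h2 := (d_form ω (bb 1)).2.2.2.2.2
      simp only [e', k, G_bb, Pi.zero_apply, if_true, zero_ne_one, one_ne_zero, if_false, map_zero,
        zero_add, add_zero] at h1 h2
      funext ⟨σ, b⟩
      have z : ∀ σ, hd σ ≠ 2 → _ := fun σ => o' (σ, b)
      induction σ using all6
      exacts [z 0 (by decide), z 1 (by decide), z 2 (by decide),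
        II1 (motive := fun b => ω (3, b) = 0) (k 0).1 (k 1).1 h2.symm b,
        II1 (motive := fun b => ω (4, b) = 0) (k 0).2 (k 1).2 h1.symm b, z 5 (by decide)]
  · have m : ∀ j, μ (5, bb j) ∈ Md 1 := fun j => by simpa [wo, sft, par_bb] using hμ (5, bb j)
    have m' : ∀ j, bv (bb j) ∈ Md 1 := fun j => by simpa [par_bb] using bv_mem (bb j)
    let l : ℚ := μ (5, bb 0) (en 0) + μ (5, bb 1) (en 1) - μ (5, bo) 0
    refine ⟨fun g => if g = (3, bo) then μ (5, bb 1) - l • bv (bb 1) else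
      if g = (4, bo) then μ (5, bb 0) - l • bv (bb 0) else 0, l, fun g => ?_, fun g hg => ?_,
      funext fun ⟨σ, b⟩ => ?_⟩
    · dsimp only; split_ifs with h h'
      · rw [h]; exact sub_mem (m 1) (Submodule.smul_mem _ _ (m' 1))
      · rw [h']; exact sub_mem (m 0) (Submodule.smul_mem _ _ (m' 0))
      · exact zero_mem _
    · dsimp only; rw [if_neg, if_neg] <;> rintro rfl <;> exact hg rfl
    · have z : ∀ σ, hd σ ≠ 3 → _ := fun σ => o (σ, b)
      rw [Pi.add_apply, Pi.smul_apply, e_form]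
      induction σ using all6
      · rw [z 0 (by decide), (d_form _ b).1]; simp
      · rw [z 1 (by decide), (d_form _ b).2.1]; simp [cG_apply]
      · rw [z 2 (by decide), (d_form _ b).2.2.1]; simp [cG_apply]
      · rw [z 3 (by decide), (d_form _ b).2.2.2.1]; simp [cG_apply]
      · rw [z 4 (by decide), (d_form _ b).2.2.2.2.1]; simp [cG_apply]
      · rw [(d_form _ b).2.2.2.2.2]
        induction b using II1 <;> simp [G_bb, G_bo, par_bo, t1, bb_bo, bA]
        have h0 : μ (5, bo) ∈ Md 0 := hμ (5, bo)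
        rw [Md0 h0, Md0 (act_mem (x_mem 1) (m 1) rfl), Md0 (act_mem (x_mem 0) (m 0) rfl),
          Md0 (act_mem (x_mem 1) (m' 1) rfl), Md0 (act_mem (x_mem 0) (m' 0) rfl)]
        simp only [x_coef, zero_add, l]
        simp only [bv, bb, Finsupp.single_eq_same]
        module
  · have m : ∀ j, ν (3, bb j) ∈ Md 0 ∧ ν (4, bb j) ∈ Md 0 := fun j =>
      ⟨by simpa [wo, sft, par_bb] using hν (3, bb j), by simpa [wo, sft, par_bb] using hν (4, bb j)⟩
    have h1 := congrArg (· (bb 0).1) (congrFun e (5, bb 0))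
    have h2 := congrArg (· (bb 1).1) (congrFun e (5, bb 1))
    have h3 := congrArg (· bo.1) (congrFun e (5, bo))
    have Dm : ∀ i j {m : MM}, m ∈ Md 0 → act (D i) m (bb j).1 = if i = j then -m 0 else 0 :=
      fun i j m hm => by
        rw [Md0 hm, map_smul, D_bo]
        induction i using all2 <;> induction j using all2 <;>
          simp [bv_coef, bb_ne, bb_ne.symm, ← Md0 hm]
    simp only [Pi.add_apply, Pi.smul_apply, e_form, (d_form _ _).2.2.2.2.2, G_bb, G_bo, par_bb, par_bo,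
      t0, t1, if_true, zero_ne_one, one_ne_zero, if_false, Finsupp.add_apply, Finsupp.smul_apply,
      Dm _ _ (m _).1, Dm _ _ (m _).2, x_coef, bA, bv_coef, Pi.zero_apply, Finsupp.zero_apply,
      Finsupp.neg_apply, smul_eq_mul] at h1 h2 h3
    simp only [bb, bo, zero_add] at h1 h2 h3
    rw [show l = 0 by linarith, zero_smul]

theorem Coh.core {ι : AA n → MM} (C : Coh n ι) (k : ℕ) {μ : AA n → MM} (hμ : Nm μ)
    (s : ∀ g, ¬P1 (k + 1) g → μ g = 0) (e : cG (Mc n ((k + 1) / 2)) μ = 0) :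
    ∃ ν, Nm ν ∧ (∀ g, ¬P1 k g → ν g = 0) ∧ μ = cG (Mc n (k / 2)) ν := by
  let π : ℕ → AA n → MM := fun h g => if hd g.1 = h then μ g else 0
  have hπ : ∀ h, Nm (π h) := fun h g => by
    simp only [π]; split_ifs
    exacts [hμ g, zero_mem _]
  have oπ : ∀ h, Only h (π h) := fun h g hg => if_neg hg
  have eM : ∀ c ν, cG (Mc n c) ν = cG (dB n) ν + (c : ℚ) • cG (eB n) ν := fun c ν => by
    rw [Mc, cG_add, cG_smul]
  have ez' : ∀ {h ν}, Only h ν → h ≠ 0 → cG (eB n) ν = 0 := fun o h => (o.cG ez).zero (by omega)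
  by_cases hk : k % 2 = 1
  · have e0 : μ = π 0 + π 2 := funext fun g => by
      simp only [π, Pi.add_apply]; split_ifs with h1 h2 h2
      · omega
      · simp
      · simp
      · rw [s g (by have := hd_le g.1; unfold P1; omega), add_zero]
    rw [e0, eM, map_add, map_add, ez' (oπ 2) (by omega), add_zero] at e
    have e1 : cG (dB n) (π 0) = 0 := funext fun g => by
      by_cases h : hd g.1 = 1
      · have := congrFun e g
        rwa [Pi.add_apply, Pi.add_apply, Pi.smul_apply, (oπ 2).cG dz g (by omega),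
          (oπ 0).cG ez g (by omega), smul_zero, add_zero, add_zero] at this
      · exact (oπ 0).cG dz g h
    obtain ⟨l, hl⟩ := C.h0 _ (hπ 0) (oπ 0) e1
    rw [e1, zero_add, hl, map_smul, smul_smul] at e
    have h1 := C.s _ _ (hπ 2) e
    rw [mul_smul, smul_eq_zero, ← hl] at h1
    have h2 := h1.resolve_left (by norm_cast; omega)
    rw [mul_smul, ← map_smul, ← hl, h2, map_zero, smul_zero, add_zero] at e
    obtain ⟨ν, h3, h4, h5⟩ := C.h2 _ (hπ 2) (oπ 2) e
    exact ⟨ν, h3, fun g hg => h4 g fun e => hg (by unfold P1; omega), by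
      rw [eM, ez' h4 (by omega), smul_zero, add_zero, ← h5, e0, h2, zero_add]⟩
  · have e0 : μ = π 1 + π 3 := funext fun g => by
      simp only [π, Pi.add_apply]; split_ifs with h1 h2 h2
      · omega
      · simp
      · simp
      · rw [s g (by have := hd_le g.1; unfold P1; omega), add_zero]
    rw [e0, eM, map_add, map_add, ez' (oπ 1) (by omega), ez' (oπ 3) (by omega),
      ((oπ 3).cG dz).zero (by omega), add_zero, add_zero, smul_zero, add_zero] at e
    obtain ⟨ν, h3, h4, h5⟩ := C.h1 _ (hπ 1) (oπ 1) e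
    by_cases h0 : k = 0
    · have : π 3 = 0 := funext fun g => by
        simp only [π]; split_ifs with h
        · exact s g (by unfold P1; omega)
        · rfl
      exact ⟨ν, h3, fun g hg => h4 g fun e => hg (by unfold P1; omega), by
        rw [eM, e0, this, h0, h5]; simp⟩
    · have hc : ((k / 2 : ℕ) : ℚ) ≠ 0 := by norm_cast; omega
      obtain ⟨ν', l, h6, h7, h8⟩ := C.h3 (π 3 - ((k / 2 : ℕ) : ℚ) • cG (eB n) ν)
        (fun g => Submodule.sub_mem _ (hπ 3 g) (Submodule.smul_mem _ _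
          (h3.cG (fun g g' => ⟨_, (Ent_e g g').1⟩) g)))
        (fun g hg => by rw [Pi.sub_apply, Pi.smul_apply, oπ 3 g hg, h4.cG ez g hg]; simp)
      refine ⟨ν + (l / (k / 2 : ℕ)) • ι + ν', fun g => Submodule.add_mem _ (Submodule.add_mem _
        (h3 g) (Submodule.smul_mem _ _ (C.N g))) (h6 g), fun g hg => ?_, ?_⟩
      · rw [Pi.add_apply, Pi.add_apply, Pi.smul_apply, h4 g fun e => hg (by unfold P1; omega),
          C.O g fun e => hg (by unfold P1; omega), h7 g fun e => hg (by unfold P1; omega)]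
        simp
      · rw [eM, e0]
        simp only [map_add, map_smul, C.d, ez' h7 (by omega), smul_add, smul_smul,
          mul_div_cancel₀ _ hc, ← h5]
        linear_combination (norm := module) h8

theorem colN (k : ℕ) {μ : AA n → MM} (hμ : Nm μ)
    (s : ∀ g, ¬P1 (k + 1) g → μ g = 0) (e : cG (Mc n ((k + 1) / 2)) μ = 0) :
    ∃ ν, Nm ν ∧ (∀ g, ¬P1 k g → ν g = 0) ∧ μ = cG (Mc n (k / 2)) ν := by
  by_cases h : n = 1
  · subst h; exact coh1.core k hμ s e
  · exact (coh2 h).core k hμ s e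

end Vale.Agent.P195
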