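import Vale.Agent.P195.Kos

namespace Vale.Agent.P195

/-- homological degree of a shape -/
def hd : Fin 6 → ℕ := ![0, 1, 1, 2, 2, 3]

def sft (s t : ℤ) : Fin 6 → ℤ := ![0, s, s, s + s + t, s + s + t, s + s + t + t]

/-- leading part of the differential -/
noncomputable def ld (S T : KP) (y : Fin 6 → R) : Fin 6 → R :=
  ![S.S 0 (y 1) + S.S 1 (y 2), S.S 1 (T.S 0 (y 3) - T.S 1 (y 4)),
    -S.S 0 (T.S 0 (y 3) - T.S 1 (y 4)), T.S 1 (y 5), T.S 0 (y 5), 0]

def Loc (S T : KP) (p m : ℤ) (h : ℕ) (y : Fin 6 → R) : Prop :=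
  ∀ σ, y σ ∈ WW (p - sft S.o T.o σ) (m - sft S.w T.w σ) ∧ (hd σ ≠ h → y σ = 0)

theorem loc_step (S T : KP) {p m : ℤ} (h1 : S.dg p m ≠ 0)
    (h2 : T.dg (p - S.o - S.o) (m - S.w - S.w) ≠ 0 ∨ S.dg (p - S.o - S.o) (m - S.w - S.w) < 0)
    (hST : ∀ p n, S.dg (p - T.o) (n - T.w) = S.dg p n) {h : ℕ} {y : Fin 6 → R}
    (hy : Loc S T p m h y) (hc : ∀ h', h = h' + 1 → Loc S T (p - 1) m h' (ld S T y)) :
    ∃ t, Loc S T p m (h + 1) t ∧ Loc S T (p - 1) m h (y - ld S T t) := by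
  have z : ∀ {q n : ℤ}, (0 : R) ∈ WW q n := zero_mem _
  rcases h with _ | _ | _ | _ | h
  · obtain ⟨v₀, g₀, v₁, g₁, g⟩ := S.K0 h1 (WW_mono (hy 0).1 (by simp [sft]) (by simp [sft]))
    have e1 := (hy 1).2 (by simp [hd]); have e2 := (hy 2).2 (by simp [hd])
    have e3 := (hy 3).2 (by simp [hd]); have e4 := (hy 4).2 (by simp [hd])
    have e5 := (hy 5).2 (by simp [hd])
    refine ⟨![0, v₀, v₁, 0, 0, 0], fun σ => ?_, fun σ => ?_⟩ <;> fin_cases σ <;>
      simp [sft, hd, ld, z, *]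
  · have e0 := (hy 0).2 (by simp [hd])
    have e3 := (hy 3).2 (by simp [hd]); have e4 := (hy 4).2 (by simp [hd])
    have e5 := (hy 5).2 (by simp [hd])
    obtain ⟨c, gc, g₀, g₁⟩ := S.K1 h1 (u₀ := y 1) (u₁ := y 2) (by simpa [sft] using (hy 1).1)
      (by simpa [sft] using (hy 2).1) (by simpa [sft, ld] using (hc 0 rfl 0).1)
    rcases h2 with h2 | h2
    · obtain ⟨v₀, f₀, v₁, f₁, f⟩ := T.K0 h2 gc
      have k0 := add_mem g₀ (S.S_mem' 1 f (by omega) (by omega))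
      have k1 := sub_mem g₁ (S.S_mem' 0 f (by omega) (by omega))
      simp only [map_sub, sub_add_sub_cancel] at k0
      simp only [map_sub] at k1
      refine ⟨![0, 0, 0, v₀, -v₁, 0], fun σ => ?_, fun σ => ?_⟩ <;> fin_cases σ <;>
        simp [sft, hd, ld, z, e0, e3, e4, e5]
      · exact WW_mono f₀ (by omega) (by omega)
      · exact WW_mono f₁ (by omega) (by omega)
      · exact WW_mono (by simpa using k0) (by omega) rfl
      · refine WW_mono (p := p - S.o - 1) ?_ (by omega) rfl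
        convert k1 using 1
        simp only [map_add]; abel
    · rw [S.neg h2 gc] at g₀ g₁
      refine ⟨0, fun σ => ⟨z, fun _ => rfl⟩, fun σ => ?_⟩
      fin_cases σ <;> simp [sft, hd, ld, z, e0, e3, e4, e5]
      · exact WW_mono (by simpa using g₀) (by omega) rfl
      · exact WW_mono (by simpa using g₁) (by omega) rfl
  · have e0 := (hy 0).2 (by simp [hd]); have e1 := (hy 1).2 (by simp [hd])
    have e2 := (hy 2).2 (by simp [hd]); have e5 := (hy 5).2 (by simp [hd])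
    have m3 : y 3 ∈ WW (p - S.o - S.o - T.o) (m - S.w - S.w - T.w) :=
      WW_mono (hy 3).1 (by simp only [sft, Matrix.cons_val]; omega)
        (by simp only [sft, Matrix.cons_val]; omega)
    have m4 : y 4 ∈ WW (p - S.o - S.o - T.o) (m - S.w - S.w - T.w) :=
      WW_mono (hy 4).1 (by simp only [sft, Matrix.cons_val]; omega)
        (by simp only [sft, Matrix.cons_val]; omega)
    rcases h2 with h2 | h2
    · have gc : T.S 0 (y 3) - T.S 1 (y 4) ∈ WW (p - S.o - S.o) (m - S.w - S.w) :=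
        sub_mem (T.S_mem' 0 m3 (by omega) (by omega)) (T.S_mem' 1 m4 (by omega) (by omega))
      have g0 := (hc 1 rfl 2).1
      have g1 := (hc 1 rfl 1).1
      simp only [ld, sft, Matrix.cons_val, neg_mem_iff] at g0 g1
      have g := S.K2 h1 gc (WW_mono g0 (by omega) rfl) (WW_mono g1 (by omega) rfl)
      obtain ⟨e, ge, f₀, f₁⟩ := T.K1 h2 m3 (neg_mem m4) (by simpa [sub_eq_add_neg] using g)
      have f₂ := neg_mem f₁
      refine ⟨![0, 0, 0, 0, 0, e], fun σ => ?_, fun σ => ?_⟩ <;> fin_cases σ <;>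
        simp [sft, hd, ld, z, e0, e1, e2, e5]
      · exact WW_mono ge (by omega) (by omega)
      · exact WW_mono f₀ (by omega) (by omega)
      · exact WW_mono (by simpa [sub_eq_neg_add] using f₂) (by omega) (by omega)
    · have e3 := S.neg (by rwa [hST]) m3
      have e4 := S.neg (by rwa [hST]) m4
      refine ⟨0, fun σ => ⟨z, fun _ => rfl⟩, fun σ => ?_⟩
      fin_cases σ <;> simp [sft, hd, ld, z, *]
  · have e0 := (hy 0).2 (by simp [hd]); have e1 := (hy 1).2 (by simp [hd])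
    have e2 := (hy 2).2 (by simp [hd]); have e3 := (hy 3).2 (by simp [hd])
    have e4 := (hy 4).2 (by simp [hd])
    have m5 : y 5 ∈ WW (p - S.o - S.o - T.o - T.o) (m - S.w - S.w - T.w - T.w) :=
      WW_mono (hy 5).1 (by simp only [sft, Matrix.cons_val]; omega)
        (by simp only [sft, Matrix.cons_val]; omega)
    refine ⟨0, fun σ => ⟨z, fun _ => rfl⟩, fun σ => ?_⟩
    rcases h2 with h2 | h2
    · have g0 := (hc 2 rfl 4).1
      have g1 := (hc 2 rfl 3).1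
      simp only [ld, sft, Matrix.cons_val] at g0 g1
      have g := T.K2 h2 m5 (WW_mono g0 (by omega) (by omega)) (WW_mono g1 (by omega) (by omega))
      fin_cases σ <;> simp [sft, hd, ld, z, e0, e1, e2, e3, e4]
      exact WW_mono g (by omega) (by omega)
    · have e5 := S.neg (by rwa [hST, hST]) m5
      fin_cases σ <;> simp [sft, hd, ld, z, *]
  · have e : y = 0 := funext fun σ => (hy σ).2 (by fin_cases σ <;> simp [hd])
    refine ⟨0, fun σ => ⟨z, fun _ => rfl⟩, fun σ => ?_⟩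
    fin_cases σ <;> simp [sft, hd, ld, z, e]

/-- order label of a generator -/
def io (σ : Fin 6) (a : Fin 2) : ℤ := sft a.val (1 - a.val) σ
/-- weight label of a generator -/
def wo (σ : Fin 6) (a : Fin 2) : ℤ := a.val + sft (1 - 2 * a.val) (2 * a.val - 1) σ

variable {I : Type}

/-- filtered pieces of the complex -/
noncomputable def LL (par : I → Fin 2) (ℓ n : ℤ) (h : ℕ) : Submodule ℚ (Fin 6 × I → R) where
  carrier := {y | ∀ g, y g ∈ WW ((ℓ + (par g.2).val) / 2 - io g.1 (par g.2)) (n - wo g.1 (par g.2)) ∧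
    (hd g.1 ≠ h → y g = 0)}
  zero_mem' := fun _ => ⟨zero_mem _, fun _ => rfl⟩
  add_mem' := by
    intro y z hy hz g
    exact ⟨add_mem (hy g).1 (hz g).1, fun h => by simp [(hy g).2 h, (hz g).2 h]⟩
  smul_mem' := by
    intro c y hy g
    exact ⟨Submodule.smul_mem _ c (hy g).1, fun h => by simp [(hy g).2 h]⟩

theorem LL_mono {par : I → Fin 2} {ℓ ℓ' n : ℤ} {h : ℕ} (hl : ℓ ≤ ℓ') {y : Fin 6 × I → R}
    (hy : y ∈ LL par ℓ n h) : y ∈ LL par ℓ' n h :=
  fun g => ⟨WW_mono (hy g).1 (by omega) rfl, (hy g).2⟩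

structure Side (Q : Fin 2 → KP) : Prop where
  o0 : (Q 0).o = 0
  w0 : (Q 0).w = 1
  d0 : ∀ p n, (Q 0).dg p n = n + p
  o1 : (Q 1).o = 1
  w1 : (Q 1).w = -1
  d1 : ∀ p n, (Q 1).dg p n = p

noncomputable def LD (Q : Fin 2 → KP) (par : I → Fin 2) (y : Fin 6 × I → R) : Fin 6 × I → R :=
  fun g => ld (Q (par g.2)) (Q (par g.2).rev) (fun σ => y (σ, g.2)) g.1

theorem mem_LL {Q : Fin 2 → KP} (hQ : Side Q) {par : I → Fin 2} {ℓ n : ℤ} {h : ℕ}
    {y : Fin 6 × I → R} : y ∈ LL par ℓ n h ↔ ∀ b, Loc (Q (par b)) (Q (par b).rev)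
      ((ℓ + (par b).val) / 2) (n - (par b).val) h fun σ => y (σ, b) := by
  have key : ∀ (a : Fin 2) σ, io σ a = sft (Q a).o (Q a.rev).o σ ∧
      n - wo σ a = n - a.val - sft (Q a).w (Q a.rev).w σ := by
    intro a σ
    have r0 : (0 : Fin 2).rev = 1 := rfl
    have r1 : (1 : Fin 2).rev = 0 := rfl
    fin_cases a <;> simp [io, wo, r0, r1, hQ.o0, hQ.o1, hQ.w0, hQ.w1, sub_sub]
  constructor
  · intro hy b σ
    rw [← (key _ _).1, ← (key _ _).2]; exact hy (σ, b)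
  · intro hy g
    rw [(key _ _).1, (key _ _).2]; exact hy g.2 g.1

theorem step {Q : Fin 2 → KP} (hQ : Side Q) {par : I → Fin 2} {n : ℤ} (hn : 0 ≤ n)
    (Dm : (Fin 6 × I → R) →ₗ[ℚ] (Fin 6 × I → R))
    (hD : ∀ ℓ h, ∀ y ∈ LL par ℓ n (h + 1), Dm y - LD Q par y ∈ LL par (ℓ - 1) n h)
    {ℓ : ℤ} {h : ℕ} (hl : 1 ≤ ℓ ∨ (ℓ = 0 ∧ n = 1)) {y : Fin 6 × I → R} (hy : y ∈ LL par ℓ n h)
    (hc : ∀ h', h = h' + 1 → Dm y ∈ LL par (ℓ - 1) n h') :
    ∃ t ∈ LL par ℓ n (h + 1), y - Dm t ∈ LL par (ℓ - 1) n h := by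
  have hc' : ∀ h', h = h' + 1 → LD Q par y ∈ LL par (ℓ - 1) n h' := by
    rintro h' rfl
    have := sub_mem (hc h' rfl) (hD ℓ h' y hy)
    simpa using this
  have key : ∀ b, ∃ t, Loc (Q (par b)) (Q (par b).rev) ((ℓ + (par b).val) / 2) (n - (par b).val)
      (h + 1) t ∧ Loc (Q (par b)) (Q (par b).rev) ((ℓ - 1 + (par b).val) / 2) (n - (par b).val) h
        ((fun σ => y (σ, b)) - ld (Q (par b)) (Q (par b).rev) t) := by
    intro b
    have hyb := (mem_LL hQ).mp hy b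
    by_cases hp : (ℓ - 1 + (par b).val) / 2 = (ℓ + (par b).val) / 2
    · refine ⟨0, fun σ => ⟨zero_mem _, fun _ => rfl⟩, ?_⟩
      have : ld (Q (par b)) (Q (par b).rev) 0 = 0 := by
        funext σ; fin_cases σ <;> simp [ld]
      rw [hp, this, sub_zero]; exact hyb
    · have e : (ℓ - 1 + (par b).val) / 2 = (ℓ + (par b).val) / 2 - 1 := by omega
      rw [e]
      have hcb := fun h' hh => (mem_LL hQ).mp (hc' h' hh) b
      simp only [e] at hcb
      have r0 : (0 : Fin 2).rev = 1 := rfl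
      have r1 : (1 : Fin 2).rev = 0 := rfl
      refine loc_step _ _ ?_ ?_ ?_ hyb hcb <;> generalize par b = a at hp <;> fin_cases a <;>
        simp [r0, r1, hQ.o0, hQ.o1, hQ.w0, hQ.w1, hQ.d0, hQ.d1] at hp ⊢ <;> omega
  choose t ht ht' using key
  have h1 : (fun g => t g.2 g.1) ∈ LL par ℓ n (h + 1) := (mem_LL hQ).mpr ht
  refine ⟨_, h1, ?_⟩
  have h2 : y - LD Q par (fun g => t g.2 g.1) ∈ LL par (ℓ - 1) n h := (mem_LL hQ).mpr ht'
  have := sub_mem h2 (hD ℓ h _ h1)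
  simpa using this

theorem ld_mem (S T : KP) {p m : ℤ} {h : ℕ} {y : Fin 6 → R} (hy : Loc S T p m (h + 1) y) :
    Loc S T p m h (ld S T y) := by
  have m1 := (hy 1).1; have m2 := (hy 2).1; have m3 := (hy 3).1; have m4 := (hy 4).1
  have m5 := (hy 5).1
  simp only [sft, Matrix.cons_val] at m1 m2 m3 m4 m5
  have gc : T.S 0 (y 3) - T.S 1 (y 4) ∈ WW (p - S.o - S.o) (m - S.w - S.w) :=
    sub_mem (T.S_mem' 0 m3 (by omega) (by omega)) (T.S_mem' 1 m4 (by omega) (by omega))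
  intro σ
  constructor
  · fin_cases σ <;> simp only [ld, sft, Fin.zero_eta, Fin.mk_one, Fin.reduceFinMk, Matrix.cons_val]
    · exact add_mem (S.S_mem' 0 m1 (by omega) (by omega)) (S.S_mem' 1 m2 (by omega) (by omega))
    · exact S.S_mem' 1 gc (by omega) (by omega)
    · exact neg_mem (S.S_mem' 0 gc (by omega) (by omega))
    · exact T.S_mem' 1 m5 (by omega) (by omega)
    · exact T.S_mem' 0 m5 (by omega) (by omega)
    · exact zero_mem _
  · intro hσ
    have e : ∀ τ, hd τ = hd σ + 1 → y τ = 0 := fun τ hτ => (hy τ).2 (by omega)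
    fin_cases σ
    · simp [ld, e 1 rfl, e 2 rfl]
    · simp [ld, e 3 rfl, e 4 rfl]
    · simp [ld, e 3 rfl, e 4 rfl]
    · simp [ld, e 5 rfl]
    · simp [ld, e 5 rfl]
    · simp [ld]

theorem Dm_mem {Q : Fin 2 → KP} (hQ : Side Q) {par : I → Fin 2} {n : ℤ}
    (Dm : (Fin 6 × I → R) →ₗ[ℚ] (Fin 6 × I → R))
    (hD : ∀ ℓ h, ∀ y ∈ LL par ℓ n (h + 1), Dm y - LD Q par y ∈ LL par (ℓ - 1) n h)
    {ℓ : ℤ} {h : ℕ} {y : Fin 6 × I → R} (hy : y ∈ LL par ℓ n (h + 1)) : Dm y ∈ LL par ℓ n h := by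
  have h1 : LD Q par y ∈ LL par ℓ n h := by
    rw [mem_LL hQ]
    intro b
    have h0 := (mem_LL hQ).mp hy b
    have h3 := ld_mem _ _ h0
    have e : (fun σ => LD Q par y (σ, b)) = ld (Q (par b)) (Q (par b).rev) (fun σ => y (σ, b)) := by
      funext σ; rw [LD]
    rw [e]; exact h3
  have h2 : Dm y - LD Q par y ∈ LL par ℓ n h := LL_mono (by omega) (hD ℓ h y hy)
  have e : Dm y = (Dm y - LD Q par y) + LD Q par y := (sub_add_cancel _ _).symm
  rw [e]
  exact Submodule.add_mem _ h2 h1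

/-- descent to the bottom level -/
theorem descend {Q : Fin 2 → KP} (hQ : Side Q) {par : I → Fin 2} {n : ℤ} (hn : 0 ≤ n)
    (Dm : (Fin 6 × I → R) →ₗ[ℚ] (Fin 6 × I → R)) (hDD : ∀ y, Dm (Dm y) = 0)
    (hD : ∀ ℓ h, ∀ y ∈ LL par ℓ n (h + 1), Dm y - LD Q par y ∈ LL par (ℓ - 1) n h)
    {h : ℕ} (ℓ : ℕ) : ∀ y ∈ LL par ℓ n h, Dm y = 0 →
      ∃ t ∈ LL par ℓ n (h + 1), y - Dm t ∈ LL par 0 n h := by
  induction ℓ with
  | zero => intro y hy _; exact ⟨0, zero_mem _, by simpa using hy⟩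
  | succ ℓ ih =>
    intro y hy h0
    obtain ⟨t, ht, ht'⟩ := step hQ hn Dm hD (Or.inl (by omega)) hy
      (fun _ _ => by rw [h0]; exact zero_mem _)
    obtain ⟨s, hs, hs'⟩ := ih _ (by simpa using ht') (by rw [map_sub, h0, hDD, sub_zero])
    refine ⟨t + s, add_mem ht (LL_mono (by omega) hs), ?_⟩
    rwa [map_add, ← sub_sub]

end Vale.Agent.P195
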