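import Vale.Agent.P195.TE
import Vale.Agent.P195.CN

namespace Vale.Agent.P195

open Matrix Cmp

abbrev Vx := Fin 3 × Fin 2
abbrev LB := Matrix Vx Vx TT

def sf (y : Bool) : ℤ := if y then 1 else 0

noncomputable def SB (y : Bool) : Submodule ℚ LB where
  carrier := {X | ∀ v v', X v v' ∈ GY y ((v.1.val : ℤ) - v'.1.val) ((v.2.val : ℤ) - v'.2.val + sf y)}
  add_mem' := by
    intro a b ha hb v v'
    have h1 := ha v v'
    have h2 := hb v v'
    rw [Matrix.add_apply]
    exact Submodule.add_mem _ h1 h2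
  zero_mem' := by
    intro v v'
    rw [Matrix.zero_apply]
    exact Submodule.zero_mem _
  smul_mem' := by
    intro c a ha v v'
    have h1 := ha v v'
    rw [Matrix.smul_apply]
    exact Submodule.smul_mem _ c h1

theorem mem_SB {y : Bool} {X : LB} : X ∈ SB y ↔
    ∀ v v', X v v' ∈ GY y ((v.1.val : ℤ) - v'.1.val) ((v.2.val : ℤ) - v'.2.val + sf y) := Iff.rfl

theorem SB_lm {y : Bool} {a b : LB} (ha : a ∈ SB false) (hb : b ∈ SB y) : a * b ∈ SB y :=
  fun v v' => by
    rw [mul_apply]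
    exact Submodule.sum_mem _ fun u _ => GY_mul' (by omega) (by simp [sf]; omega) (ha v u) (hb u v')

theorem SB_rm {y : Bool} {a b : LB} (ha : a ∈ SB y) (hb : b ∈ SB false) : a * b ∈ SB y :=
  fun v v' => by
    rw [mul_apply]
    exact Submodule.sum_mem _ fun u _ => YG_mul' (by omega) (by simp [sf]; omega) (ha v u) (hb u v')

theorem SB_one : (1 : LB) ∈ SB false := fun v v' => by
  rw [one_apply]; split_ifs with h
  · subst h; simpa [sf] using one_memG le_rfl
  · exact zero_mem _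

theorem SB_fg (y : Bool) : (SB y).FG := by
  have h : (Submodule.pi Set.univ fun v : Vx => Submodule.pi Set.univ fun v' : Vx =>
      GY y ((v.1.val : ℤ) - v'.1.val) ((v.2.val : ℤ) - v'.2.val + sf y)).FG :=
    Submodule.fg_pi fun _ => Submodule.fg_pi fun _ => GY_fg _ _ _
  have e : SB y = (Submodule.pi Set.univ fun v : Vx => Submodule.pi Set.univ fun v' : Vx =>
      GY y ((v.1.val : ℤ) - v'.1.val) ((v.2.val : ℤ) - v'.2.val + sf y)) :=
    Submodule.ext fun X => ⟨fun h v _ v' _ => h v v', fun h v v' => h v trivial v' trivial⟩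
  rw [e]; exact h

variable {n : ℕ}

theorem io_bd (g : AA n) : 0 ≤ io g.1 (par g.2) ∧ io g.1 (par g.2) ≤ 2 := by
  generalize par g.2 = a
  generalize g.1 = σ
  induction σ using all6 <;> induction a using all2 <;> decide

def vx (g : AA n) : Vx := (⟨(io g.1 (par g.2)).toNat, by have := io_bd g; omega⟩,
  ⟨(wo g.1 (par g.2)).toNat, by have := wo_bd g; omega⟩)

theorem vx1 (g : AA n) : ((vx g).1.val : ℤ) = io g.1 (par g.2) := Int.toNat_of_nonneg (io_bd g).1
theorem vx2 (g : AA n) : ((vx g).2.val : ℤ) = wo g.1 (par g.2) := Int.toNat_of_nonneg (wo_bd g).1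

noncomputable def EL (k : ℕ) (g : AA n) : LB := single (vx g) (vx g) (ek k g)
noncomputable def DL (n k : ℕ) : Matrix (AA n) (AA n) LB :=
  of fun g g' => single (vx g) (vx g') (Dk n k g g')

theorem single_SB {v v' : Vx} {a : TT}
    (h : a ∈ GY false ((v.1.val : ℤ) - v'.1.val) ((v.2.val : ℤ) - v'.2.val)) :
    (single v v' a : LB) ∈ SB false := fun u u' => by
  rw [single_apply]; split_ifs with e
  · rw [← e.1, ← e.2]; simpa [sf] using h
  · exact zero_mem _

theorem EL_mem (k : ℕ) (g : AA n) : EL k g ∈ SB false := single_SB (by simpa using ek_mem k g)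
theorem DL_mem (k : ℕ) (g g' : AA n) : DL n k g g' ∈ SB false :=
  single_SB (by rw [vx1, vx1, vx2, vx2]; exact Dk_mem k g g')

theorem EL_EL (k : ℕ) (g : AA n) : EL k g * EL k g = EL k g := by
  rw [EL, single_mul_single_same, ek_ek]
theorem EL_DL (k : ℕ) (g g' : AA n) : EL (k + 1) g * DL n k g g' = DL n k g g' := by
  rw [EL, DL, of_apply, single_mul_single_same, ek_Dk]
theorem DL_EL (k : ℕ) (g g' : AA n) : DL n k g g' * EL k g' = DL n k g g' := by
  rw [EL, DL, of_apply, single_mul_single_same, Dk_ek]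

theorem mul_sg (X : LB) (a b : Vx) (t : TT) (v w : Vx) :
    (X * single a b t : LB) v w = if w = b then X v a * t else 0 := by
  split_ifs with h
  · rw [h, mul_single_apply_same]
  · exact mul_single_apply_of_ne _ _ _ _ _ h _

theorem sg_mul (X : LB) (a b : Vx) (t : TT) (v w : Vx) :
    (single a b t * X : LB) v w = if v = a then t * X b w else 0 := by
  split_ifs with h
  · rw [h, single_mul_apply_same]
  · exact single_mul_apply_of_ne _ _ _ _ _ h _

def rw' (v : Vx) (y : AA n → LB) : AA n → TT := fun g => y g v (vx g)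
def cl (v : Vx) (t : AA n → LB) : AA n → TT := fun g => t g (vx g) v
noncomputable def mkR (ζ : Vx → AA n → TT) : AA n → LB :=
  fun g => of fun v w => if w = vx g then ζ v g else 0
noncomputable def mkC (ζ : Vx → AA n → TT) : AA n → LB :=
  fun g => of fun v w => if v = vx g then ζ w g else 0

theorem rw_mkR (ζ : Vx → AA n → TT) (v : Vx) : rw' v (mkR ζ) = ζ v := funext fun _ => if_pos rfl
theorem cl_mkC (ζ : Vx → AA n → TT) (v : Vx) : cl v (mkC ζ) = ζ v := funext fun _ => if_pos rfl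

theorem row_DL (k : ℕ) (y : AA n → LB) : y ᵥ* DL n k = mkR fun v => rw' v y ᵥ* Dk n k := by
  funext g; ext v w
  simp only [row_sum, Matrix.sum_apply, DL, of_apply, mul_sg, mkR, rw']
  split_ifs <;> simp

theorem col_DL (k : ℕ) (t : AA n → LB) : DL n k *ᵥ t = mkC fun v => Dk n k *ᵥ cl v t := by
  funext g; ext v w
  simp only [col_sum, Matrix.sum_apply, DL, of_apply, sg_mul, mkC, cl]
  split_ifs <;> simp

theorem DL_DL (k : ℕ) : DL n (k + 1) * DL n k = 0 := by
  refine Matrix.ext fun g g' => ?_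
  simp only [mul_apply, DL, of_apply, single_mul_single_same]
  have := congrFun (congrFun (Dk_Dk (n := n) k) g) g'
  rw [mul_apply] at this
  ext v w
  simp only [Matrix.sum_apply, single_apply]
  split_ifs
  · exact this
  · simp

theorem row_EL {k : ℕ} {y : AA n → LB} (h : ∀ g, y g * EL k g = y g) :
    y = mkR (fun v => rw' v y) ∧ ∀ v g, rw' v y g * ek k g = rw' v y g := by
  have e := fun g v w => congrFun (congrFun (h g) v) w
  simp only [EL, mul_sg] at e
  refine ⟨funext fun g => Matrix.ext fun v w => ?_, fun v g => by simpa [rw'] using e g v (vx g)⟩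
  simp only [mkR, of_apply, rw']
  split_ifs with h'
  · rw [h']
  · rw [← e, if_neg h']

theorem col_EL {k : ℕ} {y : AA n → LB} (h : ∀ g, EL k g * y g = y g) :
    y = mkC (fun v => cl v y) ∧ ∀ v g, ek k g * cl v y g = cl v y g := by
  have e := fun g v w => congrFun (congrFun (h g) v) w
  simp only [EL, sg_mul] at e
  refine ⟨funext fun g => Matrix.ext fun v w => ?_, fun v g => by simpa [cl] using e g (vx g) v⟩
  simp only [mkC, of_apply, cl]
  split_ifs with h'
  · rw [h']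
  · rw [← e, if_neg h']

theorem EL_mkC {k : ℕ} {ζ : Vx → AA n → TT} (h : ∀ v g, ek k g * ζ v g = ζ v g) (g : AA n) :
    EL k g * mkC ζ g = mkC ζ g := by
  ext v w
  simp only [EL, sg_mul, mkC, of_apply, if_true, h]

theorem rw_mem {b : Bool} {y : AA n → LB} (h : ∀ g, y g ∈ SB b) (v : Vx) :
    Tm b (rP v.1.val) (rW (v.2.val + sf b)) (rw' v y) := fun g => by
  convert h g v (vx g) using 2
  · rw [vx1]; rfl
  · rw [vx2, rW]; ring
  · rfl

theorem cl_mem {b : Bool} {y : AA n → LB} (h : ∀ g, y g ∈ SB b) (v : Vx) :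
    Tm b (cP v.1.val) (cW (sf b - v.2.val)) (cl v y) := fun g => by
  convert h g (vx g) v using 2
  · rw [vx1]; rfl
  · rw [vx2, cW]; ring
  · rfl

theorem mkR_mem {b : Bool} {ζ : Vx → AA n → TT}
    (h : ∀ v, Tm b (rP v.1.val) (rW (v.2.val + sf b)) (ζ v)) (g : AA n) : mkR ζ g ∈ SB b :=
  fun v w => by
    simp only [mkR, of_apply]; split_ifs with e
    · convert h v g using 2
      · rw [e, vx1]; rfl
      · rw [e, vx2, rW]; ring
    · exact zero_mem _

theorem mkC_mem {b : Bool} {ζ : Vx → AA n → TT}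
    (h : ∀ v, Tm b (cP v.1.val) (cW (sf b - v.2.val)) (ζ v)) (g : AA n) : mkC ζ g ∈ SB b :=
  fun v w => by
    simp only [mkC, of_apply]; split_ifs with e
    · convert h w g using 2
      · rw [e, vx1]; rfl
      · rw [e, vx2, cW]; ring
    · exact zero_mem _

theorem sf_bd (b : Bool) : 0 ≤ sf b ∧ sf b ≤ 1 := by cases b <;> simp [sf]

abbrev VV := Vx → MM

/-- action through one component -/
noncomputable def rho (c : Cmp) (X : LB) : VV →ₗ[ℚ] VV := cG (X.map (· c))

theorem rho_apply (c : Cmp) (X : LB) (m : VV) (v : Vx) :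
    rho c X m v = ∑ v', act (X v v' c) (m v') := cG_apply _ _ _

noncomputable def bV (g : AA n) : VV := Pi.single (vx g) (bA g)

theorem rho_single (c : Cmp) (X : LB) (a : Vx) (m : MM) (v : Vx) :
    rho c X (Pi.single a m) v = act (X v a c) m := by
  rw [rho_apply, Finset.sum_eq_single a (fun u _ h => by simp [h]) (by simp), Pi.single_eq_same]

theorem rowLB (hn : n ≠ 0) (b : Bool) (k : ℕ) {y : AA n → LB} (hy : ∀ g, y g ∈ SB b)
    (hl : ∀ g, y g * EL k g = y g) (e0 : k = 0 → ∑ g, rho (uc b) (y g) (bV g) = 0)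
    (e1 : ∀ k', k = k' + 1 → y ᵥ* DL n k' = 0) : ∃ z, (∀ g, z g ∈ SB b) ∧ y = z ᵥ* DL n k := by
  have := fun v : Vx => rowT hn b k v.1.val (w := v.2.val + sf b) (by have := sf_bd b; omega)
    (by have := sf_bd b; have := v.2.isLt; omega) (rw_mem hy v) ((row_EL hl).2 v) (fun h => by
      have := congrFun (e0 h) v
      simp only [Finset.sum_apply, bV, rho_single] at this
      exact this) (fun k' h => by
      rw [← rw_mkR (fun v => rw' v y ᵥ* Dk n k') v, ← row_DL, e1 k' h]; rfl)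
  choose ζ h1 h2 using this
  refine ⟨mkR ζ, mkR_mem h1, ?_⟩
  rw [row_DL, (row_EL hl).1]
  simp only [rw_mkR, ← h2]

theorem cw_bd (b : Bool) (v : Vx) : -1 ≤ sf b - v.2.val ∧ sf b - v.2.val ≤ 1 ∧ v.1.val ≤ 2 := by
  have := sf_bd b; have := v.2.isLt; have := v.1.isLt; omega

theorem cl_DL {k : ℕ} {t s : AA n → LB} (e : DL n k *ᵥ t = s) (v : Vx) :
    Dk n k *ᵥ cl v t = cl v s := by rw [← e, col_DL, cl_mkC]

theorem colLB0 (b : Bool) {t : AA n → LB} (ht : ∀ g, t g ∈ SB b) (hl : ∀ g, EL 0 g * t g = t g)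
    (e : DL n 0 *ᵥ t = 0) : t = 0 := by
  have := fun v : Vx => colT0 b (cw_bd b v).2.2 (cw_bd b v).1 (cw_bd b v).2.1 (cl_mem ht v)
    ((col_EL hl).2 v) (cl_DL e v)
  rw [(col_EL hl).1]
  funext g; ext v w; simp [mkC, this]

theorem colLB (b : Bool) {k : ℕ} (hk : k ≠ 2) {t : AA n → LB} (ht : ∀ g, t g ∈ SB b)
    (hl : ∀ g, EL (k + 1) g * t g = t g) (e : DL n (k + 1) *ᵥ t = 0) :
    ∃ s, (∀ g, s g ∈ SB b) ∧ t = DL n k *ᵥ s := by
  have := fun v : Vx => colTS b hk (cw_bd b v).2.2 (cw_bd b v).1 (cw_bd b v).2.1 (cl_mem ht v)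
    ((col_EL hl).2 v) (cl_DL e v)
  choose ζ h1 h2 using this
  refine ⟨mkC ζ, mkC_mem h1, ?_⟩
  rw [col_DL, (col_EL hl).1]
  simp only [cl_mkC, ← h2]

noncomputable def XI (b : Bool) (τ : Vx → AA n → R) : AA n → LB := mkC fun v => xT b (τ v)

/-- top degree diagonal columns -/
noncomputable def TP (n : ℕ) (b : Bool) : Submodule ℚ (Vx → AA n → R) where
  carrier := {τ | ∀ v : Vx, Fm False False (cP v.1.val) (cW (sf b - v.2.val)) (τ v) ∧ Only 3 (τ v)}
  add_mem' := fun {_ _} h h' v => ⟨(h v).1.add (h' v).1, fun g e => by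
    rw [Pi.add_apply, Pi.add_apply, (h v).2 g e, (h' v).2 g e, add_zero]⟩
  zero_mem' := fun _ => ⟨.zero, fun _ _ => rfl⟩
  smul_mem' := fun c _ h v => ⟨(h v).1.smul c, fun g e => by
    rw [Pi.smul_apply, Pi.smul_apply, (h v).2 g e, smul_zero]⟩

theorem XI_mem {b : Bool} {τ : Vx → AA n → R} (h : τ ∈ TP n b) (g : AA n) : XI b τ g ∈ SB b :=
  mkC_mem (fun v => xT_mem b (h v).1) g

theorem EL_XI {b : Bool} {τ : Vx → AA n → R} (h : τ ∈ TP n b) (g : AA n) :
    EL 3 g * XI b τ g = XI b τ g := EL_mkC (fun v => xT_lev b (h v).2) g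

theorem DL_XI {b : Bool} {τ : Vx → AA n → R} (h : τ ∈ TP n b) : DL n 3 *ᵥ XI b τ = 0 := by
  have : ∀ v, Dk n 3 *ᵥ xT b (τ v) = 0 := fun v => by
    rw [col_Dk _ (xT_lev b (h v).2), D_xT, ← xT_zero b]; congr 1
    funext g
    exact colM_zero (fun g' e => (h v).2 g' (by have := hd_le g.1; omega))
      (Or.inr fun g' e => (h v).2 g' (by have := hd_le g.1; omega))
  rw [col_DL, XI]
  funext g; ext v w; simp [mkC, cl_mkC, this]

theorem colLB3 (b : Bool) {t : AA n → LB} (ht : ∀ g, t g ∈ SB b)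
    (hl : ∀ g, EL 3 g * t g = t g) (e : DL n 3 *ᵥ t = 0) :
    ∃ s τ, (∀ g, s g ∈ SB b) ∧ τ ∈ TP n b ∧ t = DL n 2 *ᵥ s + XI b τ := by
  have := fun v : Vx => colT' b 2 v.1.val (cw_bd b v).1 (cl_mem ht v) ((col_EL hl).2 v) (τ := 0)
    (fun _ _ => rfl) (by rw [cl_DL e v, xT_zero]; rfl)
  choose ζ τ h1 h2 h3 h4 h5 using this
  refine ⟨mkC ζ, τ, mkC_mem h1, fun v => ⟨h2 v, h3 v⟩, ?_⟩
  rw [col_DL, (col_EL hl).1, XI]
  funext g; ext v w
  simp only [cl_mkC, mkC, of_apply, Pi.add_apply, Matrix.add_apply, h4 w]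
  split_ifs <;> simp

noncomputable def NN (d : ℤ) : Submodule ℚ VV := Submodule.pi Set.univ fun v => Md (d - v.2.val)

theorem mem_NN {d : ℤ} {m : VV} : m ∈ NN d ↔ ∀ v, m v ∈ Md (d - v.2.val) :=
  ⟨fun h v => h v trivial, fun h v _ => h v⟩

theorem single_NN {d : ℤ} {v : Vx} {m : MM} (h : m ∈ Md (d - v.2.val)) : Pi.single v m ∈ NN d :=
  mem_NN.mpr fun u => by
    by_cases e : u = v
    · subst e; simpa using h
    · simp [e]

noncomputable def pT (n : ℕ) : (Vx → AA n → R) →ₗ[ℚ] VV →ₗ[ℚ] ℚ :=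
  ∑ v, ((prL n ∘ₗ LinearMap.funLeft ℚ R fun c => (5, c)) ∘ₗ LinearMap.proj v).compl₂
    (LinearMap.proj v)

theorem pT_apply (τ : Vx → AA n → R) (w : VV) :
    pT n τ w = ∑ v, prL n (fun c => τ v (5, c)) (w v) := by
  simp only [pT, LinearMap.sum_apply]; rfl

theorem XI_cob {b : Bool} {τ : Vx → AA n → R} (h : τ ∈ TP n b) :
    (∃ s, (∀ g, s g ∈ SB b) ∧ XI b τ = DL n 2 *ᵥ s) ↔ ∀ w ∈ NN (n + sf b), pT n τ w = 0 := by
  constructor
  · rintro ⟨s, hs, e⟩ w hw
    have hl : ∀ g, EL 2 g * (EL 2 g * s g) = EL 2 g * s g := fun g => by rw [← mul_assoc, EL_EL]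
    have e' : DL n 2 *ᵥ (fun g => EL 2 g * s g) = XI b τ := by
      rw [e]; funext g; simp only [col_sum, ← mul_assoc, DL_EL]
    rw [pT_apply]
    refine Finset.sum_eq_zero fun v _ => ?_
    obtain ⟨_, ρ, -, h2, -, -, h5⟩ := colT' b 1 v.1.val (cw_bd b v).1
      (cl_mem (fun g => SB_lm (EL_mem 2 g) (hs g)) v) ((col_EL hl).2 v) (h v).2
      (by rw [cl_DL e' v, XI, cl_mkC])
    rw [h5]
    exact pr_d h2 (by convert mem_NN.mp hw v using 2; ring)
  · intro e
    have := fun v : Vx => col_top (cw_bd b v).2.2 (cw_bd b v).1 (cw_bd b v).2.1 (h v).1 (h v).2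
      fun μ hμ => by
        have := e _ (single_NN (v := v) (m := μ) (by convert hμ using 2; ring))
        rwa [pT_apply, Finset.sum_eq_single v (fun u _ h => by simp [h]) (by simp),
          Pi.single_eq_same] at this
    choose z h1 h2 h3 using this
    refine ⟨XI b z, mkC_mem fun v => xT_mem b (h1 v), ?_⟩
    rw [col_DL, XI, XI]
    simp only [cl_mkC, xT_d b le_rfl (h2 _), ← h3]

theorem pT_surj (b : Bool) (χ : VV →ₗ[ℚ] ℚ) :
    ∃ τ ∈ TP n b, ∀ w ∈ NN (n + sf b), pT n τ w = χ w := by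
  have := fun v : Vx => col_surj (n := n) (cw_bd b v).2.2 (cw_bd b v).1 (cw_bd b v).2.1
    (χ ∘ₗ LinearMap.single ℚ (fun _ => MM) v)
  choose τ h1 h2 h3 using this
  refine ⟨τ, fun v => ⟨h1 v, h2 v⟩, fun w hw => ?_⟩
  rw [pT_apply]
  conv_rhs => rw [← Finset.univ_sum_single w, map_sum]
  exact Finset.sum_congr rfl fun v _ => h3 v _ (by convert mem_NN.mp hw v using 2; ring)

noncomputable def tm (c : Cmp) (τ : Vx → AA n → R) (X : LB) : Vx → AA n → R :=
  fun v g => ∑ u, τ u g * X u v c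

theorem uc_mem {b : Bool} {X : LB} (h : X ∈ SB b) (v v' : Vx) :
    X v v' (uc b) ∈ WW ((v.1.val : ℤ) - v'.1.val) ((v.2.val : ℤ) - v'.2.val + sf b) := by
  cases b
  · exact (mem_G.mp (h v v')).1.1
  · exact (mem_Y.mp (h v v')).2.2.2.2.2.1

theorem tm_mem {b : Bool} {τ : Vx → AA n → R} (h : τ ∈ TP n b) {X : LB} (hX : X ∈ SB (!b)) :
    tm (uc (!b)) τ X ∈ TP n true := fun v =>
  ⟨fun g => Submodule.sum_mem _ fun u _ => Sp_mul ((h u).1 g) (uc_mem hX u v)
    (by simp only [cP]; omega) (by cases b <;> simp [cW, sf] <;> omega),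
  fun g e => Finset.sum_eq_zero fun u _ => by rw [(h u).2 g e, zero_mul]⟩

theorem XI_mul {b : Bool} (τ : Vx → AA n → R) {X : LB} (hX : X ∈ SB (!b)) (g : AA n) :
    XI b τ g * X = XI true (tm (uc (!b)) τ X) g := by
  ext v w
  simp only [mul_apply, XI, mkC, of_apply]
  split_ifs
  swap; · simp
  refine TT.ext fun c => ?_
  rw [TT.sum_c]
  cases b
  · have h := fun u => (mem_Y.mp (hX u w)).1
    cases c <;> simp [TT.mul_c, mulF, xT, unc, xiF, tm, uc, h]
  · have h := fun u => (mem_G.mp (hX u w)).2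
    cases c <;> simp [TT.mul_c, mulF, xT, unc, xiF, tm, uc, h]

theorem pT_tm {b b' : Bool} {τ : Vx → AA n → R} (h : τ ∈ TP n b) {X : LB} (hX : X ∈ SB b')
    (w : VV) : pT n (tm (uc b') τ X) w = pT n τ (rho (uc b') X w) := by
  simp only [pT_apply, prL_apply, tm, rho_apply, map_sum, LinearMap.sum_apply,
    Finsupp.finset_sum_apply, Finset.mul_sum, act_mulG (W_GA ((h _).1 _)) (W_GA (uc_mem hX _ _))]
  conv_rhs => rw [Finset.sum_comm]
  refine Finset.sum_congr rfl fun _ _ => ?_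
  rw [Finset.sum_comm]

theorem rho_mul {b : Bool} {X Y : LB} (hX : X ∈ SB b) (hY : Y ∈ SB false) (m : VV) :
    rho (uc b) (X * Y) m = rho (uc b) X (rho au Y m) := by
  have e : (X * Y).map (fun t : TT => (t (uc b) : R)) =
      X.map (fun t : TT => (t (uc b) : R)) * Y.map (fun t : TT => (t au : R)) := by
    ext v w
    simp only [map_apply, mul_apply, TT.sum_c, TT.mul_c]
    cases b
    · rfl
    · simp only [uc, if_true, mulF, fun u => (mem_Y.mp (hX v u)).1.2.2.2.2.2.2.1, zero_mul, zero_add]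
  rw [rho, e]
  exact cG_mul (fun v w => W_GA (uc_mem hX v w)) (fun v w => W_GA (uc_mem hY v w)) m

theorem rho_add (c : Cmp) (X Y : LB) (m : VV) : rho c (X + Y) m = rho c X m + rho c Y m :=
  cG_add (X.map (· c)) (Y.map (· c)) m

theorem rho_smul (c : Cmp) (r : ℚ) (X : LB) (m : VV) : rho c (r • X) m = r • rho c X m :=
  cG_smul r (X.map (· c)) m

theorem rho_one (m : VV) : rho au 1 m = m := by
  funext v
  rw [rho_apply, Finset.sum_eq_single v (fun u _ h => by
    rw [one_apply_ne h.symm, TT.zero_c, map_zero]; rfl) (by simp), one_apply_eq]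
  exact act_one _

theorem rho_mem {b : Bool} {X : LB} (hX : X ∈ SB b) {d : ℤ} {m : VV} (hm : m ∈ NN (d + sf b)) :
    rho (uc b) X m ∈ NN d := mem_NN.mpr fun v => by
  rw [rho_apply]
  exact Submodule.sum_mem _ fun u _ => act_mem (uc_mem hX v u) (mem_NN.mp hm u) (by omega)

theorem bV_mem (g : AA n) : bV g ∈ NN n := single_NN (by
  rw [vx2, bA]; split_ifs with h
  · convert bv_mem g.2 using 2; simp [h, wo, sft]
  · exact zero_mem _)

theorem aug_surj (b : Bool) {m : VV} (hm : m ∈ NN (n - sf b)) :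
    ∃ y : AA n → LB, (∀ g, y g ∈ SB b) ∧ ∑ g, rho (uc b) (y g) (bV g) = m := by
  have := fun v : Vx => row_surj (n := n) v.1.val (w := v.2.val + sf b) (by have := sf_bd b; omega)
    (by have := sf_bd b; have := v.2.isLt; omega) (m := m v)
    (by convert mem_NN.mp hm v using 2; ring)
  choose y h1 h2 h3 using this
  refine ⟨mkR fun v => unc fun c => match c with
    | .au => if b then 0 else y v | .ru => if b then y v else 0 | _ => 0, mkR_mem fun v => ?_,
    funext fun v => ?_⟩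
  · cases b
    · exact Tm_G.mpr ⟨⟨h1 v, .zero, .zero, .zero, .zero, .zero, .zero, .zero⟩, rfl, rfl, rfl, rfl,
        rfl, rfl, rfl, rfl⟩
    · exact Tm_Y.mpr ⟨⟨rfl, rfl, rfl, rfl, rfl, rfl, rfl, rfl⟩, .zero, .zero, .zero, .zero, h1 v,
        .zero, .zero, .zero⟩
  · simp only [Finset.sum_apply, bV, rho_single, mkR, of_apply, if_true, unc]
    cases b <;> exact h3 v

theorem Dk_au (k : ℕ) (g g' : AA n) {m : MM} (h : ¬P1 k g' → m = 0) :
    act (Dk n k g g' au) m = act (Mc n (k / 2) g g') m := by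
  rw [Dk, of_apply, mul_ek]
  split_ifs with e
  · rfl
  · rw [h e, map_zero, map_zero]

theorem rho_sg (a b : Vx) (t : TT) (m : VV) :
    rho au (single a b t) m = Pi.single a (act (t au) (m b)) := by
  funext v
  rw [rho_apply, Finset.sum_eq_single b (fun u _ h => by
    rw [single_apply_of_col_ne _ _ h.symm, TT.zero_c, map_zero]; rfl) (by simp)]
  by_cases e : v = a
  · subst e; simp
  · rw [single_apply_of_row_ne (Ne.symm e), TT.zero_c, map_zero, Pi.single_eq_of_ne e]; rfl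

theorem ek_au (k : ℕ) (g : AA n) {m : MM} (h : ¬P1 k g → m = 0) : act (ek k g au) m = m := by
  unfold ek; split_ifs with e e'
  · exact act_one m
  · rw [h e, map_zero]
  · rw [h e, map_zero]

theorem bA_sup (g : AA n) (h : ¬P1 0 g) : bA g = 0 :=
  if_neg fun e => h (by unfold P1; rw [e]; exact ⟨le_rfl, rfl⟩)

theorem EL_bV (g : AA n) : rho au (EL 0 g) (bV g) = bV g := by
  rw [EL, rho_sg, bV, Pi.single_eq_same, ek_au _ _ (bA_sup g)]

theorem DL_bV (g : AA n) : ∑ g', rho au (DL n 0 g g') (bV g') = 0 := by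
  simp only [DL, of_apply, rho_sg, bV, Pi.single_eq_same, Dk_au _ _ _ (bA_sup _)]
  rw [← Pi.single_zero (vx g), ← aug_d g]
  simp only [Mc, Nat.zero_div, Nat.cast_zero, zero_smul, add_zero]
  exact (map_sum (LinearMap.single ℚ (fun _ => MM) (vx g)) _ _).symm

theorem colVV (k : ℕ) {m : AA n → VV} (hm : ∀ g, m g ∈ NN 1)
    (hl : ∀ g, rho au (EL (k + 1) g) (m g) = m g)
    (e : ∀ g, ∑ g', rho au (DL n (k + 1) g g') (m g') = 0) :
    ∃ s : AA n → VV, (∀ g, s g ∈ NN 1) ∧ ∀ g, m g = ∑ g', rho au (DL n k g g') (s g') := by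
  have sp : ∀ g, ¬P1 (k + 1) g → m g (vx g) = 0 := fun g h => by
    rw [← hl, EL, rho_sg, Pi.single_eq_same, ek, if_neg h]
    split_ifs <;> exact LinearMap.map_zero₂ act _
  obtain ⟨ν, h1, h2, h3⟩ := colN k (μ := fun g => m g (vx g))
    (fun g => by rw [← vx2]; exact mem_NN.mp (hm g) _) sp (funext fun g => by
      have := congrFun (e g) (vx g)
      simp only [DL, of_apply, rho_sg, Finset.sum_apply, Pi.single_eq_same,
        Dk_au _ _ _ (sp _)] at this
      rw [cG_apply]; exact this)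
  refine ⟨fun g => Pi.single (vx g) (ν g), fun g => single_NN (by rw [vx2]; exact h1 g), fun g => ?_⟩
  simp only [DL, of_apply, rho_sg, Pi.single_eq_same, Dk_au _ _ _ (h2 _)]
  rw [← hl, EL, rho_sg, ek_au _ _ (sp g), congrFun h3 g, cG_apply]
  exact map_sum (LinearMap.single ℚ (fun _ => MM) (vx g)) _ _

end Vale.Agent.P195
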