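import Mathlib

namespace Vale.Agent.P195

open CategoryTheory Abelian

variable {Λ : Type} [Ring Λ] (T : Type) [AddCommGroup T] [Module Λ T]

/-- vanishing of an extension group -/
def EV (Λ : Type) [Ring Λ] (T : Type) [AddCommGroup T] [Module Λ T] (X : Type) [AddCommGroup X]
    [Module Λ X] (j : ℕ) : Prop := ∀ e : Ext (ModuleCat.of Λ X) (ModuleCat.of Λ T) j, e = 0

theorem ses {X Y Z : Type} [AddCommGroup X] [Module Λ X] [AddCommGroup Y] [Module Λ Y]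
    [AddCommGroup Z] [Module Λ Z] (f : X →ₗ[Λ] Y) (g : Y →ₗ[Λ] Z) (hf : Function.Injective f)
    (hg : Function.Surjective g) (hex : Function.Exact f g) :
    (∀ j, EV Λ T X j → EV Λ T Z j → EV Λ T Y j) ∧ (Module.Projective Λ Y →
      (∀ j, EV Λ T X (j + 1) → EV Λ T Z (j + 2)) ∧
      ((∀ φ : X →ₗ[Λ] T, ∃ ψ : Y →ₗ[Λ] T, ψ ∘ₗ f = φ) → EV Λ T Z 1)) := by
  have hS := ModuleCat.shortComplex_shortExact
    (ModuleCat.shortComplexOfCompEqZero f g hex.linearMap_comp_eq_zero) hex hf hg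
  refine ⟨fun j h1 h3 e => ?_, fun hP => ?_⟩
  · obtain ⟨x, hx⟩ := Ext.contravariant_sequence_exact₂ hS _ e (h1 _)
    rw [← hx, h3 x]; exact Ext.comp_zero _ _ _ _ _
  have : Projective (ModuleCat.of Λ Y) := (IsProjective.iff_projective _).mp hP
  refine ⟨fun j h1 e => ?_, fun h e => ?_⟩
  · obtain ⟨x, hx⟩ := Ext.contravariant_sequence_exact₃ hS _ e
      (Ext.eq_zero_of_projective (P := ModuleCat.of Λ Y) _) (n₀ := j + 1) (by omega)
    rw [← hx, h1 x]; exact Ext.comp_zero _ _ _ _ _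
  · obtain ⟨x, hx⟩ := Ext.contravariant_sequence_exact₃ hS _ e
      (Ext.eq_zero_of_projective (P := ModuleCat.of Λ Y) _) (n₀ := 0) rfl
    obtain ⟨φ, rfl⟩ := (Ext.mk₀_bijective _ _).2 x
    obtain ⟨ψ, hψ⟩ := h φ.hom
    have : φ = (ModuleCat.shortComplexOfCompEqZero f g hex.linearMap_comp_eq_zero).f ≫
        ModuleCat.ofHom ψ := ModuleCat.hom_ext hψ.symm
    rw [← hx, this, ← Ext.mk₀_comp_mk₀]
    exact hS.extClass_comp_assoc _

variable {F M M' : Type} [AddCommGroup F] [Module Λ F] [AddCommGroup M] [Module Λ M]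
  [AddCommGroup M'] [Module Λ M']

/-- a complex of projectives with homology in degrees zero and three -/
structure Res (E D : ℕ → F →ₗ[Λ] F) (a : F →ₗ[Λ] M) (Γ : Submodule Λ (F × M')) : Prop where
  pr : Module.Projective Λ F
  EE : ∀ k y, E k (E k y) = E k y
  DE : ∀ k y, D k (E (k + 1) y) = D k y
  ED : ∀ k y, E k (D k y) = D k y
  DD : ∀ k y, D k (D (k + 1) y) = 0
  aE : ∀ y, a (E 0 y) = a y
  aD : ∀ y, a (D 0 y) = 0
  sur : Function.Surjective a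
  ex0 : ∀ y, E 0 y = y → a y = 0 → ∃ z, D 0 z = y
  ex : ∀ k, k ≠ 2 → ∀ y, E (k + 1) y = y → D k y = 0 → ∃ z, D (k + 1) z = y
  r1 : ∀ y, (E 3 y = y ∧ D 2 y = 0) ↔ ∃ w, (y, w) ∈ Γ
  r2 : ∀ w, ∃ y, (y, w) ∈ Γ
  r3 : ∀ y w, (y, w) ∈ Γ → (w = 0 ↔ ∃ z, D 3 z = y)

structure Ext' (E D : ℕ → F →ₗ[Λ] F) (Γ : Submodule Λ (F × M')) : Prop where
  ex : ∀ k (φ : F →ₗ[Λ] T), (∀ y, D k y = 0 → φ y = 0) → ∃ ψ : F →ₗ[Λ] T, ∀ y, ψ (D k y) = φ y
  sp : ∀ f : M' →ₗ[Λ] T, ∃ ψ : F →ₗ[Λ] T, ∀ y w, (y, w) ∈ Γ → ψ y = f w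

theorem Res.step {E D : ℕ → F →ₗ[Λ] F} {a : F →ₗ[Λ] M} {Γ : Submodule Λ (F × M')}
    (h : Res E D a Γ) (x : Ext' T E D Γ) (j : ℕ) (hj : ∀ i, j = i + 4 → EV Λ T M' (i + 1)) :
    EV Λ T M (j + 1) := by
  have mG : ∀ k y, y ∈ LinearMap.range (E k) ↔ E k y = y := fun k y =>
    ⟨by rintro ⟨z, rfl⟩; exact h.EE k z, fun e => ⟨y, e⟩⟩
  have pG : ∀ k, Module.Projective Λ (LinearMap.range (E k)) := fun k =>
    have := h.pr
    Module.Projective.of_split (LinearMap.range (E k)).subtype (E k).rangeRestrict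
      (LinearMap.ext fun y => Subtype.ext ((mG k y).mp y.2))
  let Z : ℕ → Submodule Λ F := fun k => LinearMap.ker (D k) ⊓ LinearMap.range (E (k + 1))
  have hZ : ∀ k, k ≠ 2 → Z k = LinearMap.range (D (k + 1)) := fun k hk => Submodule.ext fun y =>
    ⟨fun hy => h.ex k hk y ((mG _ _).mp hy.2) hy.1, by
      rintro ⟨z, rfl⟩; exact ⟨h.DD k z, (mG _ _).mpr (h.ED _ z)⟩⟩
  have xB : ∀ k (φ : LinearMap.range (D k) →ₗ[Λ] T), ∃ ψ : F →ₗ[Λ] T, ∀ y : LinearMap.range (D k),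
      ψ y = φ y := fun k φ => by
    obtain ⟨ψ, hψ⟩ := x.ex k (φ ∘ₗ (D k).rangeRestrict) fun y e => by
      rw [LinearMap.comp_apply, show (D k).rangeRestrict y = 0 from Subtype.ext e, map_zero]
    exact ⟨ψ, by rintro ⟨_, z, rfl⟩; exact hψ z⟩
  have S := fun k => (ses T (Submodule.inclusion (inf_le_right : Z k ≤ _))
    ((D k).rangeRestrict ∘ₗ (LinearMap.range (E (k + 1))).subtype) (Submodule.inclusion_injective _)
    (by rintro ⟨_, z, rfl⟩; exact ⟨⟨_, z, rfl⟩, Subtype.ext (h.DE k z)⟩)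
    (fun y => ⟨fun e => ⟨⟨y, congrArg Subtype.val e, y.2⟩, rfl⟩, by
      rintro ⟨z, rfl⟩; exact Subtype.ext z.2.1⟩)).2 (pG _)
  have S1 : ∀ k, (∀ φ : Z k →ₗ[Λ] T, ∃ ψ : F →ₗ[Λ] T, ∀ y : Z k, ψ y = φ y) →
      EV Λ T (LinearMap.range (D k)) 1 := fun k hk => (S k).2 fun φ => by
    obtain ⟨ψ, hψ⟩ := hk φ
    exact ⟨ψ ∘ₗ Submodule.subtype _, LinearMap.ext hψ⟩
  have S2 : ∀ k, k ≠ 2 → EV Λ T (LinearMap.range (D k)) 1 := fun k hk =>
    S1 k (by rw [hZ k hk]; exact xB _)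
  have S3 : ∀ k i, k ≠ 2 → EV Λ T (LinearMap.range (D (k + 1))) (i + 1) →
      EV Λ T (LinearMap.range (D k)) (i + 2) := fun k i hk e =>
    (S k).1 i (by change EV Λ T (Z k) _; rw [hZ k hk]; exact e)
  have hB : ∀ i k, 3 ≤ k → EV Λ T (LinearMap.range (D k)) (i + 1) := by
    intro i
    induction i with
    | zero => exact fun k hk => S2 k (by omega)
    | succ i ih => exact fun k hk => S3 k i (by omega) (ih _ (by omega))
  choose π hπ using fun z : Z 2 => (h.r1 z).mp ⟨(mG _ _).mp z.2.2, z.2.1⟩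
  have uniq : ∀ (z : Z 2) w, ((z : F), w) ∈ Γ → π z = w := by
    intro z w hw
    have := sub_mem (hπ z) hw
    rw [Prod.mk_sub_mk, sub_self] at this
    exact sub_eq_zero.mp ((h.r3 _ _ this).mpr ⟨0, map_zero _⟩)
  let p : Z 2 →ₗ[Λ] M' :=
    { toFun := π
      map_add' := fun x y => uniq _ _ (add_mem (hπ x) (hπ y))
      map_smul' := fun c x => uniq _ _ (Γ.smul_mem c (hπ x)) }
  have le : LinearMap.range (D 3) ≤ Z 2 := by
    rintro _ ⟨z, rfl⟩; exact ⟨h.DD 2 z, (mG _ _).mpr (h.ED _ z)⟩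
  have ps : Function.Surjective p := fun w => by
    obtain ⟨y, hy⟩ := h.r2 w
    have := (h.r1 y).mpr ⟨w, hy⟩
    exact ⟨⟨y, this.2, (mG _ _).mpr this.1⟩, uniq _ _ hy⟩
  have T1 := (ses T (Submodule.inclusion le) p (Submodule.inclusion_injective _) ps fun z =>
    ⟨fun e => ⟨⟨z, (h.r3 _ _ (hπ z)).mp e⟩, rfl⟩, by
      rintro ⟨b, rfl⟩; exact (h.r3 _ _ (hπ _)).mpr b.2⟩).1
  have B2 : ∀ i, (∀ l, i = l + 1 → EV Λ T M' (l + 1)) → EV Λ T (LinearMap.range (D 2)) (i + 1) := by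
    rintro (_ | i) hi
    · refine S1 2 fun φ => ?_
      obtain ⟨ψ, hψ⟩ := xB 3 (φ ∘ₗ Submodule.inclusion le)
      let χ : Z 2 →ₗ[Λ] T := φ - ψ ∘ₗ (Z 2).subtype
      have hk : LinearMap.ker p ≤ LinearMap.ker χ := fun z hz =>
        sub_eq_zero.mpr (hψ ⟨z, (h.r3 _ _ (hπ z)).mp hz⟩).symm
      obtain ⟨ω, hω⟩ := x.sp (((LinearMap.ker p).liftQ χ hk) ∘ₗ
        (p.quotKerEquivOfSurjective ps).symm.toLinearMap)
      refine ⟨ψ + ω, fun z => ?_⟩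
      have : (p.quotKerEquivOfSurjective ps).symm (p z) = Submodule.Quotient.mk z :=
        (LinearEquiv.symm_apply_eq _).mpr rfl
      rw [LinearMap.add_apply, hω _ _ (hπ z), LinearMap.comp_apply]
      change _ + (LinearMap.ker p).liftQ χ hk ((p.quotKerEquivOfSurjective ps).symm (p z)) = _
      rw [this, Submodule.liftQ_apply]
      simp [χ]
    · exact (S 2).1 i (T1 _ (hB i 3 le_rfl) (hi i rfl))
  have B1 : ∀ i, (∀ l, i = l + 2 → EV Λ T M' (l + 1)) → EV Λ T (LinearMap.range (D 1)) (i + 1) := by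
    rintro (_ | i) hi
    · exact S2 1 (by omega)
    · exact S3 1 i (by omega) (B2 i fun l e => hi l (by omega))
  have B0 : ∀ i, (∀ l, i = l + 3 → EV Λ T M' (l + 1)) → EV Λ T (LinearMap.range (D 0)) (i + 1) := by
    rintro (_ | i) hi
    · exact S2 0 (by omega)
    · exact S3 0 i (by omega) (B1 i fun l e => hi l (by omega))
  have le0 : LinearMap.range (D 0) ≤ LinearMap.range (E 0) := by
    rintro _ ⟨z, rfl⟩; exact (mG _ _).mpr (h.ED _ z)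
  have S0 := (ses T (Submodule.inclusion le0) (a ∘ₗ (LinearMap.range (E 0)).subtype)
    (Submodule.inclusion_injective _) (fun m => by
      obtain ⟨y, rfl⟩ := h.sur m
      exact ⟨⟨_, y, rfl⟩, h.aE y⟩)
    (fun y => ⟨fun e => ⟨⟨y, h.ex0 y ((mG _ _).mp y.2) e⟩, rfl⟩, by
      rintro ⟨⟨_, z, rfl⟩, rfl⟩; exact h.aD z⟩)).2 (pG 0)
  rcases j with _ | j
  · refine S0.2 fun φ => ?_
    obtain ⟨ψ, hψ⟩ := xB 0 φ
    exact ⟨ψ ∘ₗ Submodule.subtype _, LinearMap.ext hψ⟩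
  · exact S0.1 j (B0 j fun l e => hj l (by omega))

end Vale.Agent.P195
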