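import Vale.Agent.P195.G1
import Vale.Agent.P195.HH

namespace Vale.Agent.P195

open Matrix Cmp

noncomputable def G0 : Subalgebra ℚ LB := (SB false).toSubalgebra SB_one fun _ _ => SB_lm

noncomputable abbrev YY := SB true

noncomputable def lm (g : G0) : YY →ₗ[ℚ] YY :=
  (LinearMap.mulLeft ℚ g.1).restrict fun _ hy => SB_lm g.2 hy
noncomputable def rm (g : G0) : YY →ₗ[ℚ] YY :=
  (LinearMap.mulRight ℚ g.1).restrict fun _ hy => SB_rm hy g.2

theorem lm_coe (g : G0) (y : YY) : (lm g y : LB) = g.1 * y := rfl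
theorem rm_coe (g : G0) (y : YY) : (rm g y : LB) = y * g.1 := rfl

theorem lm_mul (g h : G0) (y : YY) : lm (g * h) y = lm g (lm h y) := Subtype.ext (mul_assoc _ _ _)
theorem rm_mul (g h : G0) (y : YY) : rm (g * h) y = rm h (rm g y) :=
  Subtype.ext (mul_assoc _ _ _).symm
theorem lm_rm (g h : G0) (y : YY) : lm g (rm h y) = rm h (lm g y) :=
  Subtype.ext (mul_assoc _ _ _).symm
theorem lm_add (g h : G0) (y : YY) : lm (g + h) y = lm g y + lm h y := Subtype.ext (add_mul _ _ _)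
theorem rm_add (g h : G0) (y : YY) : rm (g + h) y = rm g y + rm h y := Subtype.ext (mul_add _ _ _)
theorem lm_zero (y : YY) : lm 0 y = 0 := Subtype.ext (zero_mul _)
theorem rm_zero (y : YY) : rm 0 y = 0 := Subtype.ext (mul_zero _)
theorem lm_one (y : YY) : lm 1 y = y := Subtype.ext (one_mul _)
theorem rm_one (y : YY) : rm 1 y = y := Subtype.ext (mul_one _)
theorem lm_smul (c : ℚ) (g : G0) (y : YY) : lm (c • g) y = c • lm g y :=
  Subtype.ext (smul_mul_assoc _ _ _)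
theorem rm_smul (c : ℚ) (g : G0) (y : YY) : rm (c • g) y = c • rm g y :=
  Subtype.ext (mul_smul_comm _ _ _)

/-- the trivial extension algebra -/
def Gam : Type := G0 × Module.Dual ℚ YY

noncomputable instance : AddCommGroup Gam := inferInstanceAs (AddCommGroup (G0 × Module.Dual ℚ YY))
noncomputable instance : Module ℚ Gam := inferInstanceAs (Module ℚ (G0 × Module.Dual ℚ YY))

theorem Gam.ext {a b : Gam} (h1 : a.1 = b.1) (h2 : ∀ y, a.2 y = b.2 y) : a = b :=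
  Prod.ext h1 (LinearMap.ext h2)

noncomputable def mulG (a b : Gam) : Gam := (a.1 * b.1, b.2 ∘ₗ rm a.1 + a.2 ∘ₗ lm b.1)

theorem mulG1 (a b : Gam) : (mulG a b).1 = a.1 * b.1 := rfl
theorem mulG2 (a b : Gam) (y : YY) : (mulG a b).2 y = b.2 (rm a.1 y) + a.2 (lm b.1 y) := rfl
theorem Gam.add1 (a b : Gam) : (a + b).1 = a.1 + b.1 := rfl
theorem Gam.add2 (a b : Gam) (y : YY) : (a + b).2 y = a.2 y + b.2 y := rfl

noncomputable instance : Ring Gam where
  __ := (inferInstance : AddCommGroup Gam)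
  mul := mulG
  one := ((1 : G0), (0 : Module.Dual ℚ YY))
  mul_assoc a b c := Gam.ext (mul_assoc a.1 b.1 c.1) fun y => by
    change (mulG (mulG a b) c).2 y = (mulG a (mulG b c)).2 y
    simp only [mulG1, mulG2, lm_mul, rm_mul, lm_rm, add_assoc]
  left_distrib a b c := Gam.ext (mul_add a.1 b.1 c.1) fun y => by
    change (mulG a (b + c)).2 y = (mulG a b).2 y + (mulG a c).2 y
    simp only [mulG2, Gam.add1, Gam.add2, lm_add, map_add]; abel
  right_distrib a b c := Gam.ext (add_mul a.1 b.1 c.1) fun y => by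
    change (mulG (a + b) c).2 y = (mulG a c).2 y + (mulG b c).2 y
    simp only [mulG2, Gam.add1, Gam.add2, rm_add, map_add]; abel
  zero_mul a := Gam.ext (zero_mul a.1) fun y => by
    change a.2 (rm 0 y) + 0 = 0
    rw [rm_zero, map_zero, add_zero]
  mul_zero a := Gam.ext (mul_zero a.1) fun y => by
    change 0 + a.2 (lm 0 y) = 0
    rw [lm_zero, map_zero, add_zero]
  one_mul a := Gam.ext (one_mul a.1) fun y => by
    change a.2 (rm 1 y) + 0 = a.2 y
    rw [rm_one, add_zero]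
  mul_one a := Gam.ext (mul_one a.1) fun y => by
    change 0 + a.2 (lm 1 y) = a.2 y
    rw [lm_one, zero_add]

theorem Gam.mul1 (a b : Gam) : (a * b).1 = a.1 * b.1 := rfl
theorem Gam.mul2 (a b : Gam) (y : YY) : (a * b).2 y = b.2 (rm a.1 y) + a.2 (lm b.1 y) := rfl

noncomputable instance : Algebra ℚ Gam := Algebra.ofModule
  (fun r a b => Gam.ext (smul_mul_assoc r a.1 b.1) fun y => by
    change b.2 (rm (r • a.1) y) + r • a.2 (lm b.1 y) = r • (b.2 (rm a.1 y) + a.2 (lm b.1 y))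
    rw [rm_smul, map_smul, smul_add])
  (fun r a b => Gam.ext (mul_smul_comm r a.1 b.1) fun y => by
    change r • b.2 (rm a.1 y) + a.2 (lm (r • b.1) y) = r • (b.2 (rm a.1 y) + a.2 (lm b.1 y))
    rw [lm_smul, map_smul, smul_add])

instance : Module.Finite ℚ YY := Module.Finite.iff_fg.mpr (SB_fg true)
instance : Module.Finite ℚ G0 := (Module.Finite.iff_fg (N := SB false)).mpr (SB_fg false)
instance : Module.Finite ℚ Gam := inferInstanceAs (Module.Finite ℚ (G0 × Module.Dual ℚ YY))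

noncomputable def fstL : Gam →+ LB where
  toFun a := a.1.1
  map_zero' := rfl
  map_add' _ _ := rfl

noncomputable def sndL (y : YY) : Gam →+ ℚ where
  toFun a := a.2 y
  map_zero' := rfl
  map_add' _ _ := rfl

theorem Gam.sum1 {ι : Type} (s : Finset ι) (f : ι → Gam) :
    (∑ i ∈ s, f i).1.1 = ∑ i ∈ s, (f i).1.1 := map_sum fstL f s
theorem Gam.sum2 {ι : Type} (s : Finset ι) (f : ι → Gam) (y : YY) :
    (∑ i ∈ s, f i).2 y = ∑ i ∈ s, (f i).2 y := map_sum (sndL y) f s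

/-- the modules -/
def Nt (n : ℕ) : Type := NN n

noncomputable instance (n : ℕ) : AddCommGroup (Nt n) := inferInstanceAs (AddCommGroup (NN n))
noncomputable instance (n : ℕ) : Module ℚ (Nt n) := inferInstanceAs (Module ℚ (NN n))

theorem rho_mem' {X : LB} (hX : X ∈ SB false) {d : ℤ} {m : VV} (hm : m ∈ NN d) : rho au X m ∈ NN d :=
  rho_mem hX (by simpa [sf] using hm)

noncomputable instance (n : ℕ) : Module Gam (Nt n) where
  smul a m := ⟨rho au a.1.1 m.1, rho_mem' a.1.2 m.2⟩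
  one_smul m := Subtype.ext (rho_one m.1)
  mul_smul a b m := Subtype.ext (rho_mul (b := false) a.1.2 b.1.2 m.1)
  smul_zero a := Subtype.ext (map_zero (rho au a.1.1))
  smul_add a m m' := Subtype.ext (map_add (rho au a.1.1) m.1 m'.1)
  add_smul a b m := Subtype.ext (rho_add au a.1.1 b.1.1 m.1)
  zero_smul m := Subtype.ext (cG_zero m.1)

theorem Nt.smul_val {n : ℕ} (a : Gam) (m : Nt n) : (a • m).1 = rho au a.1.1 m.1 := rfl
theorem Nt.sum_val {n : ℕ} {ι : Type} (s : Finset ι) (f : ι → Nt n) :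
    (∑ i ∈ s, f i).1 = ∑ i ∈ s, (f i).1 := Submodule.coe_sum (NN n) f s

instance (n : ℕ) : Module.Finite ℚ (Nt n) :=
  (Module.Finite.iff_fg (N := NN n)).mpr (Submodule.fg_pi fun _ => Md_fg _)

variable {n : ℕ}

abbrev FF (n : ℕ) := AA n → Gam

noncomputable def iG (g : G0) : Gam := (g, 0)
noncomputable def E0 (k : ℕ) (g : AA n) : G0 := ⟨EL k g, EL_mem k g⟩
noncomputable def D0 (k : ℕ) (g g' : AA n) : G0 := ⟨DL n k g g', DL_mem k g g'⟩
noncomputable def DG (n k : ℕ) : Matrix (AA n) (AA n) Gam := of fun g g' => iG (D0 k g g')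
noncomputable def Em (n k : ℕ) : FF n →ₗ[Gam] FF n := (diagonal fun g => iG (E0 k g)).vecMulLinear
noncomputable def Dm (n k : ℕ) : FF n →ₗ[Gam] FF n := (DG n k).vecMulLinear

theorem Em_apply (k : ℕ) (y : FF n) (g : AA n) : Em n k y g = y g * iG (E0 k g) :=
  vecMul_diagonal _ _ _
theorem Dm_apply (k : ℕ) (y : FF n) : Dm n k y = y ᵥ* DG n k := rfl

theorem mul_iG2 (a : Gam) (g : G0) (y : YY) : (a * iG g).2 y = a.2 (lm g y) := zero_add _
theorem iG_mul2 (a : Gam) (g : G0) (y : YY) : (iG g * a).2 y = a.2 (rm g y) := add_zero _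

theorem iG_mul (g h : G0) : iG g * iG h = iG (g * h) := Gam.ext rfl fun _ => add_zero _

def y1 (y : FF n) : AA n → LB := fun g => (y g).1.1
noncomputable def Ph (y : FF n) : (AA n → YY) →ₗ[ℚ] ℚ := ∑ g, (y g).2 ∘ₗ LinearMap.proj g

theorem y1_mem (y : FF n) (g : AA n) : y1 y g ∈ SB false := (y g).1.2
theorem Ph_apply (y : FF n) (t : AA n → YY) : Ph y t = ∑ g, (y g).2 (t g) := by simp [Ph]

theorem Ph_single (y : FF n) (g : AA n) (t : YY) : Ph y (Pi.single g t) = (y g).2 t := by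
  rw [Ph_apply, Finset.sum_eq_single g (fun u _ h => by simp [h]) (by simp), Pi.single_eq_same]

theorem FF_ext {y z : FF n} (h1 : y1 y = y1 z) (h2 : ∀ t, Ph y t = Ph z t) : y = z :=
  funext fun g => Gam.ext (Subtype.ext (congrFun h1 g)) fun t => by
    rw [← Ph_single, ← Ph_single, h2]

noncomputable def mkF (γ : AA n → LB) (h : ∀ g, γ g ∈ SB false) (Φ : (AA n → YY) →ₗ[ℚ] ℚ) : FF n :=
  fun g => (⟨γ g, h g⟩, Φ ∘ₗ LinearMap.single ℚ (fun _ => YY) g)

theorem Ph_mkF (γ : AA n → LB) (h : ∀ g, γ g ∈ SB false) (Φ : (AA n → YY) →ₗ[ℚ] ℚ) (t : AA n → YY) :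
    Ph (mkF γ h Φ) t = Φ t := by
  rw [Ph_apply]
  conv_rhs => rw [← Finset.univ_sum_single t, map_sum]
  rfl

noncomputable def dl (n k : ℕ) : (AA n → YY) →ₗ[ℚ] (AA n → YY) :=
  LinearMap.pi fun g => ∑ g', lm (D0 k g g') ∘ₗ LinearMap.proj g'
noncomputable def dr (n k : ℕ) : (AA n → YY) →ₗ[ℚ] (AA n → YY) :=
  LinearMap.pi fun g' => ∑ g, rm (D0 k g g') ∘ₗ LinearMap.proj g
noncomputable def el (n k : ℕ) : (AA n → YY) →ₗ[ℚ] (AA n → YY) :=
  LinearMap.pi fun g => lm (E0 k g) ∘ₗ LinearMap.proj g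
noncomputable def er (n k : ℕ) : (AA n → YY) →ₗ[ℚ] (AA n → YY) :=
  LinearMap.pi fun g => rm (E0 k g) ∘ₗ LinearMap.proj g

theorem dl_apply (k : ℕ) (t : AA n → YY) (g : AA n) : dl n k t g = ∑ g', lm (D0 k g g') (t g') := by
  simp [dl]
theorem dr_apply (k : ℕ) (t : AA n → YY) (g' : AA n) : dr n k t g' = ∑ g, rm (D0 k g g') (t g) := by
  simp [dr]

def cv (t : AA n → YY) : AA n → LB := fun g => t g

theorem cv_mem (t : AA n → YY) (g : AA n) : cv t g ∈ SB true := (t g).2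
theorem cv_inj {t s : AA n → YY} (h : cv t = cv s) : t = s :=
  funext fun g => Subtype.ext (congrFun h g)
theorem cv_dl (k : ℕ) (t : AA n → YY) : cv (dl n k t) = DL n k *ᵥ cv t := funext fun g => by
  rw [cv, dl_apply, Submodule.coe_sum]; rfl
theorem cv_dr (k : ℕ) (t : AA n → YY) : cv (dr n k t) = cv t ᵥ* DL n k := funext fun g => by
  rw [cv, dr_apply, Submodule.coe_sum]; rfl
theorem cv_el (k : ℕ) (t : AA n → YY) : cv (el n k t) = fun g => EL k g * cv t g := rfl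
theorem cv_er (k : ℕ) (t : AA n → YY) : cv (er n k t) = fun g => cv t g * EL k g := rfl

theorem y1_D (k : ℕ) (y : FF n) : y1 (Dm n k y) = y1 y ᵥ* DL n k := funext fun g => by
  rw [y1, Dm_apply, row_sum, Gam.sum1]; rfl
theorem y1_D' (k : ℕ) (y : FF n) : y1 (DG n k *ᵥ y) = DL n k *ᵥ y1 y := funext fun g => by
  rw [y1, col_sum, Gam.sum1]; rfl

theorem Ph_D (k : ℕ) (y : FF n) (t : AA n → YY) : Ph (Dm n k y) t = Ph y (dl n k t) := by
  simp only [Ph_apply, Dm_apply, row_sum, Gam.sum2, dl_apply, map_sum, DG, of_apply, mul_iG2]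
  exact Finset.sum_comm

theorem Ph_D' (k : ℕ) (y : FF n) (t : AA n → YY) : Ph (DG n k *ᵥ y) t = Ph y (dr n k t) := by
  simp only [Ph_apply, col_sum, Gam.sum2, dr_apply, map_sum, DG, of_apply, iG_mul2]
  exact Finset.sum_comm

theorem Ph_E (k : ℕ) (y : FF n) (t : AA n → YY) : Ph (Em n k y) t = Ph y (el n k t) := by
  simp only [Ph_apply, Em_apply, mul_iG2]; rfl

theorem y1_E {k : ℕ} {y : FF n} (h : Em n k y = y) (g : AA n) : y1 y g * EL k g = y1 y g :=
  congrArg (fun a : Gam => a.1.1) ((Em_apply k y g).symm.trans (congrFun h g))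

theorem DL_E (k : ℕ) (t : AA n → LB) : DL n k *ᵥ (fun g => EL k g * t g) = DL n k *ᵥ t := by
  funext g; simp only [col_sum, ← mul_assoc, DL_EL]

theorem E_DL (k : ℕ) (t : AA n → LB) : (fun g => t g * EL (k + 1) g) ᵥ* DL n k = t ᵥ* DL n k := by
  funext g; simp only [row_sum, mul_assoc, EL_DL]

theorem EE_l (k : ℕ) (t : AA n → LB) (g : AA n) : EL k g * (EL k g * t g) = EL k g * t g := by
  rw [← mul_assoc, EL_EL]
theorem EE_r (k : ℕ) (t : AA n → LB) (g : AA n) : t g * EL k g * EL k g = t g * EL k g := by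
  rw [mul_assoc, EL_EL]

theorem factor {U W : Type} [AddCommGroup U] [Module ℚ U] [AddCommGroup W] [Module ℚ W]
    (q : U →ₗ[ℚ] W) (φ : U →ₗ[ℚ] ℚ) (h : ∀ u, q u = 0 → φ u = 0) :
    ∃ ψ : W →ₗ[ℚ] ℚ, ∀ u, ψ (q u) = φ u := by
  have : φ ∈ LinearMap.range q.dualMap := by
    rw [LinearMap.range_dualMap_eq_dualAnnihilator_ker, Submodule.mem_dualAnnihilator]
    exact h
  obtain ⟨ψ, e⟩ := this
  exact ⟨ψ, fun u => LinearMap.congr_fun e u⟩

theorem mkD {k : ℕ} {y : FF n} (h1 : ∃ z, (∀ g, z g ∈ SB false) ∧ y1 y = z ᵥ* DL n k)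
    (h2 : ∀ t, dl n k t = 0 → Ph y t = 0) : ∃ z, Dm n k z = y := by
  obtain ⟨z, hz, e⟩ := h1
  obtain ⟨ψ, hψ⟩ := factor _ _ h2
  exact ⟨mkF z hz ψ, FF_ext (by rw [y1_D, e]; rfl) fun t => by rw [Ph_D, Ph_mkF, hψ]⟩

theorem mkD' {k : ℕ} {y : FF n} (h1 : ∃ z, (∀ g, z g ∈ SB false) ∧ y1 y = DL n k *ᵥ z)
    (h2 : ∀ t, dr n k t = 0 → Ph y t = 0) : ∃ z, y = DG n k *ᵥ z := by
  obtain ⟨z, hz, e⟩ := h1
  obtain ⟨ψ, hψ⟩ := factor _ _ h2
  exact ⟨mkF z hz ψ, FF_ext (by rw [y1_D', e]; rfl) fun t => by rw [Ph_D', Ph_mkF, hψ]⟩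

noncomputable def XY (n : ℕ) : TP n true →ₗ[ℚ] (AA n → YY) where
  toFun τ g := ⟨XI true τ.1 g, XI_mem τ.2 g⟩
  map_add' τ σ := cv_inj <| funext fun g => Matrix.ext fun v w => by
    change XI true (τ.1 + σ.1) g v w = XI true τ.1 g v w + XI true σ.1 g v w
    simp only [XI, mkC, of_apply]; split_ifs
    · exact TT.ext fun c => by cases c <;> simp [xT, unc, xiF, TT.add_c]
    · simp
  map_smul' r τ := cv_inj <| funext fun g => Matrix.ext fun v w => by
    change XI true (r • τ.1) g v w = r • XI true τ.1 g v w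
    simp only [XI, mkC, of_apply]; split_ifs
    · exact TT.ext fun c => by cases c <;> simp [xT, unc, xiF, TT.smul_c]
    · simp

theorem cv_XY (τ : TP n true) : cv (XY n τ) = XI true τ.1 := rfl

theorem liftY {s : AA n → LB} (h : ∀ g, s g ∈ SB true) : ∃ t, cv t = s := ⟨fun g => ⟨s g, h g⟩, rfl⟩

theorem colY0 {t : AA n → YY} (h : dl n 0 t = 0) : el n 0 t = 0 :=
  cv_inj (colLB0 true (cv_mem _) (EE_l 0 _) (by rw [cv_el, DL_E, ← cv_dl, h]; rfl))

theorem colY {k : ℕ} (hk : k ≠ 2) {t : AA n → YY} (h : dl n (k + 1) t = 0) :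
    ∃ s, el n (k + 1) t = dl n k s := by
  obtain ⟨s, hs, e⟩ := colLB true hk (cv_mem (el n (k + 1) t)) (EE_l _ _)
    (by rw [cv_el, DL_E, ← cv_dl, h]; rfl)
  obtain ⟨s, rfl⟩ := liftY hs
  exact ⟨s, cv_inj (by rw [e, cv_dl])⟩

theorem colY3 {t : AA n → YY} (h : dl n 3 t = 0) : ∃ s τ, el n 3 t = dl n 2 s + XY n τ := by
  obtain ⟨s, τ, hs, hτ, e⟩ := colLB3 true (cv_mem (el n 3 t)) (EE_l _ _)
    (by rw [cv_el, DL_E, ← cv_dl, h]; rfl)
  obtain ⟨s, rfl⟩ := liftY hs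
  exact ⟨s, ⟨τ, hτ⟩, cv_inj (by rw [e, ← cv_dl]; rfl)⟩

theorem rowY (hn : n ≠ 0) {k : ℕ} {t : AA n → YY} (h : dr n k t = 0) :
    ∃ s, er n (k + 1) t = dr n (k + 1) s := by
  obtain ⟨s, hs, e⟩ := rowLB hn true (k + 1) (cv_mem (er n (k + 1) t)) (EE_r _ _) (by omega)
    (fun k' e => by rw [cv_er, ← Nat.succ_injective e, E_DL, ← cv_dr, h]; rfl)
  obtain ⟨s, rfl⟩ := liftY hs
  exact ⟨s, cv_inj (by rw [e, cv_dr])⟩

theorem rowY0 (hn : n ≠ 0) {t : AA n → YY} (h : ∑ g, rho ru (t g) (bV g) = 0) :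
    ∃ s, er n 0 t = dr n 0 s := by
  obtain ⟨s, hs, e⟩ := rowLB hn true 0 (cv_mem (er n 0 t)) (EE_r _ _) (fun _ => by
    simp only [cv_er, rho_mul (cv_mem t _) (EL_mem 0 _), EL_bV]; exact h) (by omega)
  obtain ⟨s, rfl⟩ := liftY hs
  exact ⟨s, cv_inj (by rw [e, cv_dr])⟩

end Vale.Agent.P195
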