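import Vale.Agent.P195.G2

namespace Vale.Agent.P195

open Matrix Cmp

variable {n : ℕ}

theorem cyc3 (hn : n ≠ 0) {y : FF n} (h1 : Em n 3 y = y) (h2 : Dm n 2 y = 0) {t : AA n → LB}
    (ht : DL n 3 *ᵥ t = 0) : ∑ g, y1 y g * t g = 0 := by
  obtain ⟨z, -, e⟩ := rowLB hn false 3 (y1_mem y) (y1_E h1) (by omega) fun k' e => by
    rw [← Nat.succ_injective e, ← y1_D, h2]; rfl
  have := dotProduct_mulVec z (DL n 3) t
  rw [ht, dotProduct_zero, ← e] at this
  exact this.symm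

theorem Ph_smul (a : Gam) (y : FF n) (t : AA n → YY) :
    Ph (a • y) t = Ph y (fun g => rm a.1 (t g)) + a.2 (∑ g, lm (y g).1 (t g)) := by
  simp only [Ph_apply, Pi.smul_apply, smul_eq_mul, Gam.mul2, Finset.sum_add_distrib, map_sum]

noncomputable def RelM (hn : n ≠ 0) : Submodule Gam (FF n × Nt (n + 1)) where
  carrier := {p | Em n 3 p.1 = p.1 ∧ Dm n 2 p.1 = 0 ∧
    ∀ τ : TP n true, Ph p.1 (XY n τ) = pT n τ.1 p.2.1}
  add_mem' := by
    rintro ⟨y, w⟩ ⟨z, u⟩ ⟨h1, h2, h3⟩ ⟨g1, g2, g3⟩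
    refine ⟨by rw [Prod.fst_add, map_add, h1, g1], by rw [Prod.fst_add, map_add, h2, g2, add_zero],
      fun τ => ?_⟩
    change Ph (y + z) _ = pT n τ.1 (w.1 + u.1)
    rw [map_add, ← h3, ← g3]
    simp only [Ph_apply, Pi.add_apply, Gam.add2, Finset.sum_add_distrib]
  zero_mem' := ⟨map_zero _, map_zero _, fun τ => by
    change Ph 0 _ = pT n τ.1 0
    rw [map_zero, Ph_apply]; exact Finset.sum_const_zero⟩
  smul_mem' := by
    rintro a ⟨y, w⟩ ⟨h1, h2, h3⟩
    refine ⟨by rw [Prod.smul_fst, map_smul, h1], by rw [Prod.smul_fst, map_smul, h2, smul_zero],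
      fun τ => ?_⟩
    change Ph (a • y) _ = pT n τ.1 (rho au a.1.1 w.1)
    have e1 : (fun g => rm a.1 (XY n τ g)) = XY n ⟨_, tm_mem (b := true) τ.2 a.1.2⟩ :=
      cv_inj (funext fun g => XI_mul (b := true) τ.1 a.1.2 g)
    have e2 : ∑ g, lm (y g).1 (XY n τ g) = 0 := Subtype.ext (by
      rw [Submodule.coe_sum]; exact cyc3 hn h1 h2 (DL_XI τ.2))
    rw [Ph_smul, e1, e2, map_zero, add_zero, h3]
    exact pT_tm (b' := false) τ.2 a.1.2 w.1

theorem cast1 (n : ℕ) : ((n + 1 : ℕ) : ℤ) = n + sf true := by simp [sf]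

noncomputable def pN (n : ℕ) : TP n true →ₗ[ℚ] Module.Dual ℚ (Nt (n + 1)) :=
  (pT n).compl₂ (NN ((n + 1 : ℕ) : ℤ)).subtype ∘ₗ (TP n true).subtype

theorem el_dl (k : ℕ) (t : AA n → YY) : el n (k + 1) (dl n k t) = dl n k t :=
  cv_inj (by rw [cv_el, cv_dl]; funext g; simp only [col_sum, Finset.mul_sum, ← mul_assoc, EL_DL])

theorem rel_sur (hn : n ≠ 0) (w : Nt (n + 1)) : ∃ y, y1 y = 0 ∧ (y, w) ∈ RelM hn := by
  obtain ⟨ψ, hψ⟩ := factor ((LinearMap.range (dl n 2)).mkQ ∘ₗ XY n) ((pN n).flip w) fun τ h => by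
    obtain ⟨s, hs⟩ := (Submodule.Quotient.mk_eq_zero _).mp h
    exact (XI_cob τ.2).mp ⟨cv s, cv_mem s, by rw [← cv_dl, hs]; rfl⟩ w.1 (cast1 n ▸ w.2)
  refine ⟨mkF 0 (fun _ => zero_mem _) (ψ ∘ₗ (LinearMap.range (dl n 2)).mkQ ∘ₗ el n 3), rfl,
    FF_ext (funext fun g => ?_) fun t => ?_, FF_ext (by rw [y1_D]; exact zero_vecMul _) fun t => ?_,
    fun τ => ?_⟩
  · rw [y1, Em_apply]; exact zero_mul _
  · rw [Ph_E, Ph_mkF, Ph_mkF]
    simp only [LinearMap.comp_apply]
    rw [show el n 3 (el n 3 t) = el n 3 t from cv_inj (funext (EE_l 3 (cv t)))]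
  · rw [Ph_D, Ph_mkF, Ph_apply]
    simp only [LinearMap.comp_apply, el_dl]
    rw [Submodule.mkQ_apply, (Submodule.Quotient.mk_eq_zero _).mpr (LinearMap.mem_range_self _ t), map_zero]
    exact Finset.sum_const_zero.symm
  · rw [Ph_mkF]
    simp only [LinearMap.comp_apply]
    rw [show el n 3 (XY n τ) = XY n τ from cv_inj (funext (EL_XI τ.2))]
    exact hψ τ

noncomputable def bN (g : AA n) : Nt n := ⟨bV g, bV_mem g⟩
noncomputable def aug (n : ℕ) : FF n →ₗ[Gam] Nt n := Fintype.linearCombination Gam bN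

theorem aug_apply (y : FF n) : aug n y = ∑ g, y g • bN g := rfl
theorem aug_val (y : FF n) : (aug n y).1 = ∑ g, rho au (y1 y g) (bV g) := Nt.sum_val _ _

theorem E_bN (g : AA n) : iG (E0 0 g) • bN g = bN g := Subtype.ext (EL_bV g)
theorem D_bN (g : AA n) : ∑ g', DG n 0 g g' • bN g' = 0 :=
  Subtype.ext ((Nt.sum_val _ _).trans (DL_bV g))

theorem aug_sur : Function.Surjective (aug n) := fun m => by
  obtain ⟨y, hy, e⟩ := aug_surj (n := n) false (m := m.1) (by simpa [sf] using m.2)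
  exact ⟨mkF y hy 0, Subtype.ext ((aug_val _).trans e)⟩

theorem Ph_zero (t : AA n → YY) : Ph (0 : FF n) t = 0 := by
  rw [Ph_apply]; exact Finset.sum_const_zero

theorem DE' (k : ℕ) (y : FF n) : Dm n k (Em n (k + 1) y) = Dm n k y := funext fun g => by
  simp only [Dm_apply, row_sum, Em_apply, mul_assoc, DG, of_apply, iG_mul]
  exact Finset.sum_congr rfl fun h _ => by
    rw [show E0 (k + 1) h * D0 k h g = D0 k h g from Subtype.ext (EL_DL k h g)]

theorem DD' (k : ℕ) (y : FF n) : Dm n k (Dm n (k + 1) y) = 0 :=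
  FF_ext (by rw [y1_D, y1_D, vecMul_vecMul, DL_DL, vecMul_zero]; rfl) fun t => by
    rw [Ph_D, Ph_D, Ph_zero, show dl n (k + 1) (dl n k t) = 0 from cv_inj (by
      rw [cv_dl, cv_dl, mulVec_mulVec, DL_DL, zero_mulVec]; rfl), map_zero]

theorem res (hn : n ≠ 0) : Res (Em n) (Dm n) (aug n) (RelM hn) where
  pr := inferInstance
  EE k y := funext fun g => by
    rw [Em_apply, Em_apply, mul_assoc, iG_mul,
      show E0 k g * E0 k g = E0 k g from Subtype.ext (EL_EL k g)]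
  DE := DE'
  ED k y := funext fun g => by
    simp only [Dm_apply, row_sum, Em_apply, Finset.sum_mul, mul_assoc, DG, of_apply, iG_mul]
    exact Finset.sum_congr rfl fun h _ => by
      rw [show D0 k h g * E0 k g = D0 k h g from Subtype.ext (DL_EL k h g)]
  DD := DD'
  aE y := by simp only [aug_apply, Em_apply, mul_smul, E_bN]
  aD y := by
    simp only [aug_apply, Dm_apply, row_sum, Finset.sum_smul, mul_smul]
    rw [Finset.sum_comm]
    simp only [← Finset.smul_sum, D_bN, smul_zero, Finset.sum_const_zero]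
  sur := aug_sur
  ex0 y h1 h2 := mkD (rowLB hn false 0 (y1_mem y) (y1_E h1)
    (fun _ => (aug_val y).symm.trans (congrArg Subtype.val h2)) (by omega)) fun t ht => by
      rw [← h1, Ph_E, colY0 ht, map_zero]
  ex k hk y h1 h2 := mkD (rowLB hn false (k + 1) (y1_mem y) (y1_E h1) (by omega) fun k' e => by
    rw [← Nat.succ_injective e, ← y1_D, h2]; rfl) fun t ht => by
      obtain ⟨s, e⟩ := colY hk ht
      rw [← h1, Ph_E, e, ← Ph_D, h2, Ph_zero]
  r1 y := ⟨fun h => by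
      obtain ⟨ψ, hψ⟩ := factor (pN n) (Ph y ∘ₗ XY n) fun τ e => by
        obtain ⟨s, hs, e'⟩ := (XI_cob τ.2).mpr fun w hw =>
          LinearMap.congr_fun e (⟨w, (cast1 n).symm ▸ hw⟩ : Nt (n + 1))
        obtain ⟨s, rfl⟩ := liftY hs
        rw [LinearMap.comp_apply, show XY n τ = dl n 2 s from cv_inj (by rw [cv_dl, ← e']; rfl),
          ← Ph_D, h.2, Ph_zero]
      obtain ⟨w, rfl⟩ := (Module.bijective_dual_eval ℚ (Nt (n + 1))).2 ψ
      exact ⟨w, h.1, h.2, fun τ => (hψ τ).symm⟩,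
    fun ⟨_, h⟩ => ⟨h.1, h.2.1⟩⟩
  r2 w := (rel_sur hn w).imp fun _ h => h.2
  r3 y w h := ⟨fun e => mkD (rowLB hn false 3 (y1_mem y) (y1_E h.1) (by omega) fun k' e => by
      rw [← Nat.succ_injective e, ← y1_D, show Dm n 2 y = 0 from h.2.1]; rfl) fun t ht => by
        obtain ⟨s, τ, e'⟩ := colY3 ht
        have h1 : Em n 3 y = y := h.1
        have h3 : Ph y (XY n τ) = pT n τ.1 w.1 := h.2.2 τ
        rw [← h1, Ph_E, e', map_add, ← Ph_D, show Dm n 2 y = 0 from h.2.1, Ph_zero, h3, e, zero_add]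
        exact map_zero _,
    fun ⟨z, e⟩ => Subtype.ext ((Module.forall_dual_apply_eq_zero_iff ℚ w.1).mp fun χ => by
      obtain ⟨τ, hτ, e'⟩ := pT_surj (n := n) true χ
      have h3 : Ph y (XY n ⟨τ, hτ⟩) = pT n τ w.1 := h.2.2 ⟨τ, hτ⟩
      rw [← e' _ (cast1 n ▸ w.2), ← h3, ← e, Ph_D, show dl n 3 (XY n ⟨τ, hτ⟩) = 0 from
        cv_inj (by rw [cv_dl, cv_XY, DL_XI hτ]; rfl), map_zero])⟩

theorem ext_of {T : Type} [AddCommGroup T] [Module Gam T] (k : ℕ)
    (h : ∀ t : AA n → T, (∀ g, iG (E0 (k + 1) g) • t g = t g) →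
      (∀ g, ∑ g', DG n (k + 1) g g' • t g' = 0) → (∀ y, Dm n k y = 0 → ∑ g, y g • t g = 0) →
      ∃ s : AA n → T, ∀ g, t g = ∑ g', DG n k g g' • s g')
    (φ : FF n →ₗ[Gam] T) (hφ : ∀ y, Dm n k y = 0 → φ y = 0) :
    ∃ ψ : FF n →ₗ[Gam] T, ∀ y, ψ (Dm n k y) = φ y := by
  have e : ∀ y, φ y = ∑ g, y g • φ (Pi.single g 1) := fun y => by
    conv_lhs => rw [← Finset.univ_sum_single y, map_sum]
    exact Finset.sum_congr rfl fun g _ => by rw [← map_smul, ← Pi.single_smul', smul_eq_mul, mul_one]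
  obtain ⟨s, hs⟩ := h (fun g => φ (Pi.single g 1)) (fun g => by
      have := hφ (Em n (k + 1) (Pi.single g 1) - Pi.single g 1) (by rw [map_sub, DE', sub_self])
      rw [map_sub, sub_eq_zero] at this
      rw [← map_smul, ← this]; congr 1
      funext h
      rw [Em_apply]
      by_cases e : h = g
      · subst e; simp
      · simp [e])
    (fun g => by
      have := hφ _ (DD' k (Pi.single g 1))
      rwa [e, Dm_apply, single_one_vecMul] at this)
    fun y hy => (e y).symm.trans (hφ y hy)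
  refine ⟨Fintype.linearCombination Gam s, fun y => ?_⟩
  rw [e y]
  simp only [hs, Fintype.linearCombination_apply, Dm_apply, row_sum, Finset.sum_smul, mul_smul,
    Finset.smul_sum]
  exact Finset.sum_comm

theorem Ph_E' {k : ℕ} {t : FF n} (h : ∀ g, iG (E0 k g) • t g = t g) (y : AA n → YY) :
    Ph t (er n k y) = Ph t y := by
  simp only [Ph_apply]
  exact Finset.sum_congr rfl fun g _ => by
    conv_rhs => rw [← h g, smul_eq_mul, iG_mul2]
    rfl

theorem y1_E' {k : ℕ} {t : FF n} (h : ∀ g, iG (E0 k g) • t g = t g) (g : AA n) :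
    EL k g * y1 t g = y1 t g := congrArg (fun a : Gam => a.1.1) (h g)

noncomputable def qY (n : ℕ) : (AA n → YY) →ₗ[ℚ] VV where
  toFun y := ∑ g, rho ru (y g) (bV g)
  map_add' y z := by simp [rho_add, Finset.sum_add_distrib]
  map_smul' c y := by simp [rho_smul, Finset.smul_sum]

theorem homG (hn : n ≠ 0) (f : Nt n →ₗ[Gam] Gam) : (∀ w, (f w).1.1 = 0) ∧
    ∃ χ : VV →ₗ[ℚ] ℚ, ∀ w (y : YY), (f w).2 y = χ (rho ru y w.1) := by
  have h1 : ∀ g, iG (E0 0 g) • f (bN g) = f (bN g) := fun g => by rw [← map_smul, E_bN]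
  have h2 : DG n 0 *ᵥ (fun g => f (bN g)) = 0 := funext fun g => by
    have := congrArg f (D_bN g)
    simp only [map_sum, map_smul, map_zero] at this
    exact this
  have h3 : y1 (fun g => f (bN g)) = 0 := colLB0 false (y1_mem _) (y1_E' h1) (by
    rw [← y1_D', h2]; rfl)
  have h4 : ∀ g, (f (bN g)).1 = 0 := fun g => Subtype.ext (congrFun h3 g)
  obtain ⟨χ, hχ⟩ := factor (qY n) (Ph fun g => f (bN g)) fun y hy => by
    obtain ⟨s, e⟩ := rowY0 hn hy
    rw [← Ph_E' h1, e, ← Ph_D', h2, Ph_zero]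
  refine ⟨fun w => ?_, χ, fun w Y => ?_⟩ <;> obtain ⟨y, rfl⟩ := aug_sur w
  · simp only [aug_apply, map_sum, map_smul, Gam.sum1, smul_eq_mul, Gam.mul1, h4, mul_zero]
    exact Finset.sum_const_zero
  · rw [aug_val, map_sum]
    simp only [aug_apply, map_sum, map_smul, Gam.sum2, smul_eq_mul, Gam.mul2, h4, lm_zero, map_zero,
      add_zero]
    rw [← Ph_apply (fun g => f (bN g)) fun g => rm (y g).1 Y, ← hχ, ← map_sum]
    exact congrArg χ (Finset.sum_congr rfl fun g _ => rho_mul (b := true) Y.2 (y1_mem y g) _)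

theorem extG (hn : n ≠ 0) : Ext' Gam (Em n) (Dm n) (RelM hn) where
  ex k := ext_of k fun t h1 h2 h3 => by
    have h2' : DG n (k + 1) *ᵥ t = 0 := funext h2
    have h4 : DL n (k + 1) *ᵥ y1 t = 0 := by rw [← y1_D', h2']; rfl
    refine (mkD' (y := t) ?_ fun y hy => ?_).imp fun s e => congrFun e
    · by_cases hk : k = 2
      swap; · exact colLB false hk (y1_mem t) (y1_E' h1) h4
      subst hk
      obtain ⟨s, τ, hs, hτ, e⟩ := colLB3 false (y1_mem t) (y1_E' h1) h4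
      obtain ⟨s', hs', e'⟩ := (XI_cob hτ).mpr fun w hw => by
        obtain ⟨Y, hY, rfl⟩ := aug_surj (n := n + 1) true (m := w) (by simpa [sf] using hw)
        rw [map_sum]
        refine Finset.sum_eq_zero fun g _ => ?_
        obtain ⟨y, e1, -, e2, e3⟩ := rel_sur hn (bN g)
        have h5 := congrArg (fun a : Gam => a.2 ⟨_, hY g⟩) (h3 y e2)
        have h6 : ∀ g, (y g).1 = 0 := fun g => Subtype.ext (congrFun e1 g)
        simp only [Gam.sum2, smul_eq_mul, Gam.mul2, h6, rm_zero, map_zero, zero_add] at h5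
        obtain ⟨s', hs'⟩ := liftY fun h => SB_lm (hs h) (hY g)
        have h7 : (fun h => lm (t h).1 ⟨_, hY g⟩) =
            dl n 2 s' + XY n ⟨_, tm_mem (b := false) hτ (hY g)⟩ := cv_inj (funext fun h => by
          change y1 t h * Y g = cv (dl n 2 s') h + XI true _ h
          rw [e, cv_dl, hs', ← XI_mul (b := false) τ (hY g), Pi.add_apply, add_mul]
          simp only [col_sum, Finset.sum_mul, mul_assoc])
        rw [← Ph_apply y fun h => lm (t h).1 ⟨_, hY g⟩, h7, map_add, ← Ph_D,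
          show Dm n 2 y = 0 from e2, Ph_zero, zero_add, e3] at h5
        exact (pT_tm hτ (hY g) _).symm.trans h5
      exact ⟨s + s', fun g => add_mem (hs g) (hs' g), by rw [e, e', mulVec_add]⟩
    · obtain ⟨s, e⟩ := rowY hn hy
      rw [← Ph_E' h1, e, ← Ph_D', h2', Ph_zero]
  sp f := by
    obtain ⟨h1, χ, h2⟩ := homG (Nat.succ_ne_zero n) f
    obtain ⟨τ, hτ, e⟩ := pT_surj (n := n) false χ
    refine ⟨Fintype.linearCombination Gam (mkF (XI false τ) (XI_mem hτ) 0), fun y w h =>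
      Gam.ext (Subtype.ext ?_) fun Y => ?_⟩
    · rw [h1, Fintype.linearCombination_apply, Gam.sum1]
      exact cyc3 hn h.1 h.2.1 (DL_XI hτ)
    · have h3 := h.2.2 ⟨_, tm_mem (b := false) hτ Y.2⟩
      have hw : w.1 ∈ NN (n + sf true) := cast1 n ▸ w.2
      have hm : rho ru Y w.1 ∈ NN (n + sf false) := by simpa [sf, uc] using rho_mem Y.2 hw
      rw [h2, ← e _ hm, Fintype.linearCombination_apply, Gam.sum2]
      refine Eq.trans ?_ (h3.trans (pT_tm hτ Y.2 _))
      rw [Ph_apply]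
      exact Finset.sum_congr rfl fun g _ => (zero_add _).trans
        (congrArg (y g).2 (Subtype.ext (XI_mul (b := false) τ Y.2 g)))

noncomputable def sg (v u : Vx) (t : R)
    (h : t ∈ WW ((v.1.val : ℤ) - u.1.val) ((v.2.val : ℤ) - u.2.val)) : Gam :=
  iG ⟨single v u (mkG t 0 0 0 0 0 0 0), single_SB (mem_G.mpr ⟨⟨h, zero_mem _, zero_mem _, zero_mem _,
    zero_mem _, zero_mem _, zero_mem _, zero_mem _⟩, rfl, rfl, rfl, rfl, rfl, rfl, rfl, rfl⟩)⟩

theorem sg_smul {v u : Vx} {t : R} (h : t ∈ WW ((v.1.val : ℤ) - u.1.val) ((v.2.val : ℤ) - u.2.val))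
    (m : Nt n) : (sg v u t h • m).1 = Pi.single v (act t (m.1 u)) := rho_sg _ _ _ _

theorem homN (hn : n ≠ 0) (f : Nt (n + 1) →ₗ[Gam] Nt 1) (w : Nt (n + 1)) : f w = 0 := by
  have h0 : ∀ (a : Fin 2) w, (f w).1 (0, a) = 0 := fun a w => by
    have hh : x 0 * D 0 + x 1 * D 1 - (-2 - (((n + 1 : ℕ) : ℤ) - a.val : ℤ) : ℚ) • (1 : R) ∈ WW 1 0 :=
      sub_mem (add_mem (Sp_mul (x_mem 0) (D_mem 0) le_rfl rfl) (Sp_mul (x_mem 1) (D_mem 1) le_rfl rfl))
        (Submodule.smul_mem _ _ (one_mem_Sp (by omega)))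
    have ea : ∀ (c : ℚ) {d : ℤ} {m : MM}, m ∈ Md d →
        act (x 0 * D 0 + x 1 * D 1 - c • (1 : R)) m = (-2 - d - c : ℚ) • m := fun c d m hm => by
      rw [map_sub, map_add, LinearMap.sub_apply, LinearMap.add_apply, act_mul (x_mem 0) (D_mem 0),
        act_mul (x_mem 1) (D_mem 1), euler_act hm, act_smul1, ← sub_smul]
    have h1 : sg (1, a) (0, a) _ (WW_mono hh (by simp) (by simp)) • w = 0 := Subtype.ext (by
      rw [sg_smul, ea _ (mem_NN.mp w.2 (0, a)), sub_self, zero_smul, Pi.single_zero]; rfl)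
    have h2 := congrFun (congrArg Subtype.val ((map_smul f _ w).symm.trans
      ((congrArg f h1).trans (map_zero f)))) (1, a)
    rw [sg_smul, ea _ (mem_NN.mp (f w).2 (0, a)), Pi.single_eq_same] at h2
    refine (smul_eq_zero.mp h2).resolve_left ?_
    push_cast
    have : (n : ℚ) ≠ 0 := by exact_mod_cast hn
    intro h; apply this; linarith
  refine Subtype.ext (funext fun v => ?_)
  have e1 : (1 : R) ∈ WW ((v.1.val : ℤ) - v.1.val) ((v.2.val : ℤ) - v.2.val) := by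
    simpa using one_mem_Sp le_rfl
  have e2 : (1 : R) ∈ WW ((v.1.val : ℤ) - ((0, v.2) : Vx).1.val)
      ((v.2.val : ℤ) - ((0, v.2) : Vx).2.val) := by simpa using one_mem_Sp (by omega)
  let w' : Nt (n + 1) := ⟨Pi.single (0, v.2) (w.1 v), single_NN (mem_NN.mp w.2 v)⟩
  have h1 : sg v v 1 e1 • w = sg v (0, v.2) 1 e2 • w' :=
    Subtype.ext (by rw [sg_smul, sg_smul]; simp [w'])
  have h2 := congrFun (congrArg Subtype.val ((map_smul f _ w).symm.trans
    ((congrArg f h1).trans (map_smul f _ _)))) v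
  rw [sg_smul, sg_smul, h0, Pi.single_eq_same, Pi.single_eq_same, act_one, act_one] at h2
  exact h2

theorem extN (hn : n ≠ 0) : Ext' (Nt 1) (Em n) (Dm n) (RelM hn) where
  ex k := ext_of k fun t h1 h2 _ => by
    obtain ⟨s, hs, e⟩ := colVV k (m := fun g => (t g).1) (fun g => (t g).2)
      (fun g => congrArg Subtype.val (h1 g))
      fun g => (Nt.sum_val _ _).symm.trans (congrArg Subtype.val (h2 g))
    let s' : AA n → Nt 1 := fun g => ⟨s g, hs g⟩
    exact ⟨s', fun g => Subtype.ext ((e g).trans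
      (Nt.sum_val Finset.univ fun g' => DG n k g g' • s' g').symm)⟩
  sp f := ⟨0, fun _ w _ => (homN hn f w).symm⟩

theorem vanish (T : Type) [AddCommGroup T] [Module Gam T]
    (h : ∀ n (hn : n ≠ 0), Ext' T (Em n) (Dm n) (RelM hn)) (j : ℕ) :
    ∀ n, n ≠ 0 → EV Gam T (Nt n) (j + 1) := by
  induction j using Nat.strong_induction_on with
  | _ j ih => exact fun n hn => (res hn).step T (h n hn) j fun i e => ih i (by omega) _ (by omega)

theorem not_proj : ¬Module.Projective Gam (Nt 1) := fun h => by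
  obtain ⟨s, hs⟩ := Module.projective_lifting_property (aug 1) LinearMap.id aug_sur
  have h1 := congrArg Subtype.val (LinearMap.congr_fun hs (bN (0, bb 0)))
  rw [LinearMap.comp_apply, aug_val, Finset.sum_eq_zero fun g _ => by
    rw [show y1 (s (bN (0, bb 0))) g = 0 from (homG one_ne_zero (LinearMap.proj g ∘ₗ s)).1 _]
    exact cG_zero _] at h1
  have h2 := congrFun h1 (vx ((0, bb 0) : AA 1))
  change 0 = bV ((0, bb 0) : AA 1) (vx ((0, bb 0) : AA 1)) at h2
  rw [bV, Pi.single_eq_same, bA, if_pos rfl, bv] at h2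
  exact Finsupp.single_ne_zero.mpr one_ne_zero h2.symm

instance : Module.Finite Gam (Nt 1) := Module.Finite.of_surjective (aug 1) aug_sur

end Vale.Agent.P195
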