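import Vale.Agent.P195.W

namespace Vale.Agent.P195

theorem WW_mono {p p' n n' : ℤ} {u : R} (hu : u ∈ WW p n) (hp : p ≤ p') (hn : n = n') :
    u ∈ WW p' n' := hn ▸ Sp_mono id id hp hu

theorem adD_mem (i : Fin 2) {p n : ℤ} {u : R} (hu : u ∈ WW p n) : ad (D i) u ∈ WW p (n - 1) := by
  refine Sp_map _ _ (fun a e hc => ?_) hu
  rw [adD_mono]
  refine neg_mem ?_
  by_cases h0 : a i = 0
  · simp [h0]
  refine Submodule.smul_mem _ _ (mono_mem ?_)
  obtain ⟨h1, h2, h3, h4⟩ := hc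
  simp only [false_or] at h1 h2
  fin_cases i <;> simp only [Fin.zero_eta, Fin.mk_one, Fin.isValue] at h0 <;>
    refine ⟨Or.inr ?_, Or.inr ?_, ?_, ?_⟩ <;> simp <;> omega

theorem adx_mem (i : Fin 2) {p n : ℤ} {u : R} (hu : u ∈ WW p n) :
    ad (x i) u ∈ WW (p - 1) (n + 1) := by
  refine Sp_map _ _ (fun a e hc => ?_) hu
  rw [adx_mono]
  by_cases h0 : e i = 0
  · simp [h0]
  refine Submodule.smul_mem _ _ (mono_mem ?_)
  obtain ⟨h1, h2, h3, h4⟩ := hc
  fin_cases i <;> simp only [Fin.zero_eta, Fin.mk_one, Fin.isValue] at h0 <;>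
    refine ⟨h1, h2, ?_, ?_⟩ <;> simp <;> omega

theorem euler_x {p n : ℤ} {u : R} (hu : u ∈ WW p n) :
    x 0 * (-ad (D 0) u) + x 1 * (-ad (D 1) u) - ((n + p : ℤ) : ℚ) • u ∈ WW (p - 1) n := by
  have := Sp_map (LinearMap.mulLeft ℚ (x 0) ∘ₗ (-ad (D 0)) + LinearMap.mulLeft ℚ (x 1) ∘ₗ (-ad (D 1)) -
    ((n + p : ℤ) : ℚ) • LinearMap.id) (WW (p - 1) n) (fun a e hc => by
      simp only [LinearMap.sub_apply, LinearMap.add_apply, LinearMap.comp_apply, LinearMap.neg_apply,
        adD_mono, neg_neg, LinearMap.mulLeft_apply, mul_smul_comm, x, xp_mono, add_sub_cancel,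
        LinearMap.smul_apply, LinearMap.id_apply, ← add_smul, ← sub_smul]
      obtain ⟨h1, h2, h3, h4⟩ := hc
      by_cases h : (e 0 : ℤ) + e 1 = p
      · have : a 0 + a 1 = n + p := by omega
        rw [← this]; simp
      · simp only [false_or] at h1 h2
        exact Submodule.smul_mem _ _ (mono_mem ⟨Or.inr h1, Or.inr h2, by omega, h4⟩)) hu
  simpa using this

theorem euler_D {p n : ℤ} {u : R} (hu : u ∈ WW p n) :
    ad (x 0) u * D 0 + ad (x 1) u * D 1 - (p : ℚ) • u ∈ WW (p - 1) n := by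
  have := Sp_map (LinearMap.mulRight ℚ (D 0) ∘ₗ ad (x 0) + LinearMap.mulRight ℚ (D 1) ∘ₗ ad (x 1) -
    (p : ℚ) • LinearMap.id) (WW (p - 1) n) (fun a e hc => by
      have key : ∀ i, (e i : ℚ) • mono a (e - en i + en i) = (e i : ℚ) • mono a e := by
        intro i
        by_cases h0 : e i = 0
        · simp [h0]
        · congr 2
          funext m
          by_cases hm : m = i
          · subst hm; simp; omega
          · simp [Pi.single_eq_of_ne hm]
      simp only [LinearMap.sub_apply, LinearMap.add_apply, LinearMap.comp_apply,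
        adx_mono, LinearMap.mulRight_apply, smul_mul_assoc, mono_D, key,
        LinearMap.smul_apply, LinearMap.id_apply, ← add_smul, ← sub_smul]
      obtain ⟨h1, h2, h3, h4⟩ := hc
      by_cases h : (e 0 : ℤ) + e 1 = p
      · rw [← h]; simp
      · simp only [false_or] at h1 h2
        exact Submodule.smul_mem _ _ (mono_mem ⟨Or.inr h1, Or.inr h2, by omega, h4⟩)) hu
  simpa using this

/-- a pair of multiplication operators with dual derivations -/
structure KP where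
  S : Fin 2 → R →ₗ[ℚ] R
  Δ : Fin 2 → R →ₗ[ℚ] R
  o : ℤ
  w : ℤ
  dg : ℤ → ℤ → ℤ
  S_mem : ∀ i {p n : ℤ} {u : R}, u ∈ WW p n → S i u ∈ WW (p + o) (n + w)
  Δ_mem : ∀ i {p n : ℤ} {u : R}, u ∈ WW p n → Δ i u ∈ WW (p - o) (n - w)
  rel : ∀ i j u, Δ i (S j u) = S j (Δ i u) + if i = j then u else 0
  comm : ∀ u, S 0 (S 1 u) = S 1 (S 0 u)
  euler : ∀ {p n : ℤ} {u : R}, u ∈ WW p n →
    S 0 (Δ 0 u) + S 1 (Δ 1 u) - (dg p n : ℚ) • u ∈ WW (p - 1) n
  dg_sub : ∀ p n, dg (p - o) (n - w) = dg p n - 1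
  neg : ∀ {p n : ℤ} {u : R}, dg p n < 0 → u ∈ WW p n → u = 0

noncomputable def KxL : KP where
  S i := LinearMap.mulLeft ℚ (x i)
  Δ i := -ad (D i)
  o := 0
  w := 1
  dg p n := n + p
  S_mem i _ _ _ h := Sp_mul (x_mem i) h (by omega) (by omega)
  Δ_mem i _ _ _ h := neg_mem (WW_mono (adD_mem i h) (by omega) rfl)
  rel i j u := by
    simp only [LinearMap.neg_apply, ad_apply, LinearMap.mulLeft_apply, ← mul_assoc, D_x]
    split_ifs <;> noncomm_ring
  comm u := by simp only [LinearMap.mulLeft_apply, ← mul_assoc, x_comm 0 1]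
  euler h := euler_x h
  dg_sub p n := by omega
  neg h hu := WW_neg h hu

noncomputable def KxR : KP where
  S i := LinearMap.mulRight ℚ (x i)
  Δ i := -ad (D i)
  o := 0
  w := 1
  dg p n := n + p
  S_mem i _ _ _ h := Sp_mul h (x_mem i) (by omega) (by omega)
  Δ_mem i _ _ _ h := neg_mem (WW_mono (adD_mem i h) (by omega) rfl)
  rel i j u := by
    have := D_x i j
    simp only [LinearMap.neg_apply, ad_apply, LinearMap.mulRight_apply]
    split_ifs at this ⊢ <;> linear_combination (norm := noncomm_ring) u * this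
  comm u := by simp only [LinearMap.mulRight_apply, mul_assoc, x_comm 0 1]
  euler := fun {p n u} h => by
    have h0 := WW_mono (adx_mem 0 (neg_mem (adD_mem 0 h))) le_rfl (sub_add_cancel n 1)
    have h1 := WW_mono (adx_mem 1 (neg_mem (adD_mem 1 h))) le_rfl (sub_add_cancel n 1)
    have := add_mem (euler_x h) (add_mem h0 h1)
    convert this using 1
    simp only [LinearMap.mulRight_apply, LinearMap.neg_apply, ad_apply (x _)]
    abel
  dg_sub p n := by omega
  neg h hu := WW_neg h hu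

noncomputable def KdR : KP where
  S i := LinearMap.mulRight ℚ (D i)
  Δ i := ad (x i)
  o := 1
  w := -1
  dg p _ := p
  S_mem i _ _ _ h := Sp_mul h (D_mem i) (by omega) (by omega)
  Δ_mem i _ _ _ h := WW_mono (adx_mem i h) le_rfl (by omega)
  rel i j u := by
    have := D_x j i
    simp only [ad_apply, LinearMap.mulRight_apply, eq_comm (a := i)]
    split_ifs at this ⊢ <;> linear_combination (norm := noncomm_ring) u * this
  comm u := by simp only [LinearMap.mulRight_apply, mul_assoc, D_comm]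
  euler h := euler_D h
  dg_sub p n := rfl
  neg h hu := Sp_neg h hu

noncomputable def KdL : KP where
  S i := LinearMap.mulLeft ℚ (D i)
  Δ i := ad (x i)
  o := 1
  w := -1
  dg p _ := p
  S_mem i _ _ _ h := Sp_mul (D_mem i) h (by omega) (by omega)
  Δ_mem i _ _ _ h := WW_mono (adx_mem i h) le_rfl (by omega)
  rel i j u := by
    have := D_x j i
    simp only [ad_apply, LinearMap.mulLeft_apply, eq_comm (a := i)]
    split_ifs at this ⊢ <;> linear_combination (norm := noncomm_ring) this * u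
  comm u := by simp only [LinearMap.mulLeft_apply, ← mul_assoc, D_comm]
  euler := fun {p n u} h => by
    have h0 := WW_mono (adD_mem 0 (adx_mem 0 h)) le_rfl (add_sub_cancel_right n 1)
    have h1 := WW_mono (adD_mem 1 (adx_mem 1 h)) le_rfl (add_sub_cancel_right n 1)
    have := sub_mem (euler_D h) (add_mem h0 h1)
    convert this using 1
    simp only [LinearMap.mulLeft_apply, ad_apply (D _)]
    abel
  dg_sub p n := rfl
  neg h hu := Sp_neg h hu

namespace KP

variable (P : KP)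

theorem S_mem' (i : Fin 2) {p n p' n' : ℤ} {u : R} (h : u ∈ WW p n) (hp : p + P.o ≤ p')
    (hn : n + P.w = n') : P.S i u ∈ WW p' n' := WW_mono (P.S_mem i h) hp hn

theorem K0 {p n : ℤ} (hd : P.dg p n ≠ 0) {u : R} (hu : u ∈ WW p n) :
    ∃ v₀ ∈ WW (p - P.o) (n - P.w), ∃ v₁ ∈ WW (p - P.o) (n - P.w),
      u - (P.S 0 v₀ + P.S 1 v₁) ∈ WW (p - 1) n := by
  have hc : (P.dg p n : ℚ) ≠ 0 := by exact_mod_cast hd
  refine ⟨_, Submodule.smul_mem _ (P.dg p n : ℚ)⁻¹ (P.Δ_mem 0 hu), _,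
    Submodule.smul_mem _ (P.dg p n : ℚ)⁻¹ (P.Δ_mem 1 hu), ?_⟩
  have := Submodule.smul_mem _ (-(P.dg p n : ℚ)⁻¹) (P.euler hu)
  convert this using 1
  simp only [map_smul, smul_sub, smul_add, smul_smul, neg_mul, inv_mul_cancel₀ hc, neg_smul,
    one_smul]
  abel

theorem K1 {p n : ℤ} (hd : P.dg p n ≠ 0) {u₀ u₁ : R} (h₀ : u₀ ∈ WW (p - P.o) (n - P.w))
    (h₁ : u₁ ∈ WW (p - P.o) (n - P.w)) (h : P.S 0 u₀ + P.S 1 u₁ ∈ WW (p - 1) n) :
    ∃ c ∈ WW (p - P.o - P.o) (n - P.w - P.w), u₀ - P.S 1 c ∈ WW (p - P.o - 1) (n - P.w) ∧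
      u₁ + P.S 0 c ∈ WW (p - P.o - 1) (n - P.w) := by
  have hc : (P.dg p n : ℚ) ≠ 0 := by exact_mod_cast hd
  have e0 := P.euler h₀
  have e1 := P.euler h₁
  rw [P.dg_sub] at e0 e1
  have g0 := WW_mono (P.Δ_mem 0 h) (p' := p - P.o - 1) (by omega) rfl
  have g1 := WW_mono (P.Δ_mem 1 h) (p' := p - P.o - 1) (by omega) rfl
  simp only [map_add, P.rel, if_true, zero_ne_one, one_ne_zero, if_false, add_zero] at g0 g1
  refine ⟨_, Submodule.smul_mem _ (P.dg p n : ℚ)⁻¹ (sub_mem (P.Δ_mem 1 h₀) (P.Δ_mem 0 h₁)), ?_, ?_⟩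
  · have := Submodule.smul_mem _ (P.dg p n : ℚ)⁻¹ (sub_mem g0 e0)
    convert this using 1
    simp only [map_smul, map_sub]
    push_cast
    match_scalars <;> field_simp <;> ring
  · have := Submodule.smul_mem _ (P.dg p n : ℚ)⁻¹ (sub_mem g1 e1)
    convert this using 1
    simp only [map_smul, map_sub]
    push_cast
    match_scalars <;> field_simp <;> ring

theorem K2 {p n : ℤ} (hd : P.dg p n ≠ 0) {c : R} (hc : c ∈ WW (p - P.o - P.o) (n - P.w - P.w))
    (h₀ : P.S 0 c ∈ WW (p - P.o - 1) (n - P.w)) (h₁ : P.S 1 c ∈ WW (p - P.o - 1) (n - P.w)) :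
    c ∈ WW (p - P.o - P.o - 1) (n - P.w - P.w) := by
  have hq : (P.dg p n : ℚ) ≠ 0 := by exact_mod_cast hd
  have e := P.euler hc
  rw [P.dg_sub, P.dg_sub] at e
  have g0 := WW_mono (P.Δ_mem 0 h₀) (p' := p - P.o - P.o - 1) (by omega) rfl
  have g1 := WW_mono (P.Δ_mem 1 h₁) (p' := p - P.o - P.o - 1) (by omega) rfl
  simp only [P.rel, if_true] at g0 g1
  have := Submodule.smul_mem _ (P.dg p n : ℚ)⁻¹ (sub_mem (add_mem g0 g1) e)
  convert this using 1
  have e' : c = (P.dg p n : ℚ)⁻¹ • ((P.dg p n : ℚ) • c) := by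
    rw [smul_smul, inv_mul_cancel₀ hq, one_smul]
  conv_lhs => rw [e']
  push_cast
  module

end KP

end Vale.Agent.P195
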