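import Vale.Agent.P195.Base

namespace Vale.Agent.P195

open Finsupp

abbrev MM := (Fin 2 → ℕ) →₀ ℚ

theorem sup_map {α U : Type} [AddCommGroup U] [Module ℚ U] {S : Set α} (f : (α →₀ ℚ) →ₗ[ℚ] U)
    (T : Submodule ℚ U) (h : ∀ k ∈ S, f (single k 1) ∈ T) {v : α →₀ ℚ} (hv : v ∈ supported ℚ ℚ S) :
    f v ∈ T := by
  rw [supported_eq_span_single] at hv
  have : Submodule.span ℚ ((fun i => single i (1 : ℚ)) '' S) ≤ T.comap f :=
    Submodule.span_le.mpr (by rintro _ ⟨k, hk, rfl⟩; exact h k hk)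
  exact this hv

theorem ap_xp (a : Fin 2 → ℤ) (k : K) : ap (xp a) (single k 1) = single (k.1 + a, k.2) 1 := by
  rw [xp, ap_sh]; congr 1

theorem ap_D (i : Fin 2) (a : Fin 2 → ℤ) (e : Fin 2 → ℕ) : ap (D i) (single (a, 0, e) 1) =
    (a i : ℚ) • single (a - ei i, 0, e) 1 + single (a, 0, e + en i) 1 := by
  rw [D, map_add, map_mul, LinearMap.add_apply, Module.End.mul_apply, ap_Eu, Pp, ap_sh]
  simp only [Pi.zero_apply, Nat.cast_zero, zero_smul, add_zero, map_smul, ap_xp, Prod.mk_add_mk,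
    sub_eq_add_neg]

theorem stab (S : ℤ → Set K)
    (hx : ∀ d, ∀ k ∈ S d, ∀ a : Fin 2 → ℤ, 0 ≤ a 0 → 0 ≤ a 1 → (k.1 + a, k.2) ∈ S (d + a 0 + a 1))
    (hD : ∀ d i, ∀ k ∈ S d, ap (D i) (single k 1) ∈ supported ℚ ℚ (S (d - 1)))
    {p w d : ℤ} {u : R} (hu : u ∈ WW p w) {v : V} (hv : v ∈ supported ℚ ℚ (S d)) :
    ap u v ∈ supported ℚ ℚ (S (d + w)) := by
  have hp : ∀ i (m : ℕ) d (v : V), v ∈ supported ℚ ℚ (S d) →
      ap (D i ^ m) v ∈ supported ℚ ℚ (S (d - m)) := by
    intro i m d v hv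
    induction m with
    | zero => simpa using hv
    | succ m ih =>
      rw [pow_succ', map_mul, Module.End.mul_apply]
      have := sup_map _ _ (hD _ i) ih
      convert this using 3; push_cast; ring
  refine Sp_map ((LinearMap.applyₗ v).comp ap.toLinearMap) _ (fun a e hc => ?_) hu
  obtain ⟨h1, h2, -, h4⟩ := hc
  simp only [false_or] at h1 h2
  change ap (mono a e) v ∈ _
  rw [mono, map_mul, map_mul, Module.End.mul_apply, Module.End.mul_apply]
  refine sup_map _ _ (fun k hk => ?_) (hp 0 (e 0) _ _ (hp 1 (e 1) _ _ hv))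
  rw [ap_xp]
  refine single_mem_supported _ _ ?_
  convert hx _ k hk a h1 h2 using 2; omega

noncomputable def inc : MM →ₗ[ℚ] V := lmapDomain ℚ ℚ fun k => (fun i => -1 - (k i : ℤ), 0, 0)

theorem inc_single (k : Fin 2 → ℕ) :
    inc (single k 1) = single (fun i => -1 - (k i : ℤ), 0, 0) 1 := by simp [inc]

noncomputable def prj : V →ₗ[ℚ] MM := linearCombination ℚ fun k : K =>
  if k.1 0 < 0 ∧ k.1 1 < 0 ∧ k.2 = 0 then single (fun i => (-1 - k.1 i).toNat) 1 else 0

theorem prj_single (k : K) : prj (single k 1) =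
    if k.1 0 < 0 ∧ k.1 1 < 0 ∧ k.2 = 0 then single (fun i => (-1 - k.1 i).toNat) 1 else 0 := by
  rw [prj, linearCombination_single, one_smul]

noncomputable def act : R →ₗ[ℚ] Module.End ℚ MM :=
  (LinearMap.llcomp ℚ MM V MM prj).comp ((LinearMap.lcomp ℚ V inc).comp ap.toLinearMap)

theorem act_apply (u : R) (m : MM) : act u m = prj (ap u (inc m)) := rfl

def SZ (d : ℤ) : Set K := {k | k.2.1 = 0 ∧ k.1 0 + k.1 1 - k.2.2 0 - k.2.2 1 = d}
def S0 (_ : ℤ) : Set K := {k | k.2.1 = 0}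
def SK (_ : ℤ) : Set K := {k | k.2.1 = 0 ∧ (0 ≤ k.1 0 ∨ 0 ≤ k.1 1 ∨ k.2.2 ≠ 0)}

theorem stabZ {p w d : ℤ} {u : R} (hu : u ∈ WW p w) {v : V} (hv : v ∈ supported ℚ ℚ (SZ d)) :
    ap u v ∈ supported ℚ ℚ (SZ (d + w)) := by
  refine stab SZ ?_ ?_ hu hv
  · rintro d ⟨a, l, e⟩ ⟨h1, h2⟩ b _ _
    exact ⟨h1, by simp at h2 ⊢; omega⟩
  · rintro d i ⟨a, l, e⟩ ⟨rfl, h2⟩
    rw [ap_D]
    refine add_mem (Submodule.smul_mem _ _ (single_mem_supported _ _ ⟨rfl, ?_⟩))
      (single_mem_supported _ _ ⟨rfl, ?_⟩) <;> fin_cases i <;> simp at h2 ⊢ <;> omega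

theorem stab0 {p w : ℤ} {u : R} (hu : u ∈ WW p w) {v : V} (hv : v ∈ supported ℚ ℚ (S0 0)) :
    ap u v ∈ supported ℚ ℚ (S0 0) := by
  refine stab S0 ?_ ?_ hu hv
  · rintro d ⟨a, l, e⟩ h1 b _ _
    exact h1
  · rintro d i ⟨a, l, e⟩ rfl
    rw [ap_D]
    exact add_mem (Submodule.smul_mem _ _ (single_mem_supported _ _ rfl))
      (single_mem_supported _ _ rfl)

theorem stabK {p w : ℤ} {u : R} (hu : u ∈ WW p w) {v : V} (hv : v ∈ supported ℚ ℚ (SK 0)) :
    ap u v ∈ supported ℚ ℚ (SK 0) := by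
  refine stab SK ?_ ?_ hu hv
  · rintro d ⟨a, l, e⟩ ⟨h1, h2⟩ b _ _
    refine ⟨h1, ?_⟩
    rcases h2 with h | h | h
    · left; simp at h ⊢; omega
    · right; left; simp at h ⊢; omega
    · right; right; exact h
  · rintro d i ⟨a, l, e⟩ ⟨rfl, h2⟩
    rw [ap_D]
    refine add_mem ?_ (single_mem_supported _ _ ⟨rfl, Or.inr (Or.inr fun h => ?_)⟩)
    · by_cases h0 : a i = 0
      · simp [h0]
      refine Submodule.smul_mem _ _ (single_mem_supported _ _ ⟨rfl, ?_⟩)
      rcases h2 with h | h | h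
      · left; fin_cases i <;> simp at h h0 ⊢ <;> omega
      · right; left; fin_cases i <;> simp at h h0 ⊢ <;> omega
      · right; right; exact h
    · have := congrFun h i
      simp at this

theorem inc_mem0 (m : MM) : inc m ∈ supported ℚ ℚ (S0 0) :=
  sup_map (S := Set.univ) _ _ (fun k _ => by rw [inc_single]; exact single_mem_supported _ _ rfl)
    (by simp)

/-- operators compatible with the passage to the delta module -/
noncomputable def GA : Subalgebra ℚ R where
  carrier := {u | (∀ v ∈ supported ℚ ℚ (S0 0), ap u v ∈ supported ℚ ℚ (S0 0)) ∧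
    ∀ v ∈ supported ℚ ℚ (SK 0), ap u v ∈ supported ℚ ℚ (SK 0)}
  mul_mem' := fun {a b} ha hb => ⟨fun v hv => by rw [map_mul]; exact ha.1 _ (hb.1 v hv),
    fun v hv => by rw [map_mul]; exact ha.2 _ (hb.2 v hv)⟩
  add_mem' := fun {a b} ha hb => ⟨fun v hv => by
      rw [map_add]; exact Submodule.add_mem _ (ha.1 v hv) (hb.1 v hv),
    fun v hv => by rw [map_add]; exact Submodule.add_mem _ (ha.2 v hv) (hb.2 v hv)⟩
  algebraMap_mem' := fun c => ⟨fun v hv => by
      rw [AlgHom.commutes]; exact Submodule.smul_mem _ c hv,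
    fun v hv => by rw [AlgHom.commutes]; exact Submodule.smul_mem _ c hv⟩

theorem W_GA {p w : ℤ} {u : R} (hu : u ∈ WW p w) : u ∈ GA :=
  ⟨fun _ hv => stab0 hu hv, fun _ hv => stabK hu hv⟩

theorem act_mulG {u v : R} (hu : u ∈ GA) (hv : v ∈ GA) (m : MM) :
    act (u * v) m = act u (act v m) := by
  have h1 := hv.1 _ (inc_mem0 m)
  have h2 : (LinearMap.id - inc ∘ₗ prj : V →ₗ[ℚ] V) (ap v (inc m)) ∈ supported ℚ ℚ (SK 0) := by
    refine sup_map _ _ ?_ h1
    rintro ⟨a, l, e⟩ rfl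
    simp only [LinearMap.sub_apply, LinearMap.id_apply, LinearMap.comp_apply, prj_single]
    split_ifs with h
    · obtain ⟨g1, g2, g3⟩ := h
      have g4 : e = 0 := congrArg Prod.snd g3
      have g5 : (fun i => -1 - (((-1 - a i).toNat : ℕ) : ℤ)) = a := by
        funext i; fin_cases i <;> simp at g1 g2 ⊢ <;> omega
      rw [inc_single, g5, g4, sub_self]; exact zero_mem _
    · rw [map_zero, sub_zero]
      refine single_mem_supported _ _ ⟨rfl, ?_⟩
      by_contra hc
      simp only [not_or, not_le, not_not] at hc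
      exact h ⟨hc.1, hc.2.1, Prod.ext rfl hc.2.2⟩
  have h3 : prj (ap u ((LinearMap.id - inc ∘ₗ prj : V →ₗ[ℚ] V) (ap v (inc m)))) ∈
      (⊥ : Submodule ℚ MM) := by
    refine sup_map _ _ ?_ (hu.2 _ h2)
    rintro ⟨a, l, e⟩ ⟨-, h⟩
    rw [prj_single, if_neg]
    · exact zero_mem _
    · rintro ⟨g1, g2, g3⟩
      have g4 : e = 0 := congrArg Prod.snd g3
      simp at g1 g2 h
      rcases h with h | h | h
      · omega
      · omega
      · exact h g4
  simp only [LinearMap.sub_apply, LinearMap.id_apply, LinearMap.comp_apply, map_sub,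
    Submodule.mem_bot, sub_eq_zero] at h3
  rw [act_apply, map_mul, Module.End.mul_apply, h3]; rfl

theorem act_mul {p w q l : ℤ} {u v : R} (hu : u ∈ WW p w) (hv : v ∈ WW q l) (m : MM) :
    act (u * v) m = act u (act v m) := act_mulG (W_GA hu) (W_GA hv) m

noncomputable def Md (d : ℤ) : Submodule ℚ MM := supported ℚ ℚ {k | (k 0 : ℤ) + k 1 = d}

theorem Md_map {d : ℤ} {U : Type} [AddCommGroup U] [Module ℚ U] (f : MM →ₗ[ℚ] U)
    (T : Submodule ℚ U) (h : ∀ k : Fin 2 → ℕ, (k 0 : ℤ) + k 1 = d → f (single k 1) ∈ T) {m : MM}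
    (hm : m ∈ Md d) : f m ∈ T := sup_map f T h hm

theorem single_Md {d : ℤ} {k : Fin 2 → ℕ} (h : (k 0 : ℤ) + k 1 = d) : single k (1 : ℚ) ∈ Md d :=
  single_mem_supported _ _ h

theorem act_mem {p w d d' : ℤ} {u : R} (hu : u ∈ WW p w) {m : MM} (hm : m ∈ Md d)
    (e : d - w = d') : act u m ∈ Md d' := by
  have h1 : inc m ∈ supported ℚ ℚ (SZ (-2 - d)) := Md_map _ _ (fun k hk => by
    rw [inc_single]; exact single_mem_supported _ _ ⟨rfl, by simp; omega⟩) hm
  refine sup_map prj _ ?_ (stabZ hu h1)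
  rintro ⟨a, l, f⟩ ⟨-, h⟩
  rw [prj_single]
  split_ifs with g
  · obtain ⟨g1, g2, g3⟩ := g
    have g4 : f = 0 := congrArg Prod.snd g3
    refine single_Md ?_
    simp [g4] at g1 g2 h ⊢; omega
  · exact zero_mem _

theorem MM_ext {U : Type} [AddCommGroup U] [Module ℚ U] {f g : MM →ₗ[ℚ] U}
    (h : ∀ k, f (single k 1) = g (single k 1)) (m : MM) : f m = g m := by
  have : f = g := lhom_ext' fun k => LinearMap.ext_ring (by simpa using h k)
  rw [this]

theorem act_one (m : MM) : act 1 m = m := by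
  refine MM_ext (g := LinearMap.id) (fun k => ?_) m
  rw [act_apply, map_one, Module.End.one_apply, inc_single, prj_single, if_pos (by simp; omega)]
  simp

theorem act_x (i : Fin 2) (k : Fin 2 → ℕ) :
    act (x i) (single k 1) = if k i = 0 then 0 else single (k - en i) 1 := by
  rw [act_apply, inc_single, x, ap_xp, prj_single]
  by_cases h : k i = 0
  · rw [if_pos h, if_neg]
    fin_cases i <;> simp at h ⊢ <;> omega
  · rw [if_neg h, if_pos]
    · congr 1; funext j
      fin_cases i <;> fin_cases j <;> simp at h ⊢ <;> omega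
    · fin_cases i <;> simp at h ⊢ <;> omega

theorem act_D (i : Fin 2) (k : Fin 2 → ℕ) :
    act (D i) (single k 1) = (-1 - (k i : ℚ)) • single (k + en i) 1 := by
  rw [act_apply, inc_single, ap_D, map_add, map_smul, prj_single, prj_single, if_pos, if_neg,
    add_zero]
  · congr 2
    · push_cast; ring
    · funext j
      fin_cases i <;> fin_cases j <;> simp <;> omega
  · rintro ⟨-, -, h⟩
    have := congrFun (congrArg Prod.snd h) i
    simp at this
  · fin_cases i <;> simp <;> omega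

noncomputable def Up (i : Fin 2) : MM →ₗ[ℚ] MM := lmapDomain ℚ ℚ (· + en i)

theorem Up_single (i : Fin 2) (k : Fin 2 → ℕ) : Up i (single k 1) = single (k + en i) 1 := by
  simp [Up]

theorem Up_mem (i : Fin 2) {d d' : ℤ} {m : MM} (hm : m ∈ Md d) (e : d + 1 = d') : Up i m ∈ Md d' :=
  Md_map _ _ (fun k hk => by
    rw [Up_single]; exact single_Md (by fin_cases i <;> simp <;> omega)) hm

theorem x_Up (i : Fin 2) (m : MM) : act (x i) (Up i m) = m :=
  MM_ext (f := act (x i) ∘ₗ Up i) (g := LinearMap.id) (fun k => by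
    simp [Up_single, act_x]) m

theorem x_Up' {i j : Fin 2} (h : i ≠ j) (m : MM) : act (x i) (Up j m) = Up j (act (x i) m) :=
  MM_ext (f := act (x i) ∘ₗ Up j) (g := Up j ∘ₗ act (x i)) (fun k => by
    simp only [LinearMap.comp_apply, Up_single, act_x, Pi.add_apply, Pi.single_eq_of_ne h, add_zero]
    split_ifs with h0
    · simp
    · rw [Up_single]; congr 1; funext l
      fin_cases i <;> fin_cases j <;> fin_cases l <;> simp at h ⊢) m

theorem x_x (m : MM) : act (x 0) (act (x 1) m) = act (x 1) (act (x 0) m) := by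
  rw [← act_mul (x_mem 0) (x_mem 1), ← act_mul (x_mem 1) (x_mem 0), x_comm]

theorem Up_split {d : ℤ} (hd : d ≠ 0) {m : MM} (hm : m ∈ Md d) :
    m = Up 0 (act (x 0) m) + Up 1 (act (x 1) (m - Up 0 (act (x 0) m))) := by
  have := Md_map (LinearMap.id - Up 0 ∘ₗ act (x 0) - Up 1 ∘ₗ act (x 1) ∘ₗ
      (LinearMap.id - Up 0 ∘ₗ act (x 0))) ⊥ (fun k hk => by
    have e : ∀ i, k i ≠ 0 → Up i (act (x i) (single k 1)) = single k 1 := fun i hi => by
      rw [act_x, if_neg hi, Up_single]; congr 1; funext l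
      fin_cases i <;> fin_cases l <;> simp at hi ⊢ <;> omega
    simp only [LinearMap.sub_apply, LinearMap.comp_apply, LinearMap.id_apply, Submodule.mem_bot]
    by_cases h0 : k 0 = 0
    · rw [act_x, if_pos h0, map_zero, sub_zero, e 1 (by omega), sub_self]
    · rw [e 0 h0]; simp) hm
  simp only [LinearMap.sub_apply, LinearMap.comp_apply, LinearMap.id_apply, Submodule.mem_bot,
    sub_sub, sub_eq_zero] at this
  exact this

theorem euler_act {d : ℤ} {m : MM} (hm : m ∈ Md d) :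
    act (x 0) (act (D 0) m) + act (x 1) (act (D 1) m) = (-2 - d : ℚ) • m := by
  have := Md_map (act (x 0) ∘ₗ act (D 0) + act (x 1) ∘ₗ act (D 1) - (-2 - d : ℚ) • LinearMap.id) ⊥
    (fun k hk => by
      have e : ∀ i, act (x i) (act (D i) (single k 1)) = (-1 - (k i : ℚ)) • single k 1 := fun i => by
        rw [act_D, map_smul, ← Up_single, x_Up]
      simp only [LinearMap.sub_apply, LinearMap.comp_apply, LinearMap.id_apply, Submodule.mem_bot,
        LinearMap.add_apply, LinearMap.smul_apply, e, ← hk]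
      push_cast; module) hm
  simpa [sub_eq_zero] using this

/-- basis indices of the module `N n` -/
def II (n : ℕ) : Type := {k : Fin 2 → ℕ // k 0 + k 1 = n ∨ k 0 + k 1 + 1 = n}

instance (n : ℕ) : DecidableEq (II n) := inferInstanceAs (DecidableEq (Subtype _))

noncomputable instance (n : ℕ) : Fintype (II n) :=
  Set.Finite.fintype (s := {k : Fin 2 → ℕ | k 0 + k 1 = n ∨ k 0 + k 1 + 1 = n})
    ((Set.finite_Icc (0 : Fin 2 → ℕ) (fun _ => n)).subset fun k hk =>
      ⟨fun i => Nat.zero_le _, fun i => by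
        fin_cases i <;> simp at hk ⊢ <;> omega⟩)

def par {n : ℕ} (b : II n) : Fin 2 := if b.1 0 + b.1 1 = n then 0 else 1

noncomputable def bv {n : ℕ} (b : II n) : MM := single b.1 1

theorem par_deg {n : ℕ} (b : II n) : (b.1 0 : ℤ) + b.1 1 = n - (par b).val := by
  have := b.2
  unfold par; split_ifs <;> simp <;> omega

theorem bv_mem {n : ℕ} (b : II n) : bv b ∈ Md (n - (par b).val) := single_Md (par_deg b)

theorem expand {n : ℕ} {U : Type} [AddCommGroup U] [Module ℚ U] (F : Fin 2 → MM →ₗ[ℚ] U)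
    (a : Fin 2) {m : MM} (hm : m ∈ Md (n - a.val)) : ∑ b : II n, m b.1 • F (par b) (bv b) = F a m := by
  have := Md_map (∑ b : II n, (lapply b.1).smulRight (F (par b) (bv b)) - F a) ⊥ (fun k hk => by
    have ha := a.isLt
    let c : II n := ⟨k, by omega⟩
    have hc : par c = a := by
      have : (k 0 : ℤ) + k 1 = n - (par c).val := par_deg c
      ext; omega
    simp only [LinearMap.sub_apply, LinearMap.sum_apply, LinearMap.smulRight_apply, lapply_apply,
      Submodule.mem_bot, sub_eq_zero]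
    rw [Finset.sum_eq_single c]
    · simp [c, bv, ← hc]
    · intro b _ hb
      rw [single_eq_of_ne, zero_smul]
      exact fun h => hb (Subtype.ext h)
    · simp) hm
  simpa [sub_eq_zero] using this

theorem coef_zero {n : ℕ} {d : ℤ} {m : MM} (hm : m ∈ Md d) (b : II n) (h : d ≠ n - (par b).val) :
    m b.1 = 0 := by
  by_contra h0
  have := hm (mem_support_iff.mpr h0)
  have h1 := par_deg b
  simp at this; omega

theorem Md_fg (d : ℤ) : (Md d).FG := by
  rw [Md, supported_eq_span_single]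
  refine Submodule.fg_span (Set.Finite.image _ ?_)
  refine (Set.finite_Icc (0 : Fin 2 → ℕ) (fun _ => d.toNat)).subset fun k hk =>
      ⟨fun i => Nat.zero_le _, fun i => ?_⟩
  fin_cases i <;> simp at hk ⊢ <;> omega

end Vale.Agent.P195
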