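import Vale.Agent.P195.M
import Vale.Agent.P195.PA

namespace Vale.Agent.P195

open Matrix

noncomputable def sv (i : Fin 2) : Fin 2 → R := ![x i, D i]
noncomputable def tv (i : Fin 2) : Fin 2 → R := ![D i, x i]
noncomputable def pv (i : Fin 2) : Fin 2 → R := ![0, xi i]
noncomputable def qv (i : Fin 2) : Fin 2 → R := ![xi i, 0]
def etq : Fin 2 → ℚ := ![1, -1]

theorem all2 {motive : Fin 2 → Prop} (h0 : motive 0) (h1 : motive 1) (i : Fin 2) : motive i := by
  fin_cases i
  exacts [h0, h1]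

theorem tv_rev (i a : Fin 2) : tv i a.rev = sv i a := by induction a using all2 <;> rfl
theorem sv_rev (i a : Fin 2) : sv i a.rev = tv i a := by induction a using all2 <;> rfl

theorem Sp_to {ι₀ ι₁ : Prop} {p p' n n' : ℤ} {u : R} (hu : u ∈ Sp ι₀ ι₁ p n) (hp : p ≤ p')
    (hn : n = n') : u ∈ Sp ι₀ ι₁ p' n' := hn ▸ Sp_mono id id hp hu

theorem sv_mem {ι₀ ι₁ : Prop} (i a : Fin 2) : sv i a ∈ Sp ι₀ ι₁ a.val (1 - 2 * a.val) := by
  induction a using all2
  · exact x_mem i
  · exact D_mem i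

theorem tv_mem {ι₀ ι₁ : Prop} (i a : Fin 2) : tv i a ∈ Sp ι₀ ι₁ (1 - a.val) (2 * a.val - 1) := by
  induction a using all2
  · exact D_mem i
  · exact x_mem i

variable {n : ℕ}

abbrev MR (n : ℕ) := Matrix (II n) (II n) R

noncomputable def dg : (Fin 2 → R) →+* MR n :=
  (diagonalRingHom (II n) R).comp (RingHom.pi fun b => Pi.evalRingHom _ (par b))

theorem dg_apply (f : Fin 2 → R) (b c : II n) : dg f b c = if b = c then f (par b) else 0 :=
  diagonal_apply _ _ _

theorem dg_mul (f : Fin 2 → R) (X : MR n) (b c : II n) : (dg f * X : MR n) b c = f (par b) * X b c :=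
  diagonal_mul _ _ _ _

theorem mul_dg (f : Fin 2 → R) (X : MR n) (b c : II n) : (X * dg f : MR n) b c = X b c * f (par c) :=
  mul_diagonal _ _ _ _

noncomputable def cm : Matrix (II n) (II n) ℚ →+* MR n := (algebraMap ℚ R).mapMatrix

theorem cm_apply (Y : Matrix (II n) (II n) ℚ) (b c : II n) : cm Y b c = Y b c • (1 : R) :=
  Algebra.algebraMap_eq_smul_one (A := R) (Y b c)

noncomputable def mtu (n : ℕ) (u : Fin 2 → R) : Matrix (II n) (II n) ℚ :=
  of fun b c => act (u (par b)) (bv b) c.1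

theorem mtu_zero {u : Fin 2 → R} {φ : Fin 2 → Fin 2} (hu : ∀ a, ∃ p, u a ∈ WW p ((φ a).val - a.val))
    {b c : II n} (h : par c ≠ φ (par b)) : mtu n u b c = 0 := by
  obtain ⟨p, hp⟩ := hu (par b)
  refine coef_zero (act_mem hp (bv_mem b) rfl) c fun e => h (Fin.ext (by omega))

theorem mtu_mul {u v : Fin 2 → R} {φ : Fin 2 → Fin 2}
    (hu : ∀ a, ∃ p, u a ∈ WW p ((φ a).val - a.val)) (hv : ∀ a, v a ∈ GA) :
    mtu n u * mtu n v = mtu n fun a => v (φ a) * u a := by
  ext b c
  obtain ⟨p, hp⟩ := hu (par b)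
  have := expand (n := n) (fun a => Finsupp.lapply c.1 ∘ₗ act (v a)) (φ (par b))
    (act_mem hp (bv_mem b) (by omega))
  simp only [mtu, mul_apply, of_apply, act_mulG (hv _) (W_GA hp)]
  exact this

theorem sv_w (i a : Fin 2) : ∃ p, sv i a ∈ WW p (a.rev.val - a.val) :=
  ⟨_, WW_mono (sv_mem i a) le_rfl (by induction a using all2 <;> rfl)⟩

theorem ts_w (i j a : Fin 2) : ∃ p, tv i a * sv j a ∈ WW p (a.val - a.val) :=
  ⟨_, Sp_mul (tv_mem i a) (sv_mem j a) le_rfl (by omega)⟩

theorem sv_GA (i a : Fin 2) : sv i a ∈ GA := W_GA (sv_mem i a)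

noncomputable def Sg (n : ℕ) (i : Fin 2) : Matrix (II n) (II n) ℚ := mtu n (sv i)

theorem Sg_zero {i : Fin 2} {b c : II n} (h : par c ≠ (par b).rev) : Sg n i b c = 0 :=
  mtu_zero (sv_w i) h

theorem Sg_mul (i j : Fin 2) : Sg n i * Sg n j = mtu n fun a => tv j a * sv i a := by
  rw [Sg, Sg, mtu_mul (sv_w i) (sv_GA j)]; simp only [sv_rev]

theorem Sg_mul3 (i j k : Fin 2) :
    Sg n i * (Sg n j * Sg n k) = mtu n fun a => sv k a * (tv j a * sv i a) := by
  rw [← mul_assoc, Sg_mul, Sg, mtu_mul (φ := id) (ts_w j i) (sv_GA k)]; rfl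

noncomputable def GG (n : ℕ) (i : Fin 2) : MR n := cm (Sg n i)

theorem GG_dg (j : Fin 2) (f : Fin 2 → R) : GG n j * dg f = dg (fun a => f a.rev) * GG n j := by
  ext b c
  rw [dg_mul, mul_dg, GG, cm_apply]
  by_cases h : par c = (par b).rev
  · rw [h]; simp
  · simp [Sg_zero h]

noncomputable def etv : Fin 2 → R := fun a => etq a • 1

theorem eta_mtu (u : Fin 2 → R) : dg etv * cm (mtu n u) = cm (mtu n fun a => etq a • u a) := by
  ext b c
  rw [dg_mul, cm_apply, cm_apply]
  simp [mtu, etv, smul_smul, mul_comm]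

theorem mtu_add (u v : Fin 2 → R) : mtu n u + mtu n v = mtu n (u + v) := by
  ext b c; simp [mtu]

theorem mtu_sub (u v : Fin 2 → R) : mtu n u - mtu n v = mtu n (u - v) := by
  ext b c; simp [mtu]

noncomputable def ss (n : ℕ) (i : Fin 2) : MR n := dg (sv i)
noncomputable def tt (n : ℕ) (i : Fin 2) : MR n := dg (tv i)
noncomputable def pp (n : ℕ) (i : Fin 2) : MR n := dg (pv i)
noncomputable def qq (n : ℕ) (i : Fin 2) : MR n := dg (qv i)

theorem relV : Rel sv tv 0 etv ∧ (∀ a, sv 0 a * (tv 0 a * sv 1 a) = sv 1 a * (tv 0 a * sv 0 a) -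
    etq a • sv 1 a) ∧ ∀ a, sv 0 a * (tv 1 a * sv 1 a) = sv 1 a * (tv 1 a * sv 0 a) + etq a • sv 0 a := by
  have h : Rel sv tv 0 etv := by
    refine ⟨?_, ?_, ?_, ?_, fun i => ?_, ?_, ?_, ?_, ?_⟩ <;> try simp
    all_goals funext a; induction a using all2 <;>
      simp [sv, tv, etv, etq, x_comm 1 0, D_comm, D_x]
  refine ⟨h, fun a => ?_, fun a => ?_⟩
  · have h1 := congrFun (h.st' 0 (sv 1)) a
    have h2 := congrFun (h.st1' (sv 0)) a
    have h3 := congrFun h.ss a
    simp only [Pi.mul_apply, Pi.sub_apply, etv, smul_mul_assoc, one_mul] at h1 h2 h3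
    rw [h1, h2, h3]
  · have h1 := congrFun (h.st' 1 (sv 0)) a
    have h2 := congrFun (h.st0' (sv 1)) a
    have h3 := congrFun h.ss a
    simp only [Pi.mul_apply, Pi.sub_apply, etv, smul_mul_assoc, one_mul] at h1 h2 h3
    rw [h1, h2, h3]; abel

theorem relM : Rel (ss n) (tt n) (GG n) (dg etv) := by
  obtain ⟨h, h0, h1⟩ := relV
  refine ⟨?_, ?_, ?_, ?_, fun i => ?_, fun j i => ?_, fun j i => ?_, ?_, ?_⟩
  · simp only [ss, ← map_mul, h.ss]
  · simp only [tt, ← map_mul, h.tt]
  · simp only [ss, tt, ← map_mul, h.st0]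
  · simp only [ss, tt, ← map_mul, h.st1]
  · simp only [ss, tt, ← map_mul, h.st, ← map_sub]
  · rw [ss, GG_dg]; simp only [sv_rev]; rfl
  · rw [tt, GG_dg]; simp only [tv_rev]; rfl
  · simp only [GG, ← map_mul, Sg_mul3]
    rw [Sg, eta_mtu, ← map_sub, mtu_sub]
    congr 2; funext a; exact h0 a
  · simp only [GG, ← map_mul, Sg_mul3]
    rw [Sg, eta_mtu, ← map_add, mtu_add]
    congr 2; funext a; exact h1 a

abbrev AA (n : ℕ) := Fin 6 × II n
abbrev MA (n : ℕ) := Matrix (AA n) (AA n) R

noncomputable def big : Matrix (Fin 6) (Fin 6) (MR n) →+* MA n :=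
  (compRingEquiv (Fin 6) (II n) R).toRingHom

theorem big_apply (X : Matrix (Fin 6) (Fin 6) (MR n)) (σ τ : Fin 6) (b c : II n) :
    big X (σ, b) (τ, c) = X σ τ b c := rfl

noncomputable def dB (n : ℕ) : MA n := big (dd (ss n) (tt n) (GG n))
noncomputable def dB0 (n : ℕ) : MA n := big (d0 (ss n) (tt n))
noncomputable def dB1 (n : ℕ) : MA n := big (d1 (ss n) (GG n))
noncomputable def eB (n : ℕ) : MA n := big eps
noncomputable def xB (n : ℕ) : MA n := big (sx (pp n 0) (qq n 0))
noncomputable def yB (n : ℕ) : MA n := big (sy (pp n 1) (qq n 1))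
noncomputable def kB (n : ℕ) : MA n := big (kap (ss n) (tt n) (GG n))

theorem dB_eq : dB n = dB0 n + dB1 n := by rw [dB, dd_eq, map_add]; rfl
theorem dB_dB : dB n * dB n = 0 := by rw [dB, ← map_mul, relM.dd_dd, map_zero]
theorem dB_eB : dB n * eB n = 0 := by rw [dB, eB, ← map_mul, dd_eps, map_zero]
theorem eB_dB : eB n * dB n = 0 := by rw [dB, eB, ← map_mul, eps_dd, map_zero]
theorem eB_eB : eB n * eB n = 0 := by rw [eB, ← map_mul, eps_eps, map_zero]
theorem eB_xB : eB n * xB n = 0 := by rw [eB, xB, ← map_mul, eps_sx, map_zero]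
theorem xB_eB : xB n * eB n = 0 := by rw [eB, xB, ← map_mul, sx_eps, map_zero]
theorem eB_yB : eB n * yB n = 0 := by rw [eB, yB, ← map_mul, eps_sy, map_zero]
theorem yB_eB : yB n * eB n = 0 := by rw [eB, yB, ← map_mul, sy_eps, map_zero]

theorem qs_tp (i : Fin 2) : qq n i * ss n i + tt n i * pp n i = 1 := by
  simp only [qq, ss, tt, pp, ← map_mul, ← map_add]
  rw [← map_one dg]; congr 1
  funext a; induction a using all2 <;> simp [qv, sv, tv, pv, xi_x, x_xi]

theorem G_p (j i : Fin 2) : GG n j * pp n i = qq n i * GG n j := by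
  rw [pp, GG_dg, qq]; congr 2
  funext a; induction a using all2 <;> rfl

theorem dB_xB : dB n * xB n - xB n * dB n = eB n := by
  rw [dB, xB, ← map_mul, ← map_mul, ← map_sub, dd_sx (qs_tp 0) (G_p 0 0), eB]

theorem dB_yB : dB n * yB n - yB n * dB n = eB n := by
  rw [dB, yB, ← map_mul, ← map_mul, ← map_sub, dd_sy (qs_tp 1) (G_p 1 1), eB]

theorem map_th_mul {a b c : Type} [Fintype b] (i : Fin 2) (X : Matrix a b R) (Y : Matrix b c R) :
    (X * Y).map (th i) = X.map (th i) * Y + X * Y.map (th i) := by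
  ext g g'
  simp [mul_apply, th_mul, Finset.sum_add_distrib]

noncomputable def thM (i : Fin 2) : MR n →+ MR n := (th i).toAddMonoidHom.mapMatrix

theorem thM_dg (i : Fin 2) (f : Fin 2 → R) : thM i (dg f : MR n) = dg fun a => th i (f a) := by
  ext b c
  change th i (dg f b c) = _
  rw [dg_apply, dg_apply]; split_ifs <;> simp

theorem th_dB : (dB n).map (th 0) * (dB n).map (th 1) = xB n - yB n := by
  have := thth (s := ss n) (t := tt n) (G := GG n) (p := pp n) (q := qq n) thM
    (fun i u v => map_th_mul i u v) (fun i j => by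
      ext b c; change th i (cm _ b c) = 0; rw [cm_apply, map_smul, th_one, smul_zero])
    (fun i j => by
      rw [ss, thM_dg, pp, ← map_zero dg, ← apply_ite dg]; congr 1
      funext a; induction a using all2 <;> by_cases h : i = j <;>
        simp [sv, pv, th_x, th_D, h, eq_comm])
    (fun i j => by
      rw [tt, thM_dg, qq, ← map_zero dg, ← apply_ite dg]; congr 1
      funext a; induction a using all2 <;> by_cases h : i = j <;>
        simp [tv, qv, th_x, th_D, h, eq_comm])
    qs_tp (G_p 1 1) (by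
      simp only [pp, qq, ← map_mul]; rw [← map_zero dg]; congr 1
      funext a; induction a using all2 <;> simp [pv, qv]) (by
      simp only [pp, qq, ← map_mul]; rw [← map_zero dg]; congr 1
      funext a; induction a using all2 <;> simp [pv, qv]) (by
      simp only [pp, tt, ← map_mul]; congr 1
      funext a; induction a using all2 <;> simp [pv, tv, x_xi_comm 1 0, mul_assoc, x_xi]) (by
      simp only [qq, ss, ← map_mul]; congr 1
      funext a; induction a using all2 <;> simp [qv, sv, ← x_xi_comm 0 1, ← mul_assoc, xi_x])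
  rw [xB, yB, ← map_sub, ← this, map_mul]; rfl

theorem th_eB (i : Fin 2) : (eB n).map (th i) = 0 := by
  ext ⟨σ, b⟩ ⟨τ, c⟩
  have : ∀ b c : II n, th i ((1 : MR n) b c) = 0 := fun b c => by
    rw [one_apply]; split_ifs <;> simp [th_one]
  rw [map_apply, eB, big_apply]
  induction σ using all6 <;> induction τ using all6 <;>
    simp only [eps, of_apply, cons_val', cons_val, cons_val_fin_one, cons_val_zero,
      cons_val_one, Matrix.zero_apply, map_zero]
  exact this b c

/-- size and degree of the entries of a matrix -/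
def Ent (ι₀ ι₁ : Prop) (μ : Fin 2 → Fin 2 → ℤ) (k : ℕ) (X : MA n) : Prop :=
  ∀ g g', X g g' ∈ Sp ι₀ ι₁ (io g.1 (par g.2) - io g'.1 (par g'.2) - μ (par g.2) (par g'.2))
    (wo g.1 (par g.2) - wo g'.1 (par g'.2)) ∧ (hd g.1 ≠ hd g'.1 + k → X g g' = 0)

def mu (a a' : Fin 2) : ℤ := min 1 (1 + a.val - a'.val)

section
variable {ι₀ ι₁ : Prop} {P W : ℤ} {b c : II n}

theorem dg_mem {f : Fin 2 → R} (h : par c = par b → f (par b) ∈ Sp ι₀ ι₁ P W) :
    dg f b c ∈ Sp ι₀ ι₁ P W := by
  rw [dg_apply]; split_ifs with e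
  · exact h (by rw [e])
  · exact zero_mem _

theorem sG_mem {i j : Fin 2} (h : ((par b).val : ℤ) + (par c).val = 1 →
    ((par b).val : ℤ) ≤ P ∧ 1 - 2 * ((par b).val : ℤ) = W) :
    (ss n i * GG n j : MR n) b c ∈ Sp ι₀ ι₁ P W := by
  rw [ss, dg_mul, GG, cm_apply, mul_smul_comm, mul_one]
  by_cases e : par c = (par b).rev
  · have := h (by rw [e]; generalize par b = a; induction a using all2 <;> rfl)
    exact Submodule.smul_mem _ _ (Sp_to (sv_mem _ _) this.1 this.2)
  · simp [Sg_zero e]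

theorem G_mem {j : Fin 2} (h : ((par b).val : ℤ) + (par c).val = 1 → 0 ≤ P ∧ 0 = W) :
    GG n j b c ∈ Sp ι₀ ι₁ P W := by
  rw [GG, cm_apply]
  by_cases e : par c = (par b).rev
  · have := h (by rw [e]; generalize par b = a; induction a using all2 <;> rfl)
    exact Submodule.smul_mem _ _ (Sp_to (one_mem_Sp le_rfl) this.1 this.2)
  · simp [Sg_zero e]

theorem GG_mem {i j : Fin 2} (h : ((par b).val : ℤ) = (par c).val → 0 ≤ P ∧ 0 = W) :
    (GG n i * GG n j : MR n) b c ∈ Sp ι₀ ι₁ P W := by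
  rw [GG, GG, ← map_mul, cm_apply, Sg_mul]
  by_cases e : par c = par b
  · have := h (by rw [e])
    exact Submodule.smul_mem _ _ (Sp_to (one_mem_Sp le_rfl) this.1 this.2)
  · simp [mtu_zero (φ := id) (ts_w j i) e]

end

theorem Ent_d1 {ι₀ ι₁ : Prop} : Ent ι₀ ι₁ mu 1 (dB1 n) := by
  rintro ⟨σ, b⟩ ⟨τ, c⟩
  have hb := (par b).isLt
  have hc := (par c).isLt
  induction σ using all6 <;> induction τ using all6 <;>
    simp only [dB1, big_apply, d1, of_apply, cons_val', cons_val, cons_val_fin_one, cons_val_zero,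
      cons_val_one, Matrix.zero_apply, zero_mem, implies_true, and_self, hd, io, wo, sft, mu,
      Matrix.sub_apply, Matrix.neg_apply, ne_eq, not_true, false_implies, and_true, zero_add,
      Nat.reduceAdd, neg_mem_iff]
  · exact G_mem fun _ => by omega
  · exact G_mem fun _ => by omega
  · exact sub_mem (sub_mem (sG_mem fun _ => by omega) (sG_mem fun _ => by omega))
      (GG_mem fun _ => by omega)
  · exact GG_mem fun _ => by omega
  · exact GG_mem fun _ => by omega
  · exact sub_mem (sub_mem (sG_mem fun _ => by omega) (sG_mem fun _ => by omega))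
      (GG_mem fun _ => by omega)
  · exact G_mem fun _ => by omega
  · exact G_mem fun _ => by omega

theorem Ent_d0 {ι₀ ι₁ : Prop} : Ent ι₀ ι₁ 0 1 (dB0 n) := by
  rintro ⟨σ, b⟩ ⟨τ, c⟩
  induction σ using all6 <;> induction τ using all6 <;>
    simp only [dB0, big_apply, d0, of_apply, cons_val', cons_val, cons_val_fin_one, cons_val_zero,
      cons_val_one, Matrix.zero_apply, zero_mem, implies_true, and_self, hd, io, wo, sft,
      Matrix.neg_apply, ne_eq, not_true, false_implies, and_true, zero_add,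
      Nat.reduceAdd, neg_mem_iff, ss, tt, ← map_mul, Pi.zero_apply] <;>
    refine dg_mem fun e => ?_ <;> rw [e]
  · exact Sp_to (sv_mem _ _) (by omega) (by omega)
  · exact Sp_to (sv_mem _ _) (by omega) (by omega)
  · exact Sp_mul (tv_mem _ _) (sv_mem _ _) (by omega) (by omega)
  · exact Sp_mul (tv_mem _ _) (sv_mem _ _) (by omega) (by omega)
  · exact Sp_mul (tv_mem _ _) (sv_mem _ _) (by omega) (by omega)
  · exact Sp_mul (tv_mem _ _) (sv_mem _ _) (by omega) (by omega)
  · exact Sp_to (tv_mem _ _) (by omega) (by omega)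
  · exact Sp_to (tv_mem _ _) (by omega) (by omega)

theorem Ent_d {ι₀ ι₁ : Prop} : Ent ι₀ ι₁ 0 1 (dB n) := fun g g' => by
  have h0 := Ent_d0 (ι₀ := ι₀) (ι₁ := ι₁) g g'
  have h1 := Ent_d1 (ι₀ := ι₀) (ι₁ := ι₁) g g'
  have hb := (par g.2).isLt
  have hc := (par g'.2).isLt
  rw [dB_eq, Matrix.add_apply]
  exact ⟨add_mem h0.1 (Sp_to h1.1 (by simp only [mu, Pi.zero_apply]; omega) rfl),
    fun h => by rw [h0.2 h, h1.2 h, add_zero]⟩

theorem Ent_e {ι₀ ι₁ : Prop} : Ent ι₀ ι₁ 0 3 (eB n) := by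
  rintro ⟨σ, b⟩ ⟨τ, c⟩
  induction σ using all6 <;> induction τ using all6 <;>
    simp only [eB, big_apply, eps, of_apply, cons_val', cons_val, cons_val_fin_one, cons_val_zero,
      cons_val_one, Matrix.zero_apply, zero_mem, implies_true, and_self, hd, io, wo, sft,
      ne_eq, not_true, false_implies, and_true, zero_add, Pi.zero_apply]
  rw [← map_one dg]
  refine dg_mem fun e => ?_
  rw [e]
  exact Sp_to (one_mem_Sp le_rfl) (by omega) (by omega)

theorem Ent_x {ι₁ : Prop} : Ent True ι₁ 0 2 (xB n) := by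
  rintro ⟨σ, b⟩ ⟨τ, c⟩
  induction σ using all6 <;> induction τ using all6 <;>
    simp only [xB, big_apply, sx, of_apply, cons_val', cons_val, cons_val_fin_one, cons_val_zero,
      cons_val_one, Matrix.zero_apply, zero_mem, implies_true, and_self, hd, io, wo, sft,
      Matrix.neg_apply, ne_eq, not_true, false_implies, and_true, zero_add,
      Nat.reduceAdd, neg_mem_iff, Pi.zero_apply] <;>
    refine dg_mem fun e => ?_ <;> rw [e] <;> generalize par b = a <;> induction a using all2 <;>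
    simp [pv, qv] <;> exact Sp_to xi0_mem (by omega) rfl

theorem Ent_y {ι₀ : Prop} : Ent ι₀ True 0 2 (yB n) := by
  rintro ⟨σ, b⟩ ⟨τ, c⟩
  induction σ using all6 <;> induction τ using all6 <;>
    simp only [yB, big_apply, sy, of_apply, cons_val', cons_val, cons_val_fin_one, cons_val_zero,
      cons_val_one, Matrix.zero_apply, zero_mem, implies_true, and_self, hd, io, wo, sft,
      Matrix.neg_apply, ne_eq, not_true, false_implies, and_true, zero_add,
      Nat.reduceAdd, neg_mem_iff, Pi.zero_apply] <;>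
    refine dg_mem fun e => ?_ <;> rw [e] <;> generalize par b = a <;> induction a using all2 <;>
    simp [pv, qv] <;> exact Sp_to xi1_mem (by omega) rfl

end Vale.Agent.P195
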