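import Vale.Agent.P195.PC

namespace Vale.Agent.P195

open Matrix

section
variable {S : Type} [Ring S] [Algebra ℚ S] {A : Type} [Fintype A]

def rowL (X : Matrix A A S) : (A → S) →ₗ[ℚ] (A → S) where
  toFun y := y ᵥ* X
  map_add' y z := add_vecMul X y z
  map_smul' c y := by funext g; simp [vecMul, dotProduct, Finset.smul_sum]

def colL (X : Matrix A A S) : (A → S) →ₗ[ℚ] (A → S) where
  toFun y := X *ᵥ y
  map_add' y z := mulVec_add X y z
  map_smul' c y := by funext g; simp [mulVec, dotProduct, Finset.smul_sum]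

theorem rowL_apply (X : Matrix A A S) (y : A → S) : rowL X y = y ᵥ* X := rfl
theorem colL_apply (X : Matrix A A S) (y : A → S) : colL X y = X *ᵥ y := rfl
theorem row_sum (X : Matrix A A S) (y : A → S) (g : A) : (y ᵥ* X) g = ∑ g', y g' * X g' g := rfl
theorem col_sum (X : Matrix A A S) (y : A → S) (g : A) : (X *ᵥ y) g = ∑ g', X g g' * y g' := rfl
end

variable {n : ℕ}

theorem row_mem {ι₀ ι₁ : Prop} {μ : Fin 2 → Fin 2 → ℤ} {k : ℕ} {X : MA n} (hX : Ent ι₀ ι₁ μ k X)
    {y : AA n → R} {P W : AA n → ℤ} (hy : ∀ g, y g ∈ Sp ι₀ ι₁ (P g) (W g)) {g' : AA n} {p w : ℤ}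
    (hp : ∀ g, P g + (io g.1 (par g.2) - io g'.1 (par g'.2) - μ (par g.2) (par g'.2)) ≤ p)
    (hw : ∀ g, W g + (wo g.1 (par g.2) - wo g'.1 (par g'.2)) = w) : (y ᵥ* X) g' ∈ Sp ι₀ ι₁ p w :=
  Submodule.sum_mem _ fun g _ => Sp_mul (hy g) (hX g g').1 (hp g) (hw g)

theorem col_mem {ι₀ ι₁ : Prop} {μ : Fin 2 → Fin 2 → ℤ} {k : ℕ} {X : MA n} (hX : Ent ι₀ ι₁ μ k X)
    {y : AA n → R} {P W : AA n → ℤ} (hy : ∀ g, y g ∈ Sp ι₀ ι₁ (P g) (W g)) {g : AA n} {p w : ℤ}
    (hp : ∀ g', (io g.1 (par g.2) - io g'.1 (par g'.2) - μ (par g.2) (par g'.2)) + P g' ≤ p)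
    (hw : ∀ g', (wo g.1 (par g.2) - wo g'.1 (par g'.2)) + W g' = w) : (X *ᵥ y) g ∈ Sp ι₀ ι₁ p w :=
  Submodule.sum_mem _ fun g' _ => Sp_mul (hX g g').1 (hy g') (hp g') (hw g')

theorem row_zero {k : ℕ} {X : MA n} (hX : ∀ g g', hd g.1 ≠ hd g'.1 + k → X g g' = 0)
    {y : AA n → R} {g' : AA n} (hy : ∀ g, hd g.1 = hd g'.1 + k → y g = 0) : (y ᵥ* X) g' = 0 :=
  (row_sum _ _ _).trans <| Finset.sum_eq_zero fun g _ => by
    by_cases h : hd g.1 = hd g'.1 + k
    · rw [hy g h, zero_mul]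
    · rw [hX g g' h, mul_zero]

theorem col_zero {k : ℕ} {X : MA n} (hX : ∀ g g', hd g.1 ≠ hd g'.1 + k → X g g' = 0)
    {y : AA n → R} {g : AA n} (hy : ∀ g', hd g.1 = hd g'.1 + k → y g' = 0) : (X *ᵥ y) g = 0 :=
  (col_sum _ _ _).trans <| Finset.sum_eq_zero fun g' _ => by
    by_cases h : hd g.1 = hd g'.1 + k
    · rw [hy g' h, mul_zero]
    · rw [hX g g' h, zero_mul]

theorem Ent.z {ι₀ ι₁ : Prop} {μ : Fin 2 → Fin 2 → ℤ} {k : ℕ} {X : MA n} (hX : Ent ι₀ ι₁ μ k X) :
    ∀ g g', hd g.1 ≠ hd g'.1 + k → X g g' = 0 := fun g g' => (hX g g').2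

theorem row_big (X : Matrix (Fin 6) (Fin 6) (MR n)) (y : AA n → R) (τ : Fin 6) (c : II n) :
    (y ᵥ* big X) (τ, c) = ∑ σ, ((fun b => y (σ, b)) ᵥ* X σ τ) c := by
  rw [row_sum, Fintype.sum_prod_type]; rfl

theorem col_big (X : Matrix (Fin 6) (Fin 6) (MR n)) (y : AA n → R) (σ : Fin 6) (b : II n) :
    (big X *ᵥ y) (σ, b) = ∑ τ, (X σ τ *ᵥ fun c => y (τ, c)) b := by
  rw [col_sum, Fintype.sum_prod_type]; rfl

theorem row_dg (f : Fin 2 → R) (v : II n → R) (c : II n) : (v ᵥ* dg f) c = v c * f (par c) :=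
  vecMul_diagonal _ _ _

theorem col_dg (f : Fin 2 → R) (v : II n → R) (c : II n) : (dg f *ᵥ v) c = f (par c) * v c :=
  mulVec_diagonal _ _ _

theorem row_G (j : Fin 2) (v : II n → R) (c : II n) : (v ᵥ* GG n j) c = ∑ b, Sg n j b c • v b := by
  simp [row_sum, GG, cm_apply]

theorem col_G (j : Fin 2) (v : II n → R) (c : II n) : (GG n j *ᵥ v) c = ∑ b, Sg n j c b • v b := by
  simp [col_sum, GG, cm_apply]

noncomputable def QR : Fin 2 → KP := ![KxR, KdR]
noncomputable def QL : Fin 2 → KP := ![KxL, KdL]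

theorem QR_S (a i : Fin 2) (u : R) : (QR a).S i u = u * sv i a := by induction a using all2 <;> rfl
theorem QL_S (a i : Fin 2) (u : R) : (QL a).S i u = sv i a * u := by induction a using all2 <;> rfl

noncomputable def cmb (ν : II n → ℚ) : MM := ∑ b, ν b • bv b

theorem cmb_apply (ν : II n → ℚ) (c : II n) : cmb ν c.1 = ν c := by
  rw [cmb, Finsupp.finset_sum_apply, Finset.sum_eq_single c]
  · simp [bv]
  · intro b _ hb
    rw [Finsupp.smul_apply, bv, Finsupp.single_eq_of_ne, smul_zero]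
    exact fun h => hb (Subtype.ext h.symm)
  · simp

theorem cmb_mem {ν : II n → ℚ} {a : Fin 2} (h : ∀ b, par b ≠ a → ν b = 0) :
    cmb ν ∈ Md (n - a.val) :=
  Submodule.sum_mem _ fun b _ => by
    by_cases e : par b = a
    · exact Submodule.smul_mem _ _ (e ▸ bv_mem b)
    · simp [h b e]

theorem cmb_of {a : Fin 2} {m : MM} (hm : m ∈ Md (n - a.val)) : cmb (fun b : II n => m b.1) = m :=
  expand (fun _ => LinearMap.id) a hm

theorem act_cmb {ν : II n → ℚ} {a : Fin 2} (h : ∀ b, par b ≠ a → ν b = 0) (i : Fin 2) (c : II n) :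
    act (sv i a) (cmb ν) c.1 = ∑ b, ν b * Sg n i b c := by
  rw [cmb, map_sum, Finsupp.finset_sum_apply]
  refine Finset.sum_congr rfl fun b _ => ?_
  by_cases e : par b = a
  · rw [map_smul, ← e]; rfl
  · simp [h b e]

theorem ne0 {a : Fin 2} : a ≠ 0 ↔ a = 1 := by induction a using all2 <;> simp
theorem ne1 {a : Fin 2} : a ≠ 1 ↔ a = 0 := by induction a using all2 <;> simp

theorem cxR (hn : n ≠ 0) : Cx QR par (rowL (dB n)) fun i b c => -Sg n i b c := by
  have e0 : ∀ y, y ᵥ* dB0 n = LD QR par y := by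
    intro y
    funext ⟨τ, c⟩
    rw [dB0, row_big]
    induction τ using all6 <;>
      simp only [d0, Fin.sum_univ_six, of_apply, cons_val', cons_val, cons_val_fin_one,
        cons_val_zero, cons_val_one, vecMul_zero, Pi.zero_apply, add_zero, zero_add, vecMul_neg,
        Pi.neg_apply, ss, tt, ← map_mul, row_dg, LD, ld, QR_S, sv_rev, Pi.mul_apply, sub_mul,
        mul_assoc] <;> abel
  refine ⟨⟨rfl, rfl, fun _ _ => rfl, rfl, rfl, fun _ _ => rfl⟩, fun i => one_mul _,
    fun i j => x_comm j i, fun y => ?_, fun w ℓ h y hy => ?_, fun w ℓ y hy => ?_, fun y c => ?_,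
    fun i b c h => ?_, fun ν h0 h1 => ?_⟩
  · rw [rowL_apply, rowL_apply, vecMul_vecMul, dB_dB, vecMul_zero]
  · rw [rowL_apply, dB_eq, vecMul_add, e0, add_sub_cancel_left]
    intro g'
    refine ⟨row_mem Ent_d1 (fun g => (hy g).1) (fun g => ?_) (fun g => by omega),
      fun h' => row_zero (Ent_d1 (ι₀ := False) (ι₁ := False)).z fun g hg => (hy g).2 (by omega)⟩
    have := (par g.2).isLt
    have := (par g'.2).isLt
    simp only [mu]; omega
  · funext g'
    exact row_zero (Ent_d (ι₀ := False) (ι₁ := False)).z fun g hg => (hy g).2 (by omega)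
  · rw [rowL_apply, dB, row_big]
    simp only [dd, Fin.sum_univ_six, of_apply, cons_val', cons_val, cons_val_fin_one,
      cons_val_zero, cons_val_one, vecMul_zero, Pi.zero_apply, add_zero, zero_add, vecMul_sub,
      Pi.sub_apply, ss, row_dg, row_G, QR_S, Finset.sum_add_distrib, neg_smul,
      Finset.sum_neg_distrib]
    abel
  · rw [Sg_zero, neg_zero]
    rw [h]; generalize par c = a; induction a using all2 <;> simp
  · have h2 : ∀ b, par b ≠ 0 → ν b = 0 := fun b h => h0 b (ne0.mp h)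
    have hm := cmb_mem h2
    have h3 : ∀ i, act (x i) (cmb ν) = 0 := fun i => by
      rw [← cmb_of (n := n) (a := 1) (act_mem (x_mem i) hm (by simp))]
      have : (fun c : II n => act (x i) (cmb ν) c.1) = 0 := funext fun c => by
        have := h1 i c
        simp only [mul_neg, Finset.sum_neg_distrib, neg_eq_zero] at this
        exact (act_cmb h2 i c).trans this
      rw [this]; simp [cmb]
    have h4 := Up_split (by simpa using hn) hm
    rw [h3, map_zero, sub_zero, h3, map_zero, add_zero] at h4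
    funext c
    rw [← cmb_apply ν c, h4]; rfl

/-- reversal of shapes -/
def rv (y : AA n → R) : AA n → R := fun g => y (g.1.rev, g.2)

theorem rv_rv (y : AA n → R) : rv (rv y) = y := by funext g; simp [rv]

noncomputable def Dc (n : ℕ) : (AA n → R) →ₗ[ℚ] (AA n → R) :=
  LinearMap.funLeft ℚ R (fun g => (g.1.rev, g.2)) ∘ₗ colL (dB n) ∘ₗ
    LinearMap.funLeft ℚ R (fun g => (g.1.rev, g.2))

theorem Dc_apply (y : AA n → R) : Dc n y = rv (dB n *ᵥ rv y) := rfl

theorem io_rev (σ : Fin 6) (a : Fin 2) : io σ a.rev = 2 - io σ.rev a := by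
  induction σ using all6 <;> induction a using all2 <;> rfl
theorem wo_rev (σ : Fin 6) (a : Fin 2) : wo σ a.rev = 1 - wo σ.rev a := by
  induction σ using all6 <;> induction a using all2 <;> rfl
theorem hd_rev (σ : Fin 6) : hd σ.rev + hd σ = 3 := by induction σ using all6 <;> rfl
theorem val_rev (a : Fin 2) : ((a.rev.val : ℕ) : ℤ) = 1 - a.val := by induction a using all2 <;> rfl

def par' (b : II n) : Fin 2 := (par b).rev

theorem LL_rv {ℓ w : ℤ} {h : ℕ} {y : AA n → R} : rv y ∈ LL par' ℓ w h ↔ ∀ g, y g ∈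
    WW ((ℓ + 1 - (par g.2).val) / 2 - 2 + io g.1 (par g.2)) (w - 1 + wo g.1 (par g.2)) ∧
      (hd g.1 + h ≠ 3 → y g = 0) := by
  constructor
  · intro hy g
    have := hy (g.1.rev, g.2)
    have h3 := hd_rev g.1
    simp only [rv, par', io_rev, wo_rev, val_rev, Fin.rev_rev] at this
    exact ⟨WW_mono this.1 (by omega) (by omega), fun h => this.2 (by omega)⟩
  · intro hy g
    have := hy (g.1.rev, g.2)
    have h3 := hd_rev g.1
    simp only [rv, par', io_rev, wo_rev, val_rev]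
    exact ⟨WW_mono this.1 (by simp only; omega) (by simp only; omega),
      fun h => this.2 (by simp only; omega)⟩

noncomputable def fn (ν : II n → ℚ) : MM →ₗ[ℚ] ℚ := ∑ b, ν b • Finsupp.lapply b.1

theorem fn_apply (ν : II n → ℚ) (m : MM) : fn ν m = ∑ b, ν b * m b.1 := by simp [fn]

theorem fn_bv (ν : II n → ℚ) (c : II n) : fn ν (bv c) = ν c := by
  rw [fn_apply, Finset.sum_eq_single c]
  · simp [bv]
  · intro b _ hb
    rw [bv, Finsupp.single_eq_of_ne, mul_zero]
    exact fun h => hb (Subtype.ext h)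
  · simp

theorem cxL : Cx QL par' (Dc n) fun i b c => Sg n i c b := by
  have r0 : (0 : Fin 6).rev = 5 := rfl
  have r1 : (1 : Fin 6).rev = 4 := rfl
  have r2 : (2 : Fin 6).rev = 3 := rfl
  have r3 : (3 : Fin 6).rev = 2 := rfl
  have r4 : (4 : Fin 6).rev = 1 := rfl
  have r5 : (5 : Fin 6).rev = 0 := rfl
  have e0 : ∀ y, rv (dB0 n *ᵥ rv y) = LD QL par' y := by
    intro y
    funext ⟨τ, c⟩
    have h1 := congrFun relV.1.st0 (par c)
    have h2 := congrFun relV.1.st1 (par c)
    rw [rv, dB0, col_big]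
    induction τ using all6 <;>
      simp only [d0, Fin.sum_univ_six, of_apply, cons_val', cons_val, cons_val_fin_one,
        cons_val_zero, cons_val_one, zero_mulVec, Pi.zero_apply, add_zero, zero_add, neg_mulVec,
        Pi.neg_apply, ss, tt, ← map_mul, col_dg, LD, ld, QL_S, sv_rev, Pi.mul_apply, mul_sub,
        mul_assoc, r0, r1, r2, r3, r4, r5, rv, par', Fin.rev_rev] <;> abel
  refine ⟨⟨rfl, rfl, fun _ _ => rfl, rfl, rfl, fun _ _ => rfl⟩, fun i => mul_one _,
    fun i j => rfl, fun y => ?_, fun w ℓ h y hy => ?_, fun w ℓ y hy => ?_, fun y c => ?_,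
    fun i b c h => ?_, fun ν h0 h1 => ?_⟩
  · rw [Dc_apply, Dc_apply, rv_rv, mulVec_mulVec, dB_dB, zero_mulVec]; rfl
  · have e : Dc n y - LD QL par' y = rv (dB1 n *ᵥ rv y) := by
      rw [Dc_apply, dB_eq, add_mulVec, ← e0]; funext g; simp [rv]
    rw [← rv_rv y, LL_rv] at hy
    rw [e, LL_rv]
    intro g
    refine ⟨col_mem Ent_d1 (fun g => (hy g).1) (fun g' => ?_) (fun g => by omega),
      fun h' => col_zero (Ent_d1 (ι₀ := False) (ι₁ := False)).z fun g hg => (hy g).2 (by omega)⟩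
    have := (par g.2).isLt
    have := (par g'.2).isLt
    simp only [mu]; omega
  · rw [← rv_rv y, LL_rv] at hy
    have : dB n *ᵥ rv y = 0 := funext fun g =>
      col_zero (Ent_d (ι₀ := False) (ι₁ := False)).z fun g' hg => (hy g').2 (by
        have := hd_rev g.1; omega)
    rw [Dc_apply, this]; rfl
  · rw [Dc_apply, rv, dB, col_big]
    simp only [dd, Fin.sum_univ_six, of_apply, cons_val', cons_val, cons_val_fin_one,
      cons_val_zero, cons_val_one, zero_mulVec, Pi.zero_apply, add_zero, zero_add, add_mulVec,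
      Pi.add_apply, tt, col_dg, col_G, QL_S, Finset.sum_add_distrib, r0, r3, r4, rv, par', sv_rev]
    abel
  · rw [Sg_zero]
    rw [Fin.rev_injective h]; generalize par c = a; induction a using all2 <;> simp
  · have h2 : ∀ m ∈ Md (n - ((0 : Fin 2) : ℕ)), fn ν (act (x 0) m) = 0 := fun m hm => by
      rw [← cmb_of hm, cmb, map_sum, map_sum]
      refine Finset.sum_eq_zero fun c _ => ?_
      by_cases e : par c = 0
      · have := h1 0 c
        simp only [Sg, mtu, of_apply, e] at this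
        rw [map_smul, map_smul, fn_apply]
        exact smul_eq_zero_of_right _ this
      · rw [coef_zero hm c (fun h => e (Fin.ext (by omega)))]; simp
    funext b
    by_cases e : par b = 0
    · exact h0 b (by rw [par', e]; rfl)
    · have := h2 _ (Up_mem 0 (bv_mem b) (by rw [ne0.mp e]; simp))
      rwa [x_Up, fn_bv] at this

def Only (h : ℕ) {S : Type} [Zero S] (y : AA n → S) : Prop := ∀ g, hd g.1 ≠ h → y g = 0

def rP (q : ℤ) (g : AA n) : ℤ := q - io g.1 (par g.2)
def rW (w : ℤ) (g : AA n) : ℤ := w - wo g.1 (par g.2)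
def cP (q : ℤ) (g : AA n) : ℤ := io g.1 (par g.2) - q
def cW (w : ℤ) (g : AA n) : ℤ := wo g.1 (par g.2) + w

/-- vectors with entries in prescribed pieces -/
def Fm (ι₀ ι₁ : Prop) (P W : AA n → ℤ) (y : AA n → R) : Prop := ∀ g, y g ∈ Sp ι₀ ι₁ (P g) (W g)

theorem LL_row {q : ℕ} {w : ℤ} {h : ℕ} {y : AA n → R} : y ∈ LL par ((2 * q : ℕ) : ℤ) w h ↔
    Fm False False (rP q) (rW w) y ∧ Only h y := by
  have e : ∀ g : AA n, (((2 * q : ℕ) : ℤ) + (par g.2).val) / 2 - io g.1 (par g.2) = rP q g := by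
    intro g
    have := (par g.2).isLt
    simp only [rP]; omega
  exact ⟨fun hy => ⟨fun g => e g ▸ (hy g).1, fun g => (hy g).2⟩,
    fun hy g => ⟨(e g).symm ▸ hy.1 g, hy.2 g⟩⟩

theorem LL_col {q : ℕ} (hq : q ≤ 2) {w : ℤ} {h h' : ℕ} (hh : h + h' = 3) {y : AA n → R} :
    rv y ∈ LL par' ((2 * (2 - q) : ℕ) : ℤ) (w + 1) h ↔ Fm False False (cP q) (cW w) y ∧ Only h' y := by
  have e : ∀ g : AA n, (((2 * (2 - q) : ℕ) : ℤ) + 1 - (par g.2).val) / 2 - 2 + io g.1 (par g.2) =
      cP q g ∧ w + 1 - 1 + wo g.1 (par g.2) = cW w g := by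
    intro g
    have := (par g.2).isLt
    simp only [cP, cW]; omega
  rw [LL_rv]
  exact ⟨fun hy => ⟨fun g => (e g).1 ▸ (e g).2 ▸ (hy g).1, fun g hg => (hy g).2 (by omega)⟩,
    fun hy g => ⟨(e g).1.symm ▸ (e g).2.symm ▸ hy.1 g, fun hg => hy.2 g (by omega)⟩⟩

theorem row_exact (hn : n ≠ 0) {q : ℕ} {w : ℤ} (h0 : 0 ≤ w) (h2 : w ≤ 2) {h : ℕ} {y : AA n → R}
    (hy : Fm False False (rP q) (rW w) y) (ho : Only (h + 1) y) (hc : y ᵥ* dB n = 0) :
    ∃ z, Fm False False (rP q) (rW w) z ∧ Only (h + 2) z ∧ y = z ᵥ* dB n := by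
  obtain ⟨z, hz, e⟩ := (cxR hn).exactS h0 h2 _ (LL_row.mpr ⟨hy, ho⟩) hc
  exact ⟨z, (LL_row.mp hz).1, (LL_row.mp hz).2, e⟩

theorem col_exact {q : ℕ} (hq : q ≤ 2) {w : ℤ} (h0 : -1 ≤ w) (h2 : w ≤ 1) {h : ℕ} (hh : h ≤ 2)
    {y : AA n → R} (hy : Fm False False (cP q) (cW w) y) (ho : Only h y) (hc : dB n *ᵥ y = 0) :
    ∃ z, Fm False False (cP q) (cW w) z ∧ (∀ g, hd g.1 + 1 ≠ h → z g = 0) ∧ y = dB n *ᵥ z := by
  obtain ⟨z, hz, e⟩ := (cxL (n := n)).exactS (h := 2 - h) (by omega) (by omega) _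
    ((LL_col hq (by omega)).mpr ⟨hy, ho⟩) (by rw [Dc_apply, rv_rv, hc]; rfl)
  have e' : y = dB n *ᵥ rv z := by rw [← rv_rv y, e, Dc_apply, rv_rv]
  rw [← rv_rv z] at hz
  rcases h with _ | h
  · have : rv z = 0 := funext fun g => ((LL_rv.mp hz) g).2 (by omega)
    exact ⟨0, fun _ => zero_mem _, fun _ _ => rfl, by rw [e', this]⟩
  · have := (LL_col hq (h' := h) (by omega)).mp hz
    exact ⟨_, this.1, fun g hg => this.2 g (by omega), e'⟩

noncomputable def bA (g : AA n) : MM := if g.1 = 0 then bv g.2 else 0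

noncomputable def AuR (n : ℕ) : (II n → R) →ₗ[ℚ] MM :=
  ∑ b, (LinearMap.applyₗ (bv b) ∘ₗ act) ∘ₗ LinearMap.proj b

theorem AuR_apply (v : II n → R) : AuR n v = ∑ b, act (v b) (bv b) := by simp [AuR]

theorem sum_bA (y : AA n → R) : ∑ g, act (y g) (bA g) = AuR n fun b => y (0, b) := by
  rw [Fintype.sum_prod_type, Fin.sum_univ_six, AuR_apply]
  simp [bA]

theorem act_smul1 (c : ℚ) (m : MM) : act (c • (1 : R)) m = c • m := by
  rw [map_smul, LinearMap.smul_apply, act_one]

theorem aug_row (i : Fin 2) (b : II n) : AuR n ((ss n i - GG n i) b) = 0 := by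
  have : (ss n i - GG n i) b = ss n i b - GG n i b := rfl
  rw [this, map_sub, AuR_apply, AuR_apply, Finset.sum_eq_single b]
  · obtain ⟨p, hp⟩ := sv_w i (par b)
    simp only [ss, dg_apply, if_true, GG, cm_apply, act_smul1]
    rw [sub_eq_zero]
    exact (cmb_of (a := (par b).rev) (act_mem hp (bv_mem b) (by omega))).symm
  · intro c _ hc
    simp [ss, dg_apply, hc.symm]
  · simp

theorem aug_d (g : AA n) : ∑ g', act (dB n g g') (bA g') = 0 := by
  obtain ⟨σ, b⟩ := g
  rw [sum_bA]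
  change AuR n (dd (ss n) (tt n) (GG n) σ 0 b) = 0
  induction σ using all6 <;>
    simp only [dd, of_apply, cons_val', cons_val, cons_val_fin_one, cons_val_zero, cons_val_one,
      aug_row] <;> exact map_zero _

theorem aug_dd {z : AA n → R} (hz : ∀ g, z g ∈ GA) : ∑ g', act ((z ᵥ* dB n) g') (bA g') = 0 := by
  simp only [row_sum, map_sum, LinearMap.sum_apply]
  rw [Finset.sum_comm]
  refine Finset.sum_eq_zero fun g _ => ?_
  simp only [act_mulG (hz g) (W_GA (Ent_d _ _).1)]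
  rw [← map_sum, aug_d, map_zero]

theorem row_exact0 (hn : n ≠ 0) {q : ℕ} {w : ℤ} (h0 : 0 ≤ w) (h2 : w ≤ 2) {y : AA n → R}
    (hy : Fm False False (rP q) (rW w) y) (ho : Only 0 y) (hc : ∑ g, act (y g) (bA g) = 0) :
    ∃ z, Fm False False (rP q) (rW w) z ∧ Only 1 z ∧ y = z ᵥ* dB n := by
  obtain ⟨z, hz, e⟩ := (cxR hn).exact0 h0 h2 (AuR n) (fun ℓ z hz => by
      rw [← sum_bA]; exact aug_dd fun g => W_GA (hz g).1)
    (fun _ l _ h => by
      simp only [AuR_apply, act_smul1] at h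
      funext c
      rw [← cmb_apply l c, cmb, h]; rfl)
    (fun _ l m hlm h => by
      have hl := cmb_mem (a := 1) fun b e => (hlm b (ne1.mp e)).1
      have hm := cmb_mem (a := 1) fun b e => (hlm b (ne1.mp e)).2
      have e : act (x 0) (cmb l) + act (x 1) (cmb m) = 0 := by
        rw [← h, AuR_apply, cmb, cmb, map_sum, map_sum, ← Finset.sum_add_distrib]
        simp
      have hμ : Up 1 (cmb l) - Up 0 (cmb m - Up 1 (act (x 1) (cmb m))) ∈ Md (n - ((0 : Fin 2) : ℕ)) :=
        sub_mem (Up_mem 1 hl (by simp)) (Up_mem 0 (sub_mem hm (Up_mem 1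
          (act_mem (x_mem 1) hm rfl) (by simp))) (by simp))
      have z : ∀ b : II n, par b ≠ 0 →
          (Up 1 (cmb l) - Up 0 (cmb m - Up 1 (act (x 1) (cmb m)))) b.1 = 0 := fun b hb =>
        coef_zero hμ b fun h => hb (Fin.ext (by omega))
      refine ⟨_, fun b hb => z b (ne0.mpr hb), fun c => ?_⟩
      simp only [mul_neg, Finset.sum_neg_distrib, neg_neg, ← act_cmb z, cmb_of hμ]
      change _ = act (x 1) _ c.1 ∧ _ = -act (x 0) _ c.1
      simp only [map_sub, x_Up, x_Up' (show (1 : Fin 2) ≠ 0 by simp),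
        x_Up' (show (0 : Fin 2) ≠ 1 by simp), eq_neg_of_add_eq_zero_left e, map_neg]
      simp [cmb_apply])
    _ (LL_row.mpr ⟨hy, ho⟩) (by rw [← sum_bA, hc])
  exact ⟨z, (LL_row.mp hz).1, (LL_row.mp hz).2, e⟩

noncomputable def at0 (σ : Fin 6) (v : II n → R) : AA n → R := fun g => if g.1 = σ then v g.2 else 0

theorem at0_Fm {ι₀ ι₁ : Prop} {P W : AA n → ℤ} {σ : Fin 6} {v : II n → R}
    (h : ∀ b, v b ∈ Sp ι₀ ι₁ (P (σ, b)) (W (σ, b))) : Fm ι₀ ι₁ P W (at0 σ v) := by
  rintro ⟨τ, b⟩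
  unfold at0; split_ifs with e
  · subst e; exact h b
  · exact zero_mem _

theorem at0_Only (σ : Fin 6) (v : II n → R) : Only (hd σ) (at0 σ v) := fun g h =>
  if_neg fun e => h (by rw [e])

theorem at0_self (σ : Fin 6) (v : II n → R) : (fun b => at0 σ v (σ, b)) = v := by
  funext b; simp [at0]

theorem row_surj (q : ℕ) {w : ℤ} (h0 : 0 ≤ w) (h2 : w ≤ 2) {m : MM} (hm : m ∈ Md (n - w)) :
    ∃ y : AA n → R, Fm False False (rP q) (rW w) y ∧ Only 0 y ∧ ∑ g, act (y g) (bA g) = m := by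
  by_cases hw : w = 2
  · have h1 : Up 0 m ∈ Md (n - ((1 : Fin 2) : ℕ)) := Up_mem 0 hm (by simp; omega)
    refine ⟨at0 0 fun b => Up 0 m b.1 • x 0, at0_Fm fun b => ?_, at0_Only 0 _, ?_⟩
    · by_cases e : par b = 1
      · exact Submodule.smul_mem _ _ (Sp_to (x_mem 0) (by simp [rP, io, sft])
          (by simp [rW, wo, sft, e, hw]))
      · rw [coef_zero h1 b fun h => e (Fin.ext (by omega))]; simp
    · rw [sum_bA, at0_self, AuR_apply, ← x_Up 0 m]
      conv_rhs => rw [← cmb_of h1, cmb, map_sum]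
      simp [x_Up]
  · let a : Fin 2 := ⟨w.toNat, by omega⟩
    have h1 : m ∈ Md (n - (a : ℕ)) := by convert hm; simp [a]; omega
    refine ⟨at0 0 fun b => m b.1 • 1, at0_Fm fun b => ?_, at0_Only 0 _, ?_⟩
    · by_cases e : par b = a
      · exact Submodule.smul_mem _ _ (Sp_to (one_mem_Sp le_rfl) (by simp [rP, io, sft])
          (by simp [rW, wo, sft, e, a]; omega))
      · rw [coef_zero h1 b fun h => e (Fin.ext (by omega))]; simp
    · rw [sum_bA, at0_self, AuR_apply]
      simp only [act_smul1]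
      exact cmb_of h1

noncomputable def prL (n : ℕ) : (II n → R) →ₗ[ℚ] MM →ₗ[ℚ] ℚ :=
  ∑ b, etq (par b) • ((LinearMap.llcomp ℚ MM MM ℚ (Finsupp.lapply b.1) ∘ₗ act) ∘ₗ LinearMap.proj b)

theorem prL_apply (v : II n → R) (μ : MM) : prL n v μ = ∑ b, etq (par b) * act (v b) μ b.1 := by
  simp [prL]

theorem etq_rev (a : Fin 2) : etq a.rev = -etq a := by induction a using all2 <;> simp [etq]
theorem etq_sq (a : Fin 2) : etq a * etq a = 1 := by induction a using all2 <;> simp [etq]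

theorem pr_col (i : Fin 2) {v : II n → R} (hv : ∀ b, v b ∈ GA) {μ : MM}
    (hm : ∀ b, act (v b) μ ∈ Md (n - (par b).rev.val)) : prL n ((tt n i + GG n i) *ᵥ v) μ = 0 := by
  rw [add_mulVec, map_add, LinearMap.add_apply, prL_apply, prL_apply]
  simp only [tt, col_dg, col_G, map_sum, map_smul, LinearMap.sum_apply, Finsupp.finset_sum_apply,
    Finset.mul_sum]
  rw [Finset.sum_comm, ← Finset.sum_add_distrib]
  refine Finset.sum_eq_zero fun b _ => ?_
  have := expand (n := n) (fun a => etq a • Finsupp.lapply b.1 ∘ₗ act (sv i a)) _ (hm b)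
  simp only [LinearMap.smul_apply, LinearMap.comp_apply, Finsupp.lapply_apply, etq_rev, sv_rev,
    smul_eq_mul, neg_mul] at this
  rw [act_mulG (W_GA (tv_mem i _)) (hv b), add_comm, ← eq_neg_iff_add_eq_zero, ← this]
  refine Finset.sum_congr rfl fun c _ => ?_
  simp only [LinearMap.smul_apply, Finsupp.smul_apply, smul_eq_mul, Sg, mtu, of_apply]
  ring

theorem pr_d {P : AA n → ℤ} {w : ℤ} {s : AA n → R} (hs : Fm False False P (cW w) s) {μ : MM}
    (hμ : μ ∈ Md (n + w)) : prL n (fun b => (dB n *ᵥ s) (5, b)) μ = 0 := by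
  have e : (fun b => (dB n *ᵥ s) (5, b)) = (tt n 1 + GG n 1) *ᵥ (fun b => s (3, b)) +
      (tt n 0 + GG n 0) *ᵥ fun b => s (4, b) := by
    funext b
    rw [dB, col_big]
    simp only [dd, Fin.sum_univ_six, of_apply, cons_val', cons_val, cons_val_fin_one,
      cons_val_zero, cons_val_one, zero_mulVec, Pi.zero_apply, add_zero, zero_add, Pi.add_apply]
  rw [e, map_add, LinearMap.add_apply, pr_col _ (fun b => W_GA (hs _)), pr_col _ (fun b => W_GA (hs _)),
    add_zero] <;> intro b <;> refine act_mem (hs _) hμ ?_ <;>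
    simp only [cW, wo, sft, cons_val, val_rev] <;> omega

theorem col_top {q : ℕ} (hq : q ≤ 2) {w : ℤ} (h0 : -1 ≤ w) (h2 : w ≤ 1) {y : AA n → R}
    (hy : Fm False False (cP q) (cW w) y) (ho : Only 3 y)
    (hc : ∀ μ ∈ Md (n + w), prL n (fun b => y (5, b)) μ = 0) :
    ∃ z, Fm False False (cP q) (cW w) z ∧ Only 2 z ∧ y = dB n *ᵥ z := by
  obtain ⟨z, hz, e⟩ := (cxL (n := n)).exact0 (n := w + 1) (by omega) (by omega)
    ((prL n).compl₂ (Md (n + w)).subtype) (fun ℓ z hz => by
      rw [← rv_rv z, LL_rv] at hz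
      ext ⟨μ, hμ⟩
      exact pr_d (fun g => WW_mono (hz g).1 le_rfl (by simp only [cW]; omega)) hμ)
    (fun _ l hl h => by
      funext c
      by_contra hc
      have h1 : ((par' c).val : ℤ) = w + 1 := by_contra fun h => hc (hl c h)
      rw [par', val_rev] at h1
      have h2 : bv c ∈ Md (n + w) := by convert bv_mem c using 2; omega
      have := LinearMap.congr_fun h ⟨_, h2⟩
      simp only [LinearMap.compl₂_apply, prL_apply, act_smul1, Submodule.subtype_apply,
        Finsupp.smul_apply, smul_eq_mul, ← mul_assoc, ← fn_apply, fn_bv, LinearMap.zero_apply] at this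
      exact hc (by rw [← one_mul (l c), ← etq_sq (par c), mul_assoc, this, mul_zero]; rfl))
    (fun hw l m hlm h => by
      have hlm' : ∀ b, par b ≠ 0 → l b = 0 ∧ m b = 0 := fun b e =>
        hlm b (by rw [par', ne0.mp e]; rfl)
      have e : ∀ μ ∈ Md (n + 1), fn l (act (x 0) μ) + fn m (act (x 1) μ) = 0 := fun μ hμ => by
        have := LinearMap.congr_fun h ⟨μ, by convert hμ using 2; omega⟩
        simp only [LinearMap.compl₂_apply, prL_apply, Submodule.subtype_apply,
          LinearMap.zero_apply] at this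
        rw [← this, fn_apply, fn_apply, ← Finset.sum_add_distrib]
        refine Finset.sum_congr rfl fun b _ => ?_
        by_cases e : par b = 0
        · simp [e, etq]
        · simp [hlm' b e]
      have e0 : ∀ v ∈ Md n, fn l v = -fn m (Up 0 (act (x 1) v)) := fun v hv => by
        have := e _ (Up_mem 0 hv rfl)
        rw [x_Up, x_Up' (by simp)] at this
        exact eq_neg_of_add_eq_zero_left this
      have e1 : ∀ v ∈ Md n, fn m v = fn m (Up 0 (act (x 0) v)) := fun v hv => by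
        have := e _ (Up_mem 1 hv rfl)
        rw [x_Up, x_Up' (by simp), e0 _ (Up_mem 1 (act_mem (x_mem 0) hv rfl) (by simp)), x_Up] at this
        exact (neg_add_eq_zero.mp this).symm
      refine ⟨fun b => if par b = 1 then fn m (Up 0 (bv b)) else 0, fun b hb => if_neg fun h => by
        rw [par', h] at hb; exact absurd hb (by decide), fun c => ?_⟩
      by_cases hc : par c = 0
      · have hb : bv c ∈ Md n := by simpa [hc] using bv_mem c
        have key : ∀ i, ∑ b, (if par b = 1 then fn m (Up 0 (bv b)) else 0) * Sg n i c b =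
            fn m (Up 0 (act (x i) (bv c))) := fun i => by
          have := expand (n := n) (fun a => if a = 1 then fn m ∘ₗ Up 0 else 0) 1
            (act_mem (x_mem i) hb (by simp))
          rw [if_pos rfl, LinearMap.comp_apply] at this
          rw [← this]
          refine Finset.sum_congr rfl fun b _ => ?_
          simp only [Sg, mtu, of_apply, hc]
          split_ifs <;> simp [sv, mul_comm]
        rw [key, key, ← e0 _ hb, ← e1 _ hb, fn_bv, fn_bv]
        exact ⟨rfl, rfl⟩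
      · have key : ∀ i, ∑ b, (if par b = 1 then fn m (Up 0 (bv b)) else 0) * Sg n i c b = 0 :=
          fun i => Finset.sum_eq_zero fun b _ => by
            split_ifs with hb
            · rw [Sg_zero (by rw [hb, ne0.mp hc]; decide), mul_zero]
            · rw [zero_mul]
        rw [key, key, neg_zero]
        exact hlm' c hc)
    _ ((LL_col hq rfl).mpr ⟨hy, ho⟩) (by ext ⟨μ, hμ⟩; exact hc μ hμ)
  rw [← rv_rv z] at hz
  have := (LL_col hq (h' := 2) rfl).mp hz
  exact ⟨_, this.1, this.2, by rw [← rv_rv y, e, Dc_apply, rv_rv]⟩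

theorem col_surj {q : ℕ} (hq : q ≤ 2) {w : ℤ} (h0 : -1 ≤ w) (h2 : w ≤ 1) (χ : MM →ₗ[ℚ] ℚ) :
    ∃ y : AA n → R, Fm False False (cP q) (cW w) y ∧ Only 3 y ∧
      ∀ μ ∈ Md (n + w), prL n (fun b => y (5, b)) μ = χ μ := by
  by_cases hw : w = 1
  · let φ : Fin 2 → MM →ₗ[ℚ] ℚ := ![χ ∘ₗ Up 0, χ ∘ₗ Up 1 ∘ₗ (LinearMap.id - Up 0 ∘ₗ act (x 0))]
    refine ⟨at0 5 fun b => if par b = 0 then φ 0 (bv b) • x 0 + φ 1 (bv b) • x 1 else 0,
      at0_Fm fun b => ?_, at0_Only 5 _, fun μ hμ => ?_⟩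
    · split_ifs with e
      · have : ∀ i, x i ∈ WW (cP q (5, b)) (cW w (5, b)) := fun i =>
          Sp_to (x_mem i) (by simp [cP, io, sft, e]; omega) (by simp [cW, wo, sft, e, hw])
        exact add_mem (Submodule.smul_mem _ _ (this 0)) (Submodule.smul_mem _ _ (this 1))
      · exact zero_mem _
    · have key := fun i => expand (n := n) (fun a => if a = 0 then φ i else 0) 0
        (act_mem (x_mem i) hμ (by simp [hw]))
      have e : χ μ = φ 0 (act (x 0) μ) + φ 1 (act (x 1) μ) := by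
        conv_lhs => rw [Up_split (by omega) hμ]
        simp [φ, x_Up' (show (1 : Fin 2) ≠ 0 by simp), x_x]
      simp only [if_true] at key
      rw [at0_self, prL_apply, e, ← key, ← key, ← Finset.sum_add_distrib]
      refine Finset.sum_congr rfl fun b _ => ?_
      split_ifs with h <;> simp [h, etq, mul_comm]
  · let a : Fin 2 := ⟨(-w).toNat, by omega⟩
    refine ⟨at0 5 fun b => if par b = a then (etq a * χ (bv b)) • 1 else 0,
      at0_Fm fun b => ?_, at0_Only 5 _, fun μ hμ => ?_⟩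
    · split_ifs with e
      · exact Submodule.smul_mem _ _ (Sp_to (one_mem_Sp le_rfl) (by simp [cP, io, sft]; omega)
          (by simp [cW, wo, sft, e, a]; omega))
      · exact zero_mem _
    · have key := expand (n := n) (fun a' => if a' = a then χ else 0) a (m := μ)
        (by convert hμ using 2; simp [a]; omega)
      rw [if_pos rfl] at key
      rw [at0_self, prL_apply, ← key]
      refine Finset.sum_congr rfl fun b _ => ?_
      split_ifs with h
      · simp only [h, act_smul1, Finsupp.smul_apply, smul_eq_mul, ← mul_assoc, etq_sq]; ring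
      · simp

end Vale.Agent.P195
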