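import Vale.Agent.P195.PR

namespace Vale.Agent.P195

variable {n : ℕ}

def Sup (P : AA n → Prop) (y : AA n → R) : Prop := ∀ g, ¬P g → y g = 0
def Bl (j : AA n → ℕ) (H : ℕ) (y : AA n → R) : Prop := ∀ g, H ≤ j g → y g = 0

section
variable {ι₀ ι₁ : Prop} {P W : AA n → ℤ} {y z : AA n → R}
theorem Fm.add (hy : Fm ι₀ ι₁ P W y) (hz : Fm ι₀ ι₁ P W z) : Fm ι₀ ι₁ P W (y + z) :=
  fun g => Submodule.add_mem _ (hy g) (hz g)
theorem Fm.sub (hy : Fm ι₀ ι₁ P W y) (hz : Fm ι₀ ι₁ P W z) : Fm ι₀ ι₁ P W (y - z) :=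
  fun g => Submodule.sub_mem _ (hy g) (hz g)
theorem Fm.neg (hy : Fm ι₀ ι₁ P W y) : Fm ι₀ ι₁ P W (-y) := fun g => Submodule.neg_mem _ (hy g)
theorem Fm.zero : Fm ι₀ ι₁ P W 0 := fun _ => Submodule.zero_mem _
theorem Fm.to (hy : Fm False False P W y) : Fm ι₀ ι₁ P W y := fun g => W_to (hy g)
variable {Q : AA n → Prop}
theorem Sup.add (hy : Sup Q y) (hz : Sup Q z) : Sup Q (y + z) :=
  fun g h => by rw [Pi.add_apply, hy g h, hz g h, add_zero]
theorem Sup.sub (hy : Sup Q y) (hz : Sup Q z) : Sup Q (y - z) :=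
  fun g h => by rw [Pi.sub_apply, hy g h, hz g h, sub_zero]
theorem Sup.zero : Sup Q 0 := fun _ _ => rfl
theorem Sup.mono {Q' : AA n → Prop} (hy : Sup Q y) (h : ∀ i, Q i → Q' i) : Sup Q' y :=
  fun g hg => hy g fun e => hg (h _ e)
end

theorem split {P W : AA n → ℤ} (hW : ∀ g, -1 ≤ W g) {i : AA n → R} (hi : Fm True True P W i) :
    ∃ X X', Fm True False P W X ∧ Fm False True P W X' ∧ X - X' = i ∧
      ∀ g, i g = 0 → X g = 0 ∧ X' g = 0 := by
  have : ∀ g, ∃ v : R × R, v.1 ∈ JX (P g) (W g) ∧ v.2 ∈ JY (P g) (W g) ∧ v.1 - v.2 = i g ∧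
      (i g = 0 → v.1 = 0 ∧ v.2 = 0) := by
    intro g
    by_cases h : i g = 0
    · exact ⟨0, zero_mem _, zero_mem _, by simp [h], fun _ => ⟨rfl, rfl⟩⟩
    · obtain ⟨a, ha, b, hb, e⟩ := Submodule.mem_sup.mp (TS_le (hW g) (hi g))
      exact ⟨(a, -b), ha, neg_mem hb, by simpa using e, fun h' => absurd h' h⟩
  choose v h1 h2 h3 h4 using this
  exact ⟨fun g => (v g).1, fun g => (v g).2, h1, h2, funext h3, h4⟩

structure St (j : AA n → ℕ) (P W : AA n → ℤ) (M M' Sx Sy Ω : (AA n → R) →ₗ[ℚ] (AA n → R))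
    (P₁ P₂ P₁' P₂' : AA n → Prop) (L : ℕ) : Prop where
  hW : ∀ g, -1 ≤ W g
  lM : ∀ H y, Bl j H y → Bl j (H - 1) (M y)
  lM' : ∀ H y, Bl j H y → Bl j (H - 1) (M' y)
  lx : ∀ H y, Bl j H y → Bl j (H - 1) (Sx y)
  ly : ∀ H y, Bl j H y → Bl j (H - 1) (Sy y)
  lo : ∀ H y, Bl j H y → Bl j (H - 1) (Ω y)
  MM : ∀ y, M (M' y) = 0
  OM : ∀ y, Ω (M' y) + M' (Ω y) = Sx y - Sy y
  cx : ∀ r, Sup P₁' r → M' r - Sx (M' r) = M r - M (Sx r)
  ci : ∀ i, Sup P₁ i → M i = M' i
  mM : ∀ ι₀ ι₁ y, Fm ι₀ ι₁ P W y → Fm ι₀ ι₁ P W (M' y)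
  mx : ∀ y, Fm False False P W y → Fm True False P W (Sx y)
  my : ∀ y, Fm False False P W y → Fm False True P W (Sy y)
  mo : ∀ y, Fm False False P W y → Fm True True P W (Ω y)
  p1 : ∀ g, L ≤ j g → P₂ g → P₁' g
  p2 : ∀ i, P₁ i → P₂' i
  so : ∀ r, Sup P₁' r → Sup P₂' (Ω r)
  sx : ∀ r, Sup P₁' r → Sup P₂ (Sx r)
  sM : ∀ X, Sup P₂' X → Sup P₂ (M' X)

namespace St

variable {j : AA n → ℕ} {P W : AA n → ℤ} {M M' Sx Sy Ω : (AA n → R) →ₗ[ℚ] (AA n → R)}
  {P₁ P₂ P₁' P₂' : AA n → Prop} {L : ℕ} (S : St j P W M M' Sx Sy Ω P₁ P₂ P₁' P₂' L)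
include S

theorem steps (m : ℕ) : ∀ u x x', Fm False False P W u → Fm True False P W x →
    Fm False True P W x' → Sup P₂ x → Bl j (L + m - 1) u → Bl j (L + m) x → Bl j (L + m) x' →
    Ω u + x - x' = 0 → (∀ g, L ≤ j g + 1 → (u - Sx u - M x) g = 0) →
    ∃ r X X', Fm False False P W r ∧ Fm True False P W X ∧ Fm False True P W X' ∧ Sup P₁' r ∧
      Sup P₂' X ∧ Sup P₂' X' ∧ Ω r + X - X' = 0 ∧ Bl j (L - 1) (u - M' r) ∧
      Bl j L (x - (r - Sx r - M' X)) ∧ Bl j L (x' - (r - Sy r - M' X')) := by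
  induction m with
  | zero =>
    intro u x x' _ _ _ _ bu bx bx' _ _
    exact ⟨0, 0, 0, .zero, .zero, .zero, .zero, .zero, .zero, by simp, by simpa using bu,
      by simpa using bx, by simpa using bx'⟩
  | succ m ih =>
    intro u x x' hu hx hx' sx bu bx bx' e1 e2
    let r : AA n → R := fun g => if j g = L + m then x g else 0
    have top : ∀ g, j g = L + m → x g = x' g := fun g hg => by
      have h0 : Ω u g = 0 := by
        by_cases h : L + m = 0
        · have : u = 0 := funext fun g => bu g (by omega)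
          rw [this, map_zero]; rfl
        · exact S.lo _ _ bu g (by omega)
      have := congrFun e1 g
      simp only [Pi.sub_apply, Pi.add_apply, h0, zero_add, Pi.zero_apply] at this
      exact sub_eq_zero.mp this
    have hr : Fm False False P W r := fun g => by
      simp only [r]; split_ifs with h
      · exact inter_mem (hx g) (top g h ▸ hx' g)
      · exact zero_mem _
    have sr : Sup P₁' r := fun g hg => by
      simp only [r]; split_ifs with h
      · exact sx g fun e => hg (S.p1 _ (by omega) e)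
      · rfl
    have sr2 : Sup P₂ r := fun g hg => by
      simp only [r]; split_ifs with h
      · exact sx g hg
      · rfl
    have br : Bl j (L + m + 1) r := fun g hg => if_neg (by omega)
    obtain ⟨X, X', hX, hX', eX, zX⟩ := split S.hW (S.mo _ hr).neg
    have zX' : ∀ g, Ω r g = 0 → X g = 0 ∧ X' g = 0 := fun g h => zX g (by simp [h])
    have sX : Sup P₂' X := fun g hg => (zX' g (S.so r sr g hg)).1
    have sX' : Sup P₂' X' := fun g hg => (zX' g (S.so r sr g hg)).2
    have bX : Bl j (L + m) X := fun g hg => (zX' g (S.lo _ _ br g hg)).1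
    have bX' : Bl j (L + m) X' := fun g hg => (zX' g (S.lo _ _ br g hg)).2
    have b1 : Bl j (L + m) (x - (r - Sx r - M' X)) := fun g hg => by
      simp only [Pi.sub_apply, S.lx _ _ br g hg, S.lM' _ _ bX g (by omega), sub_zero, r]
      split_ifs with h
      · exact sub_self _
      · rw [bx g (by omega), sub_zero]
    have b2 : Bl j (L + m) (x' - (r - Sy r - M' X')) := fun g hg => by
      simp only [Pi.sub_apply, S.ly _ _ br g hg, S.lM' _ _ bX' g (by omega), sub_zero, r]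
      split_ifs with h
      · rw [top g h, sub_self]
      · rw [bx' g (by omega), sub_zero]
    have f2 : (u - M' r) - Sx (u - M' r) - M (x - (r - Sx r - M' X)) = u - Sx u - M x := by
      have := S.cx r sr
      simp only [map_sub, S.MM]
      linear_combination (norm := abel) -this
    have b0 : Bl j (L + m) (u - M' r) := fun g hg => by
      rw [Pi.sub_apply, bu g (by omega), S.lM' _ _ br g hg, sub_zero]
    have b3 : Bl j (L + m - 1) (u - M' r) := fun g hg => by
      by_cases h : L + m ≤ j g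
      · exact b0 g h
      · have := e2 g (by omega)
        rw [← f2, Pi.sub_apply, Pi.sub_apply, S.lx _ _ b0 g hg, S.lM _ _ b1 g hg] at this
        simpa using this
    obtain ⟨r', Y, Y', g1, g2, g3, g4, g5, g6, g7, g8, g9, g10⟩ := ih (u - M' r)
      (x - (r - Sx r - M' X)) (x' - (r - Sy r - M' X')) (hu.sub (S.mM _ _ _ hr))
      (hx.sub ((hr.to.sub (S.mx _ hr)).sub (S.mM _ _ _ hX)))
      (hx'.sub ((hr.to.sub (S.my _ hr)).sub (S.mM _ _ _ hX')))
      (sx.sub ((sr2.sub (S.sx _ sr)).sub (S.sM _ sX))) b3 b1 b2 (by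
        have h1 := S.OM r
        have h2 := congrArg M' eX
        simp only [map_sub, map_neg] at h2 ⊢
        linear_combination (norm := abel) e1 - h1 + h2) (by rw [f2]; exact e2)
    refine ⟨r + r', X + Y, X' + Y', hr.add g1, hX.add g2, hX'.add g3, sr.add g4, sX.add g5,
      sX'.add g6, ?_, ?_, ?_, ?_⟩
    · rw [map_add]; linear_combination (norm := abel) g7 + eX
    · convert g8 using 1; rw [map_add]; abel
    · convert g9 using 1; simp only [map_add]; abel
    · convert g10 using 1; simp only [map_add]; abel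

theorem main (hj : ∀ g, j g < 4) {u i x x' : AA n → R} (hu : Fm False False P W u)
    (hi : Fm True True P W i) (hx : Fm True False P W x) (hx' : Fm False True P W x')
    (si : Sup P₁ i) (sx : Sup P₂ x) (e1 : M i + Ω u + x - x' = 0)
    (e2 : ∀ g, L ≤ j g + 1 → (u - Sx u - M x) g = 0) :
    ∃ r X X', Fm False False P W r ∧ Fm True False P W X ∧ Fm False True P W X' ∧ Sup P₁' r ∧
      Sup P₂' X ∧ Sup P₂' X' ∧ Ω r + X - X' = i ∧ Bl j (L - 1) (u - M' r) ∧
      Bl j L (x - (r - Sx r - M' X)) ∧ Bl j L (x' - (r - Sy r - M' X')) := by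
  obtain ⟨X, X', hX, hX', eX, zX⟩ := split S.hW hi
  have sX : Sup P₂' X := fun g hg => (zX g (si g fun e => hg (S.p2 _ e))).1
  have sX' : Sup P₂' X' := fun g hg => (zX g (si g fun e => hg (S.p2 _ e))).2
  obtain ⟨r, Y, Y', g1, g2, g3, g4, g5, g6, g7, g8, g9, g10⟩ := S.steps 5 u (x + M' X) (x' + M' X')
    hu (hx.add (S.mM _ _ _ hX)) (hx'.add (S.mM _ _ _ hX')) (sx.add (S.sM _ sX))
    (fun g hg => by have := hj g; omega) (fun g hg => by have := hj g; omega)
    (fun g hg => by have := hj g; omega) (by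
      have h2 := congrArg M' eX
      rw [map_sub, ← S.ci i si] at h2
      linear_combination (norm := abel) e1 + h2) (by simpa only [map_add, S.MM, add_zero] using e2)
  refine ⟨r, X + Y, X' + Y', g1, hX.add g2, hX'.add g3, g4, sX.add g5, sX'.add g6, ?_, g8, ?_, ?_⟩
  · linear_combination (norm := abel) g7 + eX
  · convert g9 using 1; simp only [map_add]; abel
  · convert g10 using 1; simp only [map_add]; abel

end St

end Vale.Agent.P195
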