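import Vale.Agent.P195.W

namespace Vale.Agent.P195

inductive Cmp
  | au | ai | bx | bz | cu | ci | eu | ei | px | pz | qx | qz | ru | ri | sx | sz

open Cmp

instance : Finite Cmp := Finite.of_surjective
  (![au, ai, bx, bz, cu, ci, eu, .ei, px, pz, qx, qz, ru, ri, sx, sz] : Fin 16 → Cmp) fun c => by
    cases c
    exacts [⟨0, rfl⟩, ⟨1, rfl⟩, ⟨2, rfl⟩, ⟨3, rfl⟩, ⟨4, rfl⟩, ⟨5, rfl⟩, ⟨6, rfl⟩, ⟨7, rfl⟩, ⟨8, rfl⟩,
      ⟨9, rfl⟩, ⟨10, rfl⟩, ⟨11, rfl⟩, ⟨12, rfl⟩, ⟨13, rfl⟩, ⟨14, rfl⟩, ⟨15, rfl⟩]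

/-- two by two block ring with a square zero bimodule part -/
def TT : Type := Cmp → R

noncomputable instance : AddCommGroup TT := inferInstanceAs (AddCommGroup (Cmp → R))
noncomputable instance : Module ℚ TT := inferInstanceAs (Module ℚ (Cmp → R))

noncomputable def mulF (a b : Cmp → R) : Cmp → R
  | .au => a au * b au
  | .ai => a au * b ai + a ai * b au + th 0 (a au) * th 1 (b au) + (a bx - a bz) * b cu
  | .bx => a au * b bx + a bx * b eu
  | .bz => a au * b bz + a bz * b eu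
  | .cu => a cu * b au + a eu * b cu
  | .ci => a cu * b ai + a ci * b au + th 0 (a cu) * th 1 (b au) + a eu * b ci + a .ei * b cu +
      th 0 (a eu) * th 1 (b cu)
  | .eu => a eu * b eu
  | .ei => a cu * (b bx - b bz) + a eu * b .ei + a .ei * b eu + th 0 (a eu) * th 1 (b eu)
  | .px => a au * b px + a bx * b ru + a px * b au + a qx * b cu
  | .pz => a au * b pz + a bz * b ru + a pz * b au + a qz * b cu
  | .qx => a au * b qx + a qx * b eu
  | .qz => a au * b qz + a qz * b eu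
  | .ru => a eu * b ru + a ru * b au
  | .ri => a cu * (b px - b pz) + a eu * b ri + a .ei * b ru + th 0 (a eu) * th 1 (b ru) +
      a ru * b ai + a ri * b au + th 0 (a ru) * th 1 (b au) + (a sx - a sz) * b cu
  | .sx => a cu * b qx + a eu * b sx + a ru * b bx + a sx * b eu
  | .sz => a cu * b qz + a eu * b sz + a ru * b bz + a sz * b eu

noncomputable def oneF : Cmp → R
  | .au => 1
  | .eu => 1
  | _ => 0

namespace TT

theorem ext {a b : TT} (h : ∀ c, a c = b c) : a = b := funext h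
theorem add_c (a b : TT) (c : Cmp) : (a + b) c = a c + b c := rfl
theorem sub_c (a b : TT) (c : Cmp) : (a - b) c = a c - b c := rfl
theorem neg_c (a : TT) (c : Cmp) : (-a) c = -a c := rfl
theorem zero_c (c : Cmp) : (0 : TT) c = 0 := rfl
theorem smul_c (r : ℚ) (a : TT) (c : Cmp) : (r • a) c = r • a c := rfl
theorem sum_c {ι : Type} (s : Finset ι) (f : ι → TT) (c : Cmp) : (∑ i ∈ s, f i) c = ∑ i ∈ s, f i c :=
  Finset.sum_apply c s f

end TT

theorem mulF_assoc (a b c : Cmp → R) : mulF (mulF a b) c = mulF a (mulF b c) := by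
  funext k
  cases k <;> simp only [mulF, map_add, th_mul, mul_add, add_mul, mul_sub, sub_mul, mul_assoc] <;>
    abel

theorem mulF_add (a b c : Cmp → R) : mulF a (b + c) = mulF a b + mulF a c := by
  funext k
  cases k <;> simp only [mulF, Pi.add_apply, map_add, mul_add, mul_sub] <;> abel

theorem add_mulF (a b c : Cmp → R) : mulF (a + b) c = mulF a c + mulF b c := by
  funext k
  cases k <;> simp only [mulF, Pi.add_apply, map_add, add_mul, sub_mul] <;> abel

noncomputable instance : Ring TT where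
  __ := (inferInstance : AddCommGroup TT)
  mul := mulF
  one := oneF
  mul_assoc := mulF_assoc
  left_distrib := mulF_add
  right_distrib := add_mulF
  zero_mul a := by
    change mulF 0 a = 0
    funext k; cases k <;> simp [mulF]
  mul_zero a := by
    change mulF a 0 = 0
    funext k; cases k <;> simp [mulF]
  one_mul a := by
    change mulF oneF a = a
    funext k; cases k <;> simp [mulF, oneF, th_one]
  mul_one a := by
    change mulF a oneF = a
    funext k; cases k <;> simp [mulF, oneF, th_one]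

theorem TT.mul_c (a b : TT) (c : Cmp) : (a * b) c = mulF a b c := rfl
theorem TT.one_c (c : Cmp) : (1 : TT) c = oneF c := rfl

noncomputable instance : Algebra ℚ TT := Algebra.ofModule
  (fun r a b => TT.ext fun k => by
    cases k <;> simp only [TT.mul_c, TT.smul_c, mulF, map_smul, smul_add, smul_mul_assoc, sub_mul,
      smul_sub])
  (fun r a b => TT.ext fun k => by
    cases k <;> simp only [TT.mul_c, TT.smul_c, mulF, map_smul, smul_add, mul_smul_comm, mul_sub,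
      smul_sub])

noncomputable def slot (y : Bool) (p w : ℤ) : Cmp → Submodule ℚ R
  | .au | .cu | .eu => if y then ⊥ else WW p w
  | .ai | .ci | .ei => if y then ⊥ else TS p w
  | .bx => if y then ⊥ else JX p w
  | .bz => if y then ⊥ else JY p w
  | .ru => if y then WW p w else ⊥
  | .ri => if y then TS p w else ⊥
  | .px | .qx | .sx => if y then JX p w else ⊥
  | .pz | .qz | .sz => if y then JY p w else ⊥

/-- graded pieces of the algebra part and of the bimodule part -/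
noncomputable def GY (y : Bool) (p w : ℤ) : Submodule ℚ TT := Submodule.pi Set.univ (slot y p w)

theorem GY_fg (y : Bool) (p w : ℤ) : (GY y p w).FG :=
  Submodule.fg_pi fun c => by
    cases y <;> cases c <;> first | exact Sp_fg _ _ _ _ | exact Submodule.fg_bot

theorem all16 {P : Cmp → Prop} : (∀ c, P c) ↔ (P au ∧ P ai ∧ P bx ∧ P bz ∧ P cu ∧ P ci ∧ P eu ∧
    P .ei) ∧ P px ∧ P pz ∧ P qx ∧ P qz ∧ P ru ∧ P ri ∧ P sx ∧ P sz :=
  ⟨fun h => by simp [h], fun h c => by cases c <;> simp [h]⟩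

theorem mem_G {p w : ℤ} {a : TT} : a ∈ GY false p w ↔ (a au ∈ WW p w ∧ a ai ∈ TS p w ∧
    a bx ∈ JX p w ∧ a bz ∈ JY p w ∧ a cu ∈ WW p w ∧ a ci ∈ TS p w ∧ a eu ∈ WW p w ∧
    a .ei ∈ TS p w) ∧ a px = 0 ∧ a pz = 0 ∧ a qx = 0 ∧ a qz = 0 ∧ a ru = 0 ∧ a ri = 0 ∧ a sx = 0 ∧
    a sz = 0 := by
  have : a ∈ GY false p w ↔ ∀ c, a c ∈ slot false p w c := ⟨fun h c => h c trivial, fun h c _ => h c⟩
  rw [this, all16]; rfl

theorem mem_Y {p w : ℤ} {a : TT} : a ∈ GY true p w ↔ (a au = 0 ∧ a ai = 0 ∧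
    a bx = 0 ∧ a bz = 0 ∧ a cu = 0 ∧ a ci = 0 ∧ a eu = 0 ∧ a .ei = 0) ∧ a px ∈ JX p w ∧
    a pz ∈ JY p w ∧ a qx ∈ JX p w ∧ a qz ∈ JY p w ∧ a ru ∈ WW p w ∧ a ri ∈ TS p w ∧
    a sx ∈ JX p w ∧ a sz ∈ JY p w := by
  have : a ∈ GY true p w ↔ ∀ c, a c ∈ slot true p w c := ⟨fun h c => h c trivial, fun h c _ => h c⟩
  rw [this, all16]; rfl

theorem XY_T {p w : ℤ} {u v : R} (hu : u ∈ JX p w) (hv : v ∈ JY p w) : u - v ∈ TS p w :=
  sub_mem (Sp_mono id (fun _ => trivial) le_rfl hu) (Sp_mono (fun _ => trivial) id le_rfl hv)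

section
variable {p w q l r m : ℤ} (hr : p + q ≤ r) (hm : w + l = m) {a b : TT}
include hr hm

theorem mL {ι₀ ι₁ : Prop} {u v : R} (hu : u ∈ WW p w) (hv : v ∈ Sp ι₀ ι₁ q l) :
    u * v ∈ Sp ι₀ ι₁ r m := Sp_mul (W_to hu) hv hr hm

theorem mR {ι₀ ι₁ : Prop} {u v : R} (hu : u ∈ Sp ι₀ ι₁ p w) (hv : v ∈ WW q l) :
    u * v ∈ Sp ι₀ ι₁ r m := Sp_mul hu (W_to hv) hr hm

theorem GG_mul (ha : a ∈ GY false p w) (hb : b ∈ GY false q l) : a * b ∈ GY false r m := by
  obtain ⟨⟨a1, a2, a3, a4, a5, a6, a7, a8⟩, a9, a10, a11, a12, a13, a14, a15, a16⟩ := mem_G.mp ha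
  obtain ⟨⟨b1, b2, b3, b4, b5, b6, b7, b8⟩, b9, b10, b11, b12, b13, b14, b15, b16⟩ := mem_G.mp hb
  have L := @mL _ _ _ _ _ _ hr hm
  have R := @mR _ _ _ _ _ _ hr hm
  rw [mem_G]
  simp only [TT.mul_c, mulF, a9, a10, a11, a12, a13, a14, a15, a16, b9, b10, b11, b12, b13, b14,
    b15, b16, mul_zero, zero_mul, add_zero, sub_zero, map_zero, and_self, and_true]
  exact ⟨L a1 b1, add_mem (add_mem (add_mem (L a1 b2) (R a2 b1)) (thth_mem a1 b1 hr hm))
    (R (XY_T a3 a4) b5), add_mem (L a1 b3) (R a3 b7), add_mem (L a1 b4) (R a4 b7),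
    add_mem (L a5 b1) (L a7 b5), add_mem (add_mem (add_mem (add_mem (add_mem (L a5 b2) (R a6 b1))
      (thth_mem a5 b1 hr hm)) (L a7 b6)) (R a8 b5)) (thth_mem a7 b5 hr hm), L a7 b7,
    add_mem (add_mem (add_mem (L a5 (XY_T b3 b4)) (L a7 b8)) (R a8 b7)) (thth_mem a7 b7 hr hm)⟩

theorem GY_mul (ha : a ∈ GY false p w) (hb : b ∈ GY true q l) : a * b ∈ GY true r m := by
  obtain ⟨⟨a1, a2, a3, a4, a5, a6, a7, a8⟩, a9, a10, a11, a12, a13, a14, a15, a16⟩ := mem_G.mp ha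
  obtain ⟨⟨b1, b2, b3, b4, b5, b6, b7, b8⟩, b9, b10, b11, b12, b13, b14, b15, b16⟩ := mem_Y.mp hb
  have L := @mL _ _ _ _ _ _ hr hm
  have R := @mR _ _ _ _ _ _ hr hm
  rw [mem_Y]
  simp only [TT.mul_c, mulF, a9, a10, a11, a12, a13, a14, a15, a16, b1, b2, b3, b4, b5, b6,
    b7, b8, mul_zero, zero_mul, add_zero, sub_zero, map_zero, and_self, true_and]
  exact ⟨add_mem (L a1 b9) (R a3 b13), add_mem (L a1 b10) (R a4 b13), L a1 b11, L a1 b12, L a7 b13,
    add_mem (add_mem (add_mem (L a5 (XY_T b9 b10)) (L a7 b14)) (R a8 b13)) (thth_mem a7 b13 hr hm),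
    add_mem (L a5 b11) (L a7 b15), add_mem (L a5 b12) (L a7 b16)⟩

theorem YG_mul (ha : a ∈ GY true p w) (hb : b ∈ GY false q l) : a * b ∈ GY true r m := by
  obtain ⟨⟨a1, a2, a3, a4, a5, a6, a7, a8⟩, a9, a10, a11, a12, a13, a14, a15, a16⟩ := mem_Y.mp ha
  obtain ⟨⟨b1, b2, b3, b4, b5, b6, b7, b8⟩, b9, b10, b11, b12, b13, b14, b15, b16⟩ := mem_G.mp hb
  have L := @mL _ _ _ _ _ _ hr hm
  have R := @mR _ _ _ _ _ _ hr hm
  rw [mem_Y]
  simp only [TT.mul_c, mulF, a1, a2, a3, a4, a5, a6, a7, a8, b9, b10, b11, b12, b13, b14,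
    b15, b16, mul_zero, zero_mul, add_zero, zero_add, sub_zero, map_zero, and_self, true_and]
  exact ⟨add_mem (R a9 b1) (R a11 b5), add_mem (R a10 b1) (R a12 b5), R a11 b7, R a12 b7, L a13 b1,
    add_mem (add_mem (add_mem (L a13 b2) (R a14 b1)) (thth_mem a13 b1 hr hm)) (R (XY_T a15 a16) b5),
    add_mem (L a13 b3) (R a15 b7), add_mem (L a13 b4) (R a16 b7)⟩

end

theorem GY_mul' {y : Bool} {p w q l r m : ℤ} (hr : p + q ≤ r) (hm : w + l = m) {a b : TT}
    (ha : a ∈ GY false p w) (hb : b ∈ GY y q l) : a * b ∈ GY y r m := by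
  cases y
  · exact GG_mul hr hm ha hb
  · exact GY_mul hr hm ha hb

theorem YG_mul' {y : Bool} {p w q l r m : ℤ} (hr : p + q ≤ r) (hm : w + l = m) {a b : TT}
    (ha : a ∈ GY y p w) (hb : b ∈ GY false q l) : a * b ∈ GY y r m := by
  cases y
  · exact GG_mul hr hm ha hb
  · exact YG_mul hr hm ha hb

/-- elements of the algebra part with given blocks -/
noncomputable def mkG (u i x z c d e f : R) : TT
  | .au => u | .ai => i | .bx => x | .bz => z | .cu => c | .ci => d | .eu => e | .ei => f | _ => 0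

noncomputable def e1 : TT := mkG 1 0 0 0 0 0 0 0
noncomputable def e2 : TT := mkG 0 0 0 0 0 0 1 0

def isC : Cmp → Bool
  | .au | .ai | .cu | .ci | .px | .pz | .ru | .ri => true
  | _ => false

def isR : Cmp → Bool
  | .au | .ai | .bx | .bz | .px | .pz | .qx | .qz => true
  | _ => false

theorem mul_e1 (a : TT) (c : Cmp) : (a * e1) c = if isC c then a c else 0 := by
  cases c <;> simp [TT.mul_c, mulF, e1, mkG, isC, th_one]
theorem mul_e2 (a : TT) (c : Cmp) : (a * e2) c = if isC c then 0 else a c := by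
  cases c <;> simp [TT.mul_c, mulF, e2, mkG, isC, th_one]
theorem e1_mul (a : TT) (c : Cmp) : (e1 * a) c = if isR c then a c else 0 := by
  cases c <;> simp [TT.mul_c, mulF, e1, mkG, isR, th_one]
theorem e2_mul (a : TT) (c : Cmp) : (e2 * a) c = if isR c then 0 else a c := by
  cases c <;> simp [TT.mul_c, mulF, e2, mkG, isR, th_one]

theorem e1_mem : e1 ∈ GY false 0 0 := by simp [mem_G, e1, mkG, one_mem_Sp]
theorem e2_mem : e2 ∈ GY false 0 0 := by simp [mem_G, e2, mkG, one_mem_Sp]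
theorem one_memG {p : ℤ} (hp : 0 ≤ p) : (1 : TT) ∈ GY false p 0 := by
  simp [mem_G, TT.one_c, oneF, one_mem_Sp hp]

end Vale.Agent.P195
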