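import Vale.Agent.P195.TS
import Vale.Agent.P195.TT

namespace Vale.Agent.P195

open Matrix Cmp

variable {n : ℕ}

noncomputable def DD (n c : ℕ) : Matrix (AA n) (AA n) TT := of fun g g' =>
  mkG (Mc n c g g') 0 ((1 - xB n) g g') ((1 - yB n) g g') ((1 : MA n) g g') 0 (-Mc n c g g') 0

def cmp (η : AA n → TT) (c : Cmp) : AA n → R := fun g => η g c

noncomputable def rowF (c : ℕ) (η : Cmp → AA n → R) : Cmp → AA n → R
  | .au => η au ᵥ* Mc n c
  | .ai => η ai ᵥ* Mc n c + OR n (η au) + (η bx - η bz)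
  | .bx => η au - η au ᵥ* xB n - η bx ᵥ* Mc n c
  | .bz => η au - η au ᵥ* yB n - η bz ᵥ* Mc n c
  | .cu => η cu ᵥ* Mc n c + η eu
  | .ci => η ci ᵥ* Mc n c + OR n (η cu) + η .ei
  | .eu => -(η eu ᵥ* Mc n c)
  | .ei => η cu ᵥ* yB n - η cu ᵥ* xB n - η .ei ᵥ* Mc n c - OR n (η eu)
  | .px => η px ᵥ* Mc n c + η qx
  | .pz => η pz ᵥ* Mc n c + η qz
  | .qx => -(η qx ᵥ* Mc n c)
  | .qz => -(η qz ᵥ* Mc n c)
  | .ru => η ru ᵥ* Mc n c
  | .ri => η ri ᵥ* Mc n c + OR n (η ru) + (η .sx - η sz)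
  | .sx => η ru - η ru ᵥ* xB n - η .sx ᵥ* Mc n c
  | .sz => η ru - η ru ᵥ* yB n - η sz ᵥ* Mc n c

noncomputable def colF (c : ℕ) (t : Cmp → AA n → R) : Cmp → AA n → R
  | .au => Mc n c *ᵥ t au
  | .ai => Mc n c *ᵥ t ai + OC n (t au) + (yB n *ᵥ t cu - xB n *ᵥ t cu)
  | .bx => Mc n c *ᵥ t bx + (t eu - xB n *ᵥ t eu)
  | .bz => Mc n c *ᵥ t bz + (t eu - yB n *ᵥ t eu)
  | .cu => t au - Mc n c *ᵥ t cu
  | .ci => t ai - Mc n c *ᵥ t ci - OC n (t cu)
  | .eu => -(Mc n c *ᵥ t eu)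
  | .ei => t bx - t bz - Mc n c *ᵥ t .ei - OC n (t eu)
  | .px => Mc n c *ᵥ t px + (t ru - xB n *ᵥ t ru)
  | .pz => Mc n c *ᵥ t pz + (t ru - yB n *ᵥ t ru)
  | .qx => Mc n c *ᵥ t qx
  | .qz => Mc n c *ᵥ t qz
  | .ru => -(Mc n c *ᵥ t ru)
  | .ri => t px - t pz - Mc n c *ᵥ t ri - OC n (t ru)
  | .sx => t qx - Mc n c *ᵥ t .sx
  | .sz => t qz - Mc n c *ᵥ t sz

theorem th_Mc' (i : Fin 2) (c : ℕ) (g g' : AA n) : th i (Mc n c g g') = th i (dB n g g') :=
  congrFun (congrFun (th_Mc i c) g) g'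

theorem th_one' (i : Fin 2) (g g' : AA n) : th i ((1 : MA n) g g') = 0 := by
  rw [one_apply]; split_ifs <;> simp [th_one]

theorem sum_one_r (f : AA n → R) (g : AA n) : ∑ g', f g' * (1 : MA n) g' g = f g :=
  congrFun (vecMul_one f) g

theorem sum_one_l (f : AA n → R) (g : AA n) : ∑ g', (1 : MA n) g g' * f g' = f g :=
  congrFun (one_mulVec f) g

theorem row_D (c : ℕ) (η : AA n → TT) (k : Cmp) : cmp (η ᵥ* DD n c) k = rowF c (cmp η) k := by
  funext g
  cases k <;> simp only [cmp, rowF, row_sum, TT.sum_c, TT.mul_c, mulF, DD, of_apply, mkG, mul_zero,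
    add_zero, zero_add, map_zero, Finset.sum_add_distrib, Pi.add_apply, Pi.sub_apply, Pi.neg_apply,
    OR_apply, map_apply, th_Mc', th_one', Matrix.sub_apply, mul_sub, sub_mul, mul_neg, map_neg,
    Finset.sum_sub_distrib, Finset.sum_neg_distrib, sum_one_r, sub_zero] <;> abel

theorem col_D (c : ℕ) (t : AA n → TT) (k : Cmp) : cmp (DD n c *ᵥ t) k = colF c (cmp t) k := by
  funext g
  cases k <;> simp only [cmp, colF, col_sum, TT.sum_c, TT.mul_c, mulF, DD, of_apply, mkG, zero_mul,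
    add_zero, zero_add, map_zero, Finset.sum_add_distrib, Pi.add_apply, Pi.sub_apply, Pi.neg_apply,
    OC_apply, map_apply, th_Mc', th_one', Matrix.sub_apply, mul_sub, sub_mul, neg_mul, map_neg,
    Finset.sum_sub_distrib, Finset.sum_neg_distrib, sum_one_l, sub_zero] <;> abel

open Classical in
noncomputable def ek (k : ℕ) (g : AA n) : TT := if P1 k g then e1 else if P2 k g then e2 else 0

def PC (k : ℕ) (c : Cmp) (g : AA n) : Prop := if isC c then P1 k g else P2 k g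
def PR (k : ℕ) (c : Cmp) (g : AA n) : Prop := if isR c then P1 k g else P2 k g

open Classical in
theorem mul_ek (a : TT) (k : ℕ) (g : AA n) (c : Cmp) :
    (a * ek k g) c = if PC k c g then a c else 0 := by
  have : ¬(P1 k g ∧ P2 k g) := by unfold P1 P2; omega
  unfold ek PC
  by_cases h1 : P1 k g <;> by_cases h2 : P2 k g <;> cases h : isC c <;>
    simp_all [mul_e1, mul_e2, TT.zero_c]

open Classical in
theorem ek_mul (a : TT) (k : ℕ) (g : AA n) (c : Cmp) :
    (ek k g * a) c = if PR k c g then a c else 0 := by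
  have : ¬(P1 k g ∧ P2 k g) := by unfold P1 P2; omega
  unfold ek PR
  by_cases h1 : P1 k g <;> by_cases h2 : P2 k g <;> cases h : isR c <;>
    simp_all [e1_mul, e2_mul, TT.zero_c]

theorem mul_ek_iff {a : TT} {k : ℕ} {g : AA n} : a * ek k g = a ↔ ∀ c, ¬PC k c g → a c = 0 :=
  ⟨fun h c hc => by rw [← h, mul_ek, if_neg hc], fun h => TT.ext fun c => by
    rw [mul_ek]; split_ifs with e
    exacts [rfl, (h c e).symm]⟩

theorem ek_mul_iff {a : TT} {k : ℕ} {g : AA n} : ek k g * a = a ↔ ∀ c, ¬PR k c g → a c = 0 :=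
  ⟨fun h c hc => by rw [← h, ek_mul, if_neg hc], fun h => TT.ext fun c => by
    rw [ek_mul]; split_ifs with e
    exacts [rfl, (h c e).symm]⟩

theorem ek_ek (k : ℕ) (g : AA n) : ek k g * ek k g = ek k g := TT.ext fun c => by
  have := mul_ek 1 k g c
  rw [one_mul] at this
  rw [mul_ek, this]; split_ifs <;> rfl

theorem ek_mem (k : ℕ) (g : AA n) : ek k g ∈ GY false 0 0 := by
  unfold ek; split_ifs
  exacts [e1_mem, e2_mem, zero_mem _]

noncomputable def Dk (n k : ℕ) : Matrix (AA n) (AA n) TT :=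
  of fun g g' => DD n (k / 2) g g' * ek k g'

theorem Dk_ek (k : ℕ) (g g' : AA n) : Dk n k g g' * ek k g' = Dk n k g g' := by
  rw [Dk, of_apply, mul_assoc, ek_ek]

theorem Mc_ne {c : ℕ} {g g' : AA n} (h : Mc n c g g' ≠ 0) :
    hd g.1 = hd g'.1 + 1 ∨ (hd g.1 = 3 ∧ hd g'.1 = 0 ∧ c ≠ 0) := by
  by_contra hc
  apply h
  have := hd_le g.1
  rw [Mc, Matrix.add_apply, dz g g' (by omega), Matrix.smul_apply, zero_add]
  by_cases e : c = 0
  · simp [e]
  · rw [ez g g' (by omega), smul_zero]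

theorem one_ne' {g g' : AA n} (h : (1 : MA n) g g' ≠ 0) : hd g.1 = hd g'.1 := by
  by_contra hc
  exact h (one_apply_ne fun e => hc (by rw [e]))

theorem ox_ne {X : MA n} (hX : ∀ g g' : AA n, hd g.1 ≠ hd g'.1 + 2 → X g g' = 0) {g g' : AA n}
    (h : (1 - X) g g' ≠ 0) : hd g.1 = hd g'.1 ∨ hd g.1 = hd g'.1 + 2 := by
  by_contra hc
  apply h
  rw [Matrix.sub_apply, hX g g' (by omega), sub_zero]
  by_contra e
  exact hc (Or.inl (one_ne' e))

theorem ek_Dk (k : ℕ) (g g' : AA n) : ek (k + 1) g * Dk n k g g' = Dk n k g g' := by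
  rw [ek_mul_iff]
  intro c hc
  rw [Dk, of_apply, mul_ek]
  split_ifs with h
  swap; · rfl
  by_contra e
  cases c <;> simp only [DD, of_apply, mkG, not_true, neg_eq_zero] at e <;>
    simp only [PC, PR, isC, isR, P1, P2, if_true, Bool.false_eq_true, if_false] at h hc
  · have := Mc_ne e; omega
  · have := ox_ne xz e; omega
  · have := ox_ne yz e; omega
  · have := one_ne' e; omega
  · have := Mc_ne e; omega

theorem row_Dk (k : ℕ) (η : AA n → TT) (g : AA n) :
    (η ᵥ* Dk n k) g = (η ᵥ* DD n (k / 2)) g * ek k g := by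
  simp only [row_sum, Dk, of_apply, Finset.sum_mul, mul_assoc]

theorem col_Dk (k : ℕ) {t : AA n → TT} (h : ∀ g, ek k g * t g = t g) :
    Dk n k *ᵥ t = DD n (k / 2) *ᵥ t := by
  funext g; simp only [col_sum, Dk, of_apply, mul_assoc, h]

theorem Dk_Dk (k : ℕ) : Dk n (k + 1) * Dk n k = 0 := by
  ext g g'
  have e1 : (Dk n (k + 1) * Dk n k) g g' = (DD n ((k + 1) / 2) g ᵥ* Dk n k) g' := by
    simp only [mul_apply, row_sum]
    refine Finset.sum_congr rfl fun h _ => ?_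
    rw [Dk, of_apply, mul_assoc, ek_Dk]
  have r : ∀ X Y : MA n, X g ᵥ* Y = (X * Y) g := fun _ _ => rfl
  have o : ∀ c, OR n (Mc n c g) = (xB n - yB n) g := fun c => by
    rw [← th_dB, ← r, OR_apply]; congr 1; funext h; exact th_Mc' _ _ _ _
  have c1 : cmp (DD n ((k + 1) / 2) g) = fun c => match c with
      | .au => Mc n ((k + 1) / 2) g | .bx => (1 - xB n) g | .bz => (1 - yB n) g | .cu => (1 : MA n) g
      | .eu => -Mc n ((k + 1) / 2) g | _ => 0 := by
    funext c; cases c <;> rfl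
  have ee : ∀ c c' : ℕ, (c = c' + 1 ∨ hd g'.1 ≠ 0) → Mc n c g g' - Mc n c' g g' = eB n g g' := by
    intro c c' h
    simp only [Mc, Matrix.add_apply, Matrix.smul_apply, add_sub_add_left_eq_sub, ← sub_smul]
    rcases h with h | h
    · simp [h]
    · rw [ez g g' (by have := hd_le g.1; omega), smul_zero]
  rw [e1, row_Dk]
  refine TT.ext fun c => ?_
  rw [mul_ek]
  split_ifs with h
  swap; · rfl
  have := congrFun (row_D (k / 2) (DD n ((k + 1) / 2) g) c) g'
  rw [c1] at this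
  refine this.trans ?_
  have o1 : OR n ((1 : MA n) g) = 0 := by
    rw [OR_apply, show (fun h => th 0 ((1 : MA n) g h)) = 0 from funext fun h => th_one' _ _ _,
      zero_vecMul]
  cases c <;> simp only [rowF, r, Mc_Mc, o, o1, zero_vecMul, map_zero, neg_vecMul, map_neg,
    Pi.add_apply, Pi.sub_apply, Pi.neg_apply, Pi.zero_apply, Matrix.zero_apply, TT.zero_c,
    Matrix.sub_apply, sub_mul, one_mul, neg_zero, add_zero, sub_zero] <;>
    simp only [PC, isC, P1, P2, if_true, Bool.false_eq_true, if_false] at h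
  · abel
  · have h1 := congrFun (congrFun (Mc_x (n := n) ((k + 1) / 2) (k / 2)) g) g'
    rw [Matrix.sub_apply] at h1
    linear_combination (norm := abel) ee ((k + 1) / 2) (k / 2) (by omega) - h1
  · have h1 := congrFun (congrFun (Mc_y (n := n) ((k + 1) / 2) (k / 2)) g) g'
    rw [Matrix.sub_apply] at h1
    linear_combination (norm := abel) ee ((k + 1) / 2) (k / 2) (by omega) - h1
  · by_cases e : (k + 1) / 2 = k / 2
    · rw [e]; abel
    · linear_combination (norm := abel) ee (k / 2) (k / 2) (by omega) - ee ((k + 1) / 2) (k / 2) (by omega)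
  · abel

theorem Dk_mem (k : ℕ) (g g' : AA n) : Dk n k g g' ∈
    GY false (io g.1 (par g.2) - io g'.1 (par g'.2)) (wo g.1 (par g.2) - wo g'.1 (par g'.2)) := by
  have h1 : ∀ ι₀ ι₁, (1 : MA n) g g' ∈ Sp ι₀ ι₁ (io g.1 (par g.2) - io g'.1 (par g'.2))
      (wo g.1 (par g.2) - wo g'.1 (par g'.2)) := fun _ _ => by
    rw [one_apply]; split_ifs with h
    · rw [h, sub_self, sub_self]; exact one_mem_Sp le_rfl
    · exact zero_mem _
  refine GG_mul (by omega) (by omega) (mem_G.mpr ⟨⟨Mc_mem _ g g', zero_mem _, ?_, ?_, h1 _ _,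
    zero_mem _, neg_mem (Mc_mem _ g g'), zero_mem _⟩, rfl, rfl, rfl, rfl, rfl, rfl, rfl, rfl⟩)
    (ek_mem k g')
  · exact sub_mem (h1 _ _) (Sp_to (Ent_x g g').1 (by simp) rfl)
  · exact sub_mem (h1 _ _) (Sp_to (Ent_y g g').1 (by simp) rfl)

end Vale.Agent.P195
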