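import Vale.Agent.P195.TD

namespace Vale.Agent.P195

open Matrix Cmp

variable {n : ℕ}

def Tm (y : Bool) (P W : AA n → ℤ) (η : AA n → TT) : Prop := ∀ g, η g ∈ GY y (P g) (W g)

theorem Tm_G {P W : AA n → ℤ} {η : AA n → TT} : Tm false P W η ↔ (Fm False False P W (cmp η au) ∧
    Fm True True P W (cmp η ai) ∧ Fm True False P W (cmp η bx) ∧ Fm False True P W (cmp η bz) ∧
    Fm False False P W (cmp η cu) ∧ Fm True True P W (cmp η ci) ∧ Fm False False P W (cmp η eu) ∧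
    Fm True True P W (cmp η .ei)) ∧ cmp η px = 0 ∧ cmp η pz = 0 ∧ cmp η qx = 0 ∧ cmp η qz = 0 ∧
    cmp η ru = 0 ∧ cmp η ri = 0 ∧ cmp η .sx = 0 ∧ cmp η sz = 0 := by
  simp only [Tm, mem_G, Fm, cmp, funext_iff, forall_and, Pi.zero_apply]

theorem Tm_Y {P W : AA n → ℤ} {η : AA n → TT} : Tm true P W η ↔ (cmp η au = 0 ∧ cmp η ai = 0 ∧
    cmp η bx = 0 ∧ cmp η bz = 0 ∧ cmp η cu = 0 ∧ cmp η ci = 0 ∧ cmp η eu = 0 ∧ cmp η .ei = 0) ∧
    Fm True False P W (cmp η px) ∧ Fm False True P W (cmp η pz) ∧ Fm True False P W (cmp η qx) ∧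
    Fm False True P W (cmp η qz) ∧ Fm False False P W (cmp η ru) ∧ Fm True True P W (cmp η ri) ∧
    Fm True False P W (cmp η .sx) ∧ Fm False True P W (cmp η sz) := by
  simp only [Tm, mem_Y, Fm, cmp, funext_iff, forall_and, Pi.zero_apply]

def unc (F : Cmp → AA n → R) : AA n → TT := fun g c => F c g

theorem cmp_unc (F : Cmp → AA n → R) : cmp (unc F) = F := rfl

def uc (y : Bool) : Cmp := if y then ru else au

theorem rowT (hn : n ≠ 0) (y : Bool) (k q : ℕ) {w : ℤ} (h0 : 0 ≤ w) (h2 : w ≤ 2) {η : AA n → TT}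
    (hη : Tm y (rP q) (rW w) η) (hl : ∀ g, η g * ek k g = η g)
    (e0 : k = 0 → ∑ g, act (η g (uc y)) (bA g) = 0) (e1 : ∀ k', k = k' + 1 → η ᵥ* Dk n k' = 0) :
    ∃ ζ, Tm y (rP q) (rW w) ζ ∧ η = ζ ᵥ* Dk n k := by
  have sp : ∀ c, Sup (PC k c) (cmp η c) := fun c g h => mul_ek_iff.mp (hl g) c h
  have cy : ∀ c g, (if isC c then P2 k g else P3 k g) → rowF ((k - 1) / 2) (cmp η) c g = 0 := by
    intro c g h
    rcases k with _ | k
    · unfold P2 P3 at h; split_ifs at h <;> omega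
    · have := congrFun (congrFun (e1 k rfl) g) c
      rw [row_Dk, mul_ek, if_pos (by unfold PC P1 P2 P3 at *; split_ifs at * <;> omega)] at this
      rw [← row_D]; exact this
  have fin : ∀ F : Cmp → AA n → R, (∀ c g, PC k c g → η g c = rowF (k / 2) F c g) →
      η = unc F ᵥ* Dk n k := fun F h => funext fun g => TT.ext fun c => by
    rw [row_Dk, mul_ek]; split_ifs with e
    · rw [h c g e]; exact (congrFun (row_D _ (unc F) c) g).symm
    · exact sp c g e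
  have ci' := (stR (n := n) k 0 h0).ci
  simp only [rowL_apply] at ci'
  cases y
  · obtain ⟨⟨a1, a2, a3, a4, a5, a6, a7, a8⟩, a9, a10, a11, a12, a13, a14, a15, a16⟩ := Tm_G.mp hη
    obtain ⟨r, X, X', g1, g2, g3, g4, g5, g6⟩ := rowStair hn k q h0 h2 a1 a2 a3 a4 (sp au) (sp ai)
      (sp bx) (sp bz) e0 (cy au) (cy ai) (cy bx)
    refine ⟨unc fun c => match c with
      | .au => r | .bx => X | .bz => X' | .eu => cmp η cu | .ei => cmp η ci | _ => 0,
      Tm_G.mpr ⟨⟨g1, .zero, g2, g3, .zero, .zero, a5, a6⟩, rfl, rfl, rfl, rfl, rfl, rfl, rfl, rfl⟩,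
      fin _ fun c g h => ?_⟩
    change cmp η c g = _
    cases c <;> simp only [rowF, zero_vecMul, map_zero, zero_add, a9, a10, a11, a12, a13, a14, a15,
      a16, add_zero, neg_zero, sub_zero, zero_sub]
    · rw [g4]
    · rw [g5]
    · exact (g6 g h).1
    · exact (g6 g h).2
    · rw [← ci' _ (sp cu)]; exact eq_neg_of_add_eq_zero_right (cy cu g h)
    · have := cy ci g h
      simp only [rowF, Pi.add_apply] at this
      rw [← ci' _ (sp ci), Pi.sub_apply, Pi.neg_apply]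
      linear_combination (norm := abel) this
  · obtain ⟨⟨a1, a2, a3, a4, a5, a6, a7, a8⟩, a9, a10, a11, a12, a13, a14, a15, a16⟩ := Tm_Y.mp hη
    obtain ⟨r, X, X', g1, g2, g3, g4, g5, g6⟩ := rowStair hn k q h0 h2 a13 a14 a15 a16 (sp ru)
      (sp ri) (sp .sx) (sp sz) e0 (cy ru) (cy ri) (cy .sx)
    refine ⟨unc fun c => match c with
      | .ru => r | .sx => X | .sz => X' | .qx => cmp η px | .qz => cmp η pz | _ => 0,
      Tm_Y.mpr ⟨⟨rfl, rfl, rfl, rfl, rfl, rfl, rfl, rfl⟩, .zero, .zero, a9, a10, g1, .zero, g2, g3⟩,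
      fin _ fun c g h => ?_⟩
    change cmp η c g = _
    cases c <;> simp only [rowF, zero_vecMul, map_zero, zero_add, a1, a2, a3, a4, a5, a6, a7,
      a8, add_zero, neg_zero, sub_zero, zero_sub]
    · rw [← ci' _ (sp px)]; exact eq_neg_of_add_eq_zero_right (cy px g h)
    · rw [← ci' _ (sp pz)]; exact eq_neg_of_add_eq_zero_right (cy pz g h)
    · rw [g4]
    · rw [g5]
    · exact (g6 g h).1
    · exact (g6 g h).2

/-- the diagonal copy of the Weyl part -/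
noncomputable def xiF (y : Bool) (τ : AA n → R) : Cmp → AA n → R
  | .bx | .bz => if y then 0 else τ
  | .px | .pz => if y then τ else 0
  | _ => 0

noncomputable def xT (y : Bool) (τ : AA n → R) : AA n → TT := unc (xiF y τ)

theorem cmp_ext {η ζ : AA n → TT} (h : ∀ c, cmp η c = cmp ζ c) : η = ζ :=
  funext fun g => TT.ext fun c => congrFun (h c) g

theorem D_xT (c : ℕ) (y : Bool) (τ : AA n → R) : DD n c *ᵥ xT y τ = xT y (Mc n c *ᵥ τ) :=
  cmp_ext fun k => by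
    rw [col_D]
    cases y <;> cases k <;> simp [xT, cmp_unc, colF, xiF]

theorem xT_mem (y : Bool) {P W : AA n → ℤ} {τ : AA n → R} (h : Fm False False P W τ) :
    Tm y P W (xT y τ) := by
  cases y
  · exact Tm_G.mpr ⟨⟨.zero, .zero, h.to, h.to, .zero, .zero, .zero, .zero⟩, rfl, rfl, rfl, rfl, rfl,
      rfl, rfl, rfl⟩
  · exact Tm_Y.mpr ⟨⟨rfl, rfl, rfl, rfl, rfl, rfl, rfl, rfl⟩, h.to, h.to, .zero, .zero, .zero, .zero,
      .zero, .zero⟩

theorem xT_lev (y : Bool) {k : ℕ} {τ : AA n → R} (h : Only k τ) (g : AA n) :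
    ek k g * xT y τ g = xT y τ g := by
  rw [ek_mul_iff]
  intro c hc
  have : hd g.1 ≠ k ∨ isR c = false := by
    by_contra e
    apply hc
    simp only [not_or, not_not, Bool.not_eq_false] at e
    simp only [PR, e.2, if_true, P1]; omega
  rcases this with e | e
  · cases y <;> cases c <;> simp [xT, unc, xiF, h g e]
  · cases y <;> cases c <;> simp [xT, unc, xiF, isR] at e ⊢

theorem xT_inj (y : Bool) {τ σ : AA n → R} (h : xT y τ = xT y σ) : τ = σ := by
  cases y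
  · exact congrArg (cmp · bx) h
  · exact congrArg (cmp · px) h

theorem xT_zero (y : Bool) : xT y (0 : AA n → R) = 0 :=
  cmp_ext fun k => by cases y <;> cases k <;> rfl

theorem colT (y : Bool) (k : ℕ) (q : ℤ) {w : ℤ} (h0 : -1 ≤ w) {t : AA n → TT}
    (ht : Tm y (cP q) (cW w) t) (hl : ∀ g, ek k g * t g = t g) {τ : AA n → R}
    (oτ : Only (k + 1) τ) (e : DD n (k / 2) *ᵥ t = xT y τ) :
    ∃ s ρ, Tm y (cP q) (cW w) s ∧ (∀ c g, ¬(if isR c then P2 k g else P3 k g) → s g c = 0) ∧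
      Fm False False (cP q) (cW w) ρ ∧ Only k ρ ∧ t = DD n ((k - 1) / 2) *ᵥ s + xT y ρ := by
  have sp : ∀ c, Sup (PR k c) (cmp t c) := fun c g h => ek_mul_iff.mp (hl g) c h
  have cy : ∀ c, colF (k / 2) (cmp t) c = xiF y τ c := fun c => by rw [← col_D, e]; rfl
  have fin : ∀ (F : Cmp → AA n → R) ρ, (∀ c, cmp t c = colF ((k - 1) / 2) F c + xiF y ρ c) →
      t = DD n ((k - 1) / 2) *ᵥ unc F + xT y ρ := fun F ρ h => cmp_ext fun c => by
    rw [h, ← cmp_unc F, ← col_D]; rfl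
  have ci' := (stC (n := n) k 0 h0).ci
  simp only [LinearMap.neg_apply, colL_apply, neg_inj] at ci'
  cases y
  · obtain ⟨⟨a1, a2, a3, a4, a5, a6, a7, a8⟩, a9, a10, a11, a12, a13, a14, a15, a16⟩ := Tm_G.mp ht
    obtain ⟨r, X, X', ρ, g1, g2, g3, g4, g5, g6, g7, g8, g9, g10, g11, g12⟩ := colStair k q h0 a7 a8
      a3 a4 (sp eu) (sp .ei) (sp bx) (cy .ei) fun g hg =>
        (congrFun (cy bx) g).trans (oτ g (by omega))
    refine ⟨unc fun c => match c with
      | .eu => r | .bx => X | .bz => X' | .au => cmp t cu | .ai => cmp t ci | _ => 0, ρ,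
      Tm_G.mpr ⟨⟨a5, a6, g2, g3, .zero, .zero, g1, .zero⟩, rfl, rfl, rfl, rfl, rfl, rfl, rfl, rfl⟩,
      fun c g h => ?_, g4, g8, fin _ _ fun c => ?_⟩
    · cases c <;> first | rfl | skip
      exacts [sp cu g h, sp ci g h, g6 g h, g7 g h, g5 g h]
    · cases c <;> simp only [colF, xiF, mulVec_zero, map_zero, zero_add, a9, a10, a11, a12, a13,
        a14, a15, a16, add_zero, neg_zero, sub_zero, ite_self, Bool.false_eq_true, if_false]
      · rw [← ci' _ (sp cu)]; exact sub_eq_zero.mp (cy cu)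
      · have := cy ci
        simp only [colF, xiF] at this
        rw [← ci' _ (sp ci)]
        linear_combination (norm := abel) this
      exacts [g11, g12, g9, g10]
  · obtain ⟨⟨a1, a2, a3, a4, a5, a6, a7, a8⟩, a9, a10, a11, a12, a13, a14, a15, a16⟩ := Tm_Y.mp ht
    obtain ⟨r, X, X', ρ, g1, g2, g3, g4, g5, g6, g7, g8, g9, g10, g11, g12⟩ := colStair k q h0 a13
      a14 a9 a10 (sp ru) (sp ri) (sp px) (cy ri) fun g hg =>
        (congrFun (cy px) g).trans (oτ g (by omega))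
    refine ⟨unc fun c => match c with
      | .ru => r | .px => X | .pz => X' | .qx => cmp t .sx | .qz => cmp t sz | _ => 0, ρ,
      Tm_Y.mpr ⟨⟨rfl, rfl, rfl, rfl, rfl, rfl, rfl, rfl⟩, g2, g3, a15, a16, g1, .zero, .zero, .zero⟩,
      fun c g h => ?_, g4, g8, fin _ _ fun c => ?_⟩
    · cases c <;> first | rfl | skip
      exacts [g6 g h, g7 g h, sp .sx g h, sp sz g h, g5 g h]
    · cases c <;> simp only [colF, xiF, mulVec_zero, map_zero, zero_add, a1, a2, a3, a4, a5,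
        a6, a7, a8, add_zero, neg_zero, sub_zero, ite_self, if_true]
      · exact g11
      · exact g12
      · rw [← ci' _ (sp .sx)]; exact sub_eq_zero.mp (cy .sx)
      · rw [← ci' _ (sp sz)]; exact sub_eq_zero.mp (cy sz)
      exacts [g9, g10]

theorem Tm.add {y : Bool} {P W : AA n → ℤ} {s t : AA n → TT} (hs : Tm y P W s) (ht : Tm y P W t) :
    Tm y P W (s + t) := fun g => Submodule.add_mem _ (hs g) (ht g)

/-- a column whose coboundary is diagonal is diagonal up to a coboundary -/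
theorem colT' (y : Bool) (k : ℕ) (q : ℤ) {w : ℤ} (h0 : -1 ≤ w) {t : AA n → TT}
    (ht : Tm y (cP q) (cW w) t) (hl : ∀ g, ek (k + 1) g * t g = t g) {τ : AA n → R}
    (oτ : Only (k + 2) τ) (e : Dk n (k + 1) *ᵥ t = xT y τ) :
    ∃ s ρ, Tm y (cP q) (cW w) s ∧ Fm False False (cP q) (cW w) ρ ∧ Only (k + 1) ρ ∧
      t = Dk n k *ᵥ s + xT y ρ ∧ τ = dB n *ᵥ ρ := by
  have e' := e
  rw [col_Dk _ hl] at e'
  obtain ⟨s, ρ, h1, h2, h3, h4, h5⟩ := colT y (k + 1) q h0 ht hl oτ e'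
  have h6 : Dk n k *ᵥ s = DD n ((k + 1 - 1) / 2) *ᵥ s := col_Dk _ fun g => ek_mul_iff.mpr fun c hc =>
    h2 c g fun h => hc (by unfold PR P1 P2 P3 at *; split_ifs at * <;> omega)
  rw [← h6] at h5
  refine ⟨s, ρ, h1, h3, h4, h5, xT_inj y ?_⟩
  rw [← e, h5, mulVec_add, mulVec_mulVec, Dk_Dk, zero_mulVec, zero_add, col_Dk _ (xT_lev y h4), D_xT,
    col_Mc, col_eB fun g hg => h4 g (by omega), smul_zero, add_zero]

theorem colT0 (y : Bool) {q : ℕ} (hq : q ≤ 2) {w : ℤ} (h0 : -1 ≤ w) (h2 : w ≤ 1) {t : AA n → TT}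
    (ht : Tm y (cP q) (cW w) t) (hl : ∀ g, ek 0 g * t g = t g) (e : Dk n 0 *ᵥ t = 0) : t = 0 := by
  have e' := e
  rw [col_Dk _ hl, ← xT_zero y] at e'
  obtain ⟨s, ρ, h1, h8, h3, h4, h5⟩ := colT y 0 q h0 ht hl (fun _ _ => rfl) e'
  have hs : s = 0 := funext fun g => TT.ext fun c => h8 c g (by
    unfold P2 P3; split_ifs <;> omega)
  rw [hs, mulVec_zero, zero_add] at h5
  rw [h5, D_xT, col_Mc] at e'
  obtain ⟨z, -, h6, h7⟩ := col_exact hq h0 h2 (by omega) h3 h4 (by simpa using xT_inj y e')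
  rw [h5, h7, show z = 0 from funext fun g => h6 g (by omega), mulVec_zero, xT_zero]

theorem xT_d (y : Bool) {k : ℕ} (hk : k ≤ 2) {z : AA n → R} (h : Only k z) :
    Dk n k *ᵥ xT y z = xT y (dB n *ᵥ z) := by
  rw [col_Dk _ (xT_lev y h), D_xT, col_Mc]
  by_cases e : k = 0
  · simp [e]
  · rw [col_eB fun g hg => h g (by omega), smul_zero, add_zero]

theorem colTS (y : Bool) {k q : ℕ} (hk : k ≠ 2) (hq : q ≤ 2) {w : ℤ} (h0 : -1 ≤ w) (h2 : w ≤ 1)
    {t : AA n → TT} (ht : Tm y (cP q) (cW w) t) (hl : ∀ g, ek (k + 1) g * t g = t g)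
    (e : Dk n (k + 1) *ᵥ t = 0) : ∃ s, Tm y (cP q) (cW w) s ∧ t = Dk n k *ᵥ s := by
  obtain ⟨s, ρ, h1, h3, h4, h5, h6⟩ := colT' y k q h0 ht hl (τ := 0) (fun _ _ => rfl)
    (by rw [e, xT_zero])
  by_cases hk' : k ≤ 1
  · obtain ⟨z, h7, h8, h9⟩ := col_exact hq h0 h2 (by omega) h3 h4 h6.symm
    refine ⟨s + xT y z, h1.add (xT_mem y h7), ?_⟩
    rw [mulVec_add, xT_d y (by omega) fun g hg => h8 g (by omega), ← h9, ← h5]
  · refine ⟨s, h1, ?_⟩
    rw [h5, show ρ = 0 from funext fun g => h4 g (by have := hd_le g.1; omega), xT_zero, add_zero]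

end Vale.Agent.P195
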