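import Vale.Agent.P195.Stair

namespace Vale.Agent.P195

open Matrix

variable {n : ℕ}

noncomputable def Mc (n : ℕ) (c : ℕ) : MA n := dB n + (c : ℚ) • eB n

def P1 (k : ℕ) (g : AA n) : Prop := hd g.1 ≤ k ∧ hd g.1 % 2 = k % 2
def P2 (k : ℕ) (g : AA n) : Prop := hd g.1 + 1 ≤ k ∧ (hd g.1 + 1) % 2 = k % 2
def P3 (k : ℕ) (g : AA n) : Prop := hd g.1 + 2 ≤ k ∧ hd g.1 % 2 = k % 2

theorem hd_le (σ : Fin 6) : hd σ ≤ 3 := by have := hd_rev σ; omega

theorem dz : ∀ g g' : AA n, hd g.1 ≠ hd g'.1 + 1 → dB n g g' = 0 :=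
  (Ent_d (ι₀ := False) (ι₁ := False)).z
theorem ez : ∀ g g' : AA n, hd g.1 ≠ hd g'.1 + 3 → eB n g g' = 0 :=
  (Ent_e (ι₀ := False) (ι₁ := False)).z
theorem xz : ∀ g g' : AA n, hd g.1 ≠ hd g'.1 + 2 → xB n g g' = 0 := (Ent_x (ι₁ := False)).z
theorem yz : ∀ g g' : AA n, hd g.1 ≠ hd g'.1 + 2 → yB n g g' = 0 := (Ent_y (ι₀ := False)).z
theorem tz (i : Fin 2) : ∀ g g' : AA n, hd g.1 ≠ hd g'.1 + 1 → (dB n).map (th i) g g' = 0 :=
  fun g g' h => by rw [map_apply, dz g g' h, map_zero]

theorem Ent_th (i : Fin 2) : Ent True True 0 1 ((dB n).map (th i)) := fun g g' =>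
  ⟨th_mem i (by induction i using all2; exacts [xi0_mem, xi1_mem]) (Ent_d g g').1, tz i g g'⟩

theorem Mc_Mc (c c' : ℕ) : Mc n c * Mc n c' = 0 := by
  simp [Mc, add_mul, mul_add, dB_dB, dB_eB, eB_dB, eB_eB]

theorem Mc_x (c c' : ℕ) : Mc n c * xB n - xB n * Mc n c' = eB n := by
  simp [Mc, add_mul, mul_add, eB_xB, xB_eB, dB_xB]

theorem Mc_y (c c' : ℕ) : Mc n c * yB n - yB n * Mc n c' = eB n := by
  simp [Mc, add_mul, mul_add, eB_yB, yB_eB, dB_yB]

theorem th_Mc (i : Fin 2) (c : ℕ) : (Mc n c).map (th i) = (dB n).map (th i) := by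
  ext g g'
  have := congrFun (congrFun (th_eB (n := n) i) g) g'
  rw [map_apply] at this
  simp only [map_apply, Mc, Matrix.add_apply, Matrix.smul_apply, map_add, map_smul, this]
  simp

theorem Mc_th (i : Fin 2) (c c' : ℕ) :
    (dB n).map (th i) * Mc n c + Mc n c' * (dB n).map (th i) = 0 := by
  have := map_th_mul i (Mc n c') (Mc n c)
  rw [Mc_Mc, th_Mc, th_Mc] at this
  rw [← this]
  ext; simp

theorem row_Mc (c : ℕ) (y : AA n → R) : y ᵥ* Mc n c = y ᵥ* dB n + (c : ℚ) • y ᵥ* eB n := by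
  funext g; simp [row_sum, Mc, mul_add, Finset.sum_add_distrib, Finset.smul_sum]

theorem col_Mc (c : ℕ) (y : AA n → R) : Mc n c *ᵥ y = dB n *ᵥ y + (c : ℚ) • eB n *ᵥ y := by
  funext g; simp [col_sum, Mc, add_mul, Finset.sum_add_distrib, Finset.smul_sum]

theorem rowM_zero {c : ℕ} {y : AA n → R} {g' : AA n} (h1 : ∀ g, hd g.1 = hd g'.1 + 1 → y g = 0)
    (h3 : c = 0 ∨ ∀ g, hd g.1 = hd g'.1 + 3 → y g = 0) : (y ᵥ* Mc n c) g' = 0 := by
  rw [row_Mc, Pi.add_apply, row_zero dz h1, Pi.smul_apply]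
  rcases h3 with h | h
  · simp [h]
  · simp [row_zero ez h]

theorem colM_zero {c : ℕ} {y : AA n → R} {g : AA n} (h1 : ∀ g', hd g.1 = hd g'.1 + 1 → y g' = 0)
    (h3 : c = 0 ∨ ∀ g', hd g.1 = hd g'.1 + 3 → y g' = 0) : (Mc n c *ᵥ y) g = 0 := by
  rw [col_Mc, Pi.add_apply, col_zero dz h1, Pi.smul_apply]
  rcases h3 with h | h
  · simp [h]
  · simp [col_zero ez h]

theorem Mc_mem {ι₀ ι₁ : Prop} (c : ℕ) (g g' : AA n) : Mc n c g g' ∈
    Sp ι₀ ι₁ (io g.1 (par g.2) - io g'.1 (par g'.2)) (wo g.1 (par g.2) - wo g'.1 (par g'.2)) :=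
  add_mem (Sp_to (Ent_d g g').1 (by simp) rfl)
    (Submodule.smul_mem _ _ (Sp_to (Ent_e g g').1 (by simp) rfl))

section
variable {ι₀ ι₁ : Prop} {q w : ℤ} {k : ℕ} {X : MA n} {y : AA n → R}

theorem Fm.row (hy : Fm ι₀ ι₁ (rP q) (rW w) y) (hX : Ent ι₀ ι₁ 0 k X) :
    Fm ι₀ ι₁ (rP q) (rW w) (y ᵥ* X) := fun _ =>
  row_mem hX hy (fun g => by simp only [rP, Pi.zero_apply]; omega) fun g => by simp only [rW]; omega

theorem Fm.col (hy : Fm ι₀ ι₁ (cP q) (cW w) y) (hX : Ent ι₀ ι₁ 0 k X) :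
    Fm ι₀ ι₁ (cP q) (cW w) (X *ᵥ y) := fun _ =>
  col_mem hX hy (fun g => by simp only [cP, Pi.zero_apply]; omega) fun g => by simp only [cW]; omega

theorem Fm.smul {P W : AA n → ℤ} (hy : Fm ι₀ ι₁ P W y) (c : ℚ) : Fm ι₀ ι₁ P W (c • y) :=
  fun g => Submodule.smul_mem _ c (hy g)

theorem Fm.rowM (hy : Fm ι₀ ι₁ (rP q) (rW w) y) (c : ℕ) : Fm ι₀ ι₁ (rP q) (rW w) (y ᵥ* Mc n c) := by
  rw [row_Mc]; exact (hy.row Ent_d).add ((hy.row Ent_e).smul _)

theorem Fm.colM (hy : Fm ι₀ ι₁ (cP q) (cW w) y) (c : ℕ) : Fm ι₀ ι₁ (cP q) (cW w) (Mc n c *ᵥ y) := by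
  rw [col_Mc]; exact (hy.col Ent_d).add ((hy.col Ent_e).smul _)

theorem Fm.th {P W : AA n → ℤ} (hy : Fm False False P W y) (i : Fin 2) :
    Fm True True P W fun g => th i (y g) := fun g =>
  th_mem i (by induction i using all2; exacts [xi0_mem, xi1_mem]) (hy g)
end

noncomputable def OR (n : ℕ) : (AA n → R) →ₗ[ℚ] (AA n → R) :=
  rowL ((dB n).map (th 1)) ∘ₗ (th 0).compLeft _
noncomputable def OC (n : ℕ) : (AA n → R) →ₗ[ℚ] (AA n → R) :=
  colL ((dB n).map (th 0)) ∘ₗ (th 1).compLeft _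

theorem OR_apply (y : AA n → R) : OR n y = (fun g => th 0 (y g)) ᵥ* (dB n).map (th 1) := rfl
theorem OC_apply (y : AA n → R) : OC n y = (dB n).map (th 0) *ᵥ fun g => th 1 (y g) := rfl

theorem OR_zero {y : AA n → R} {g' : AA n} (h : ∀ g, hd g.1 = hd g'.1 + 1 → y g = 0) :
    OR n y g' = 0 := row_zero (tz 1) fun g e => by
  change th 0 (y g) = 0
  rw [h g e, map_zero]

theorem OC_zero {y : AA n → R} {g : AA n} (h : ∀ g', hd g.1 = hd g'.1 + 1 → y g' = 0) :
    OC n y g = 0 := col_zero (tz 0) fun g e => by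
  change th 1 (y g) = 0
  rw [h g e, map_zero]

theorem OR_M (c c' : ℕ) (y : AA n → R) :
    OR n (y ᵥ* Mc n c) + OR n y ᵥ* Mc n c' = y ᵥ* xB n - y ᵥ* yB n := by
  have : (fun g => th 0 ((y ᵥ* Mc n c) g)) = (fun g => th 0 (y g)) ᵥ* Mc n c +
      y ᵥ* (Mc n c).map (th 0) := by
    funext g; simp [row_sum, th_mul, Finset.sum_add_distrib]
  rw [OR_apply, OR_apply, this, th_Mc, add_vecMul, vecMul_vecMul, vecMul_vecMul, vecMul_vecMul,
    th_dB, vecMul_sub, add_right_comm, ← vecMul_add, add_comm (_ * _), Mc_th, vecMul_zero, zero_add]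

theorem OC_M (c c' : ℕ) (y : AA n → R) :
    OC n (Mc n c *ᵥ y) + Mc n c' *ᵥ OC n y = xB n *ᵥ y - yB n *ᵥ y := by
  have : (fun g => th 1 ((Mc n c *ᵥ y) g)) = (Mc n c).map (th 1) *ᵥ y +
      Mc n c *ᵥ fun g => th 1 (y g) := by
    funext g; simp [col_sum, th_mul, Finset.sum_add_distrib]
  rw [OC_apply, OC_apply, this, th_Mc, mulVec_add, mulVec_mulVec, mulVec_mulVec, mulVec_mulVec,
    th_dB, sub_mulVec, add_assoc, ← add_mulVec, Mc_th, zero_mulVec, add_zero]

theorem wo_bd (g : AA n) : 0 ≤ wo g.1 (par g.2) ∧ wo g.1 (par g.2) ≤ 1 := by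
  generalize par g.2 = a
  generalize g.1 = σ
  induction σ using all6 <;> induction a using all2 <;> decide

theorem row_eB {y : AA n → R} (h : ∀ g, hd g.1 = 3 → y g = 0) : y ᵥ* eB n = 0 :=
  funext fun g' => row_zero ez fun g e => h g (by have := hd_le g.1; omega)

theorem col_eB {y : AA n → R} (h : ∀ g, hd g.1 = 0 → y g = 0) : eB n *ᵥ y = 0 :=
  funext fun g' => col_zero ez fun g e => h g (by have := hd_le g'.1; omega)

theorem stR (k : ℕ) (q : ℤ) {w : ℤ} (hw : 0 ≤ w) : St (fun g : AA n => hd g.1) (rP q) (rW w)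
    (rowL (Mc n ((k - 1) / 2))) (rowL (Mc n (k / 2))) (rowL (xB n)) (rowL (yB n)) (OR n)
    (P1 k) (P2 k) (P2 k) (P1 k) 0 where
  hW g := by have := wo_bd g; simp only [rW]; omega
  lM H y h g hg := rowM_zero (fun g' e => h g' (by dsimp only at *; omega)) (Or.inr fun g' e => h g' (by dsimp only at *; omega))
  lM' H y h g hg := rowM_zero (fun g' e => h g' (by dsimp only at *; omega)) (Or.inr fun g' e => h g' (by dsimp only at *; omega))
  lx H y h g hg := row_zero xz fun g' e => h g' (by dsimp only at *; omega)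
  ly H y h g hg := row_zero yz fun g' e => h g' (by dsimp only at *; omega)
  lo H y h g hg := OR_zero fun g' e => h g' (by dsimp only at *; omega)
  MM y := by rw [rowL_apply, rowL_apply, vecMul_vecMul, Mc_Mc, vecMul_zero]
  OM y := OR_M _ _ y
  cx r h := by
    simp only [rowL_apply, vecMul_vecMul]
    rw [sub_eq_sub_iff_sub_eq_sub, ← vecMul_sub (x := r) (Mc n _ * _), Mc_x, row_Mc, row_Mc,
      add_sub_add_left_eq_sub, ← sub_smul]
    by_cases e : k / 2 = (k - 1) / 2 + 1
    · rw [e]; simp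
    · rw [row_eB fun g hg => h g fun e' => e (by unfold P2 at e'; omega), smul_zero]
  ci i h := by
    simp only [rowL_apply, row_Mc]
    by_cases e : k / 2 = (k - 1) / 2
    · rw [e]
    · rw [row_eB fun g hg => h g fun e' => e (by unfold P1 at e'; omega), smul_zero, smul_zero]
  mM _ _ y h := h.rowM _
  mx y h := h.to.row Ent_x
  my y h := h.to.row Ent_y
  mo y h := (h.th 0).row (Ent_th 1)
  p1 _ _ h := h
  p2 _ h := h
  so r h g hg := OR_zero fun g' e => h g' fun e' => hg (by unfold P1 P2 at *; omega)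
  sx r h g hg := row_zero xz fun g' e => h g' fun e' => hg (by unfold P2 at *; omega)
  sM r h g hg := rowM_zero (fun g' e => h g' fun e' => hg (by unfold P1 P2 at *; omega))
    (Or.inr fun g' e => h g' fun e' => hg (by unfold P1 P2 at *; omega))

theorem stC (k : ℕ) (q : ℤ) {w : ℤ} (hw : -1 ≤ w) : St (fun g : AA n => 3 - hd g.1) (cP q) (cW w)
    (-colL (Mc n (k / 2))) (-colL (Mc n ((k - 1) / 2))) (colL (xB n)) (colL (yB n)) (-OC n)
    (P2 k) (P1 k) (P3 k) (P2 k) (4 - k) where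
  hW g := by have := wo_bd g; simp only [cW]; omega
  lM H y h g hg := neg_eq_zero.mpr <| colM_zero (fun g' e => h g' (by have := hd_le g.1; dsimp only at *; omega))
    (Or.inr fun g' e => h g' (by have := hd_le g.1; dsimp only at *; omega))
  lM' H y h g hg := neg_eq_zero.mpr <| colM_zero (fun g' e => h g' (by have := hd_le g.1; dsimp only at *; omega))
    (Or.inr fun g' e => h g' (by have := hd_le g.1; dsimp only at *; omega))
  lx H y h g hg := col_zero xz fun g' e => h g' (by have := hd_le g.1; dsimp only at *; omega)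
  ly H y h g hg := col_zero yz fun g' e => h g' (by have := hd_le g.1; dsimp only at *; omega)
  lo H y h g hg := neg_eq_zero.mpr <| OC_zero fun g' e => h g' (by have := hd_le g.1; dsimp only at *; omega)
  MM y := by
    simp only [LinearMap.neg_apply, colL_apply, mulVec_neg, mulVec_mulVec, Mc_Mc, zero_mulVec,
      neg_zero]
  OM y := by
    simp only [LinearMap.neg_apply, map_neg, neg_neg]; exact OC_M _ _ y
  cx r h := by
    simp only [LinearMap.neg_apply, map_neg, colL_apply, mulVec_mulVec]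
    have h1 := congrArg (· *ᵥ r) (Mc_x (n := n) (k / 2) ((k - 1) / 2))
    simp only [sub_mulVec] at h1
    have h2 : Mc n (k / 2) *ᵥ r - Mc n ((k - 1) / 2) *ᵥ r = eB n *ᵥ r := by
      rw [col_Mc, col_Mc, add_sub_add_left_eq_sub, ← sub_smul]
      by_cases e : k / 2 = (k - 1) / 2 + 1
      · rw [e]; simp
      · rw [col_eB fun g hg => h g fun e' => e (by unfold P3 at e'; omega), smul_zero]
    linear_combination (norm := abel) h2 - h1
  ci i h := by
    simp only [LinearMap.neg_apply, colL_apply, col_Mc]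
    by_cases e : k / 2 = (k - 1) / 2
    · rw [e]
    · rw [col_eB fun g hg => h g fun e' => e (by unfold P2 at e'; omega), smul_zero, smul_zero]
  mM _ _ y h := (h.colM _).neg
  mx y h := h.to.col Ent_x
  my y h := h.to.col Ent_y
  mo y h := ((h.th 1).col (Ent_th 0)).neg
  p1 g h h' := by have := hd_le g.1; unfold P1 P3 at *; omega
  p2 _ h := h
  so r h g hg := neg_eq_zero.mpr <|
    OC_zero fun g' e => h g' fun e' => hg (by unfold P2 P3 at *; omega)
  sx r h g hg := col_zero xz fun g' e => h g' fun e' => hg (by unfold P1 P3 at *; omega)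
  sM r h g hg := neg_eq_zero.mpr <| colM_zero
    (fun g' e => h g' fun e' => hg (by unfold P1 P2 at *; omega)) (by
      by_cases e : (k - 1) / 2 = 0
      · exact Or.inl e
      · exact Or.inr fun g' e => h g' fun e' => hg (by
          have := hd_le g.1; unfold P1 P2 at *; omega))

theorem rowStair (hn : n ≠ 0) (k q : ℕ) {w : ℤ} (h0 : 0 ≤ w) (h2 : w ≤ 2) {u i x x' : AA n → R}
    (hu : Fm False False (rP q) (rW w) u) (hi : Fm True True (rP q) (rW w) i)
    (hx : Fm True False (rP q) (rW w) x) (hx' : Fm False True (rP q) (rW w) x')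
    (su : Sup (P1 k) u) (si : Sup (P1 k) i) (sx : Sup (P2 k) x) (sx' : Sup (P2 k) x')
    (e0 : k = 0 → ∑ g, act (u g) (bA g) = 0)
    (e1 : ∀ g, P2 k g → (u ᵥ* Mc n ((k - 1) / 2)) g = 0)
    (e2 : ∀ g, P2 k g → (i ᵥ* Mc n ((k - 1) / 2) + OR n u + (x - x')) g = 0)
    (e3 : ∀ g, P3 k g → (u - u ᵥ* xB n - x ᵥ* Mc n ((k - 1) / 2)) g = 0) :
    ∃ r X X', Fm False False (rP q) (rW w) r ∧ Fm True False (rP q) (rW w) X ∧
      Fm False True (rP q) (rW w) X' ∧ u = r ᵥ* Mc n (k / 2) ∧ i = OR n r + (X - X') ∧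
      ∀ g, P2 k g → x g = (r - r ᵥ* xB n - X ᵥ* Mc n (k / 2)) g ∧
        x' g = (r - r ᵥ* yB n - X' ᵥ* Mc n (k / 2)) g := by
  let v : AA n → R := fun g => if hd g.1 = k then u g else 0
  have hv : Fm False False (rP q) (rW w) v := fun g => by
    simp only [v]; split_ifs
    exacts [hu g, zero_mem _]
  have ov : Only k v := fun g h => if_neg h
  obtain ⟨U, hU, oU, eU⟩ : ∃ U, Fm False False (rP q) (rW w) U ∧ Only (k + 1) U ∧
      v = U ᵥ* dB n := by
    rcases k with _ | k
    · refine row_exact0 hn h0 h2 hv ov ?_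
      rw [← e0 rfl]
      refine Finset.sum_congr rfl fun g _ => ?_
      simp only [v]; split_ifs with h
      · rfl
      · rw [su g fun e => h (by unfold P1 at e; omega)]
    · refine row_exact hn h0 h2 hv ov (funext fun g => ?_)
      by_cases h : hd g.1 = k
      · have h1 := e1 g (by unfold P2; omega)
        rw [row_Mc, Pi.add_apply, Pi.smul_apply, row_zero ez (fun g' e => su g' (by
          unfold P1; omega)), smul_zero, add_zero] at h1
        have h3 : ((u - v) ᵥ* dB n) g = 0 := row_zero dz fun g' e => by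
          simp [v, show hd g'.1 = k + 1 by omega]
        rw [sub_vecMul, Pi.sub_apply, h1, zero_sub, neg_eq_zero] at h3
        exact h3
      · exact row_zero dz fun g' e => ov g' (by omega)
  have S := stR (n := n) k q h0
  obtain ⟨r, X, X', g1, g2, g3, -, -, -, g7, g8, g9, g10⟩ := S.main
    (fun g => by have := hd_le g.1; omega) (hu.sub (S.mM _ _ _ hU)) (hi.sub (S.mo _ hU))
    (hx.add (S.mx _ hU)) (hx'.add (S.my _ hU))
    (si.sub fun g hg => OR_zero fun g' e => oU g' fun e' => hg (by unfold P1; omega))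
    (sx.add fun g hg => row_zero xz fun g' e => oU g' fun e' => hg (by unfold P2; omega))
    (by
      have h1 : i ᵥ* Mc n ((k - 1) / 2) + OR n u + (x - x') = 0 := funext fun g => by
        by_cases h : P2 k g
        · exact e2 g h
        · simp only [Pi.add_apply, Pi.sub_apply, sx g h, sx' g h, Pi.zero_apply]
          rw [rowM_zero (fun g' e => si g' fun e' => h (by unfold P1 P2 at *; omega))
            (Or.inr fun g' e => si g' fun e' => h (by unfold P1 P2 at *; omega)),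
            OR_zero fun g' e => su g' fun e' => h (by unfold P1 P2 at *; omega)]
          simp
      have h3 := OR_M (k / 2) ((k - 1) / 2) U
      simp only [rowL_apply, map_sub, sub_vecMul]
      linear_combination (norm := abel) h1 - h3)
    (fun g _ => by
      have h1 : u - u ᵥ* xB n - x ᵥ* Mc n ((k - 1) / 2) = v := funext fun g => by
        by_cases h : P3 k g
        · rw [e3 g h, ov g (by unfold P3 at h; omega)]
        · simp only [Pi.sub_apply]
          rw [rowM_zero (fun g' e => sx g' fun e' => h (by unfold P2 P3 at *; omega))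
            (Or.inr fun g' e => sx g' fun e' => h (by unfold P2 P3 at *; omega)),
            row_zero xz fun g' e => su g' fun e' => h (by unfold P1 P3 at *; omega), sub_zero,
            sub_zero]
          simp only [v]; split_ifs with h'
          · rfl
          · exact su g fun e => h (by unfold P1 P3 at *; omega)
      have h3 := congrArg (U ᵥ* ·) (Mc_x (n := n) (k / 2) ((k - 1) / 2))
      have h4 : U ᵥ* Mc n (k / 2) - U ᵥ* eB n = v := by
        rw [row_Mc, eU]
        by_cases e : k / 2 = 1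
        · rw [e]; simp
        · rw [row_eB fun g hg => oU g (by omega)]; simp
      simp only [vecMul_sub, ← vecMul_vecMul] at h3
      have : u - rowL (Mc n (k / 2)) U - rowL (xB n) (u - rowL (Mc n (k / 2)) U) -
          rowL (Mc n ((k - 1) / 2)) (x + rowL (xB n) U) = 0 := by
        simp only [rowL_apply, sub_vecMul, add_vecMul]
        linear_combination (norm := abel) h1 - h4 + h3
      rw [this]; rfl)
  have z : ∀ {y : AA n → R}, Bl (fun g : AA n => hd g.1) 0 y → y = 0 := fun h =>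
    funext fun g => h g (Nat.zero_le _)
  have f8 := z g8
  have f9 := z g9
  have f10 := z g10
  simp only [rowL_apply] at g7 f8 f9 f10
  refine ⟨U + r, X, X', hU.add g1, g2, g3, ?_, ?_, fun g hg => ?_⟩
  · rw [add_vecMul]; linear_combination (norm := abel) f8
  · rw [map_add]; linear_combination (norm := abel) -g7
  · have h1 : U g = 0 := oU g (by unfold P2 at hg; omega)
    have h3 := congrFun f9 g
    have h4 := congrFun f10 g
    simp only [add_vecMul, Pi.add_apply, Pi.sub_apply, Pi.zero_apply, h1] at h3 h4 ⊢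
    exact ⟨by linear_combination (norm := abel) h3, by linear_combination (norm := abel) h4⟩

theorem colStair (k : ℕ) (q : ℤ) {w : ℤ} (h0 : -1 ≤ w) {u i x x' : AA n → R}
    (hu : Fm False False (cP q) (cW w) u) (hi : Fm True True (cP q) (cW w) i)
    (hx : Fm True False (cP q) (cW w) x) (hx' : Fm False True (cP q) (cW w) x')
    (su : Sup (P2 k) u) (si : Sup (P2 k) i) (sx : Sup (P1 k) x)
    (e2 : x - x' - Mc n (k / 2) *ᵥ i - OC n u = 0)
    (e3 : ∀ g, hd g.1 ≤ k → (Mc n (k / 2) *ᵥ x + (u - xB n *ᵥ u)) g = 0) :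
    ∃ r X X' ρ, Fm False False (cP q) (cW w) r ∧ Fm True False (cP q) (cW w) X ∧
      Fm False True (cP q) (cW w) X' ∧ Fm False False (cP q) (cW w) ρ ∧ Sup (P3 k) r ∧
      Sup (P2 k) X ∧ Sup (P2 k) X' ∧ Only k ρ ∧ u = -(Mc n ((k - 1) / 2) *ᵥ r) ∧
      i = X - X' - OC n r ∧ x = Mc n ((k - 1) / 2) *ᵥ X + (r - xB n *ᵥ r) + ρ ∧
      x' = Mc n ((k - 1) / 2) *ᵥ X' + (r - yB n *ᵥ r) + ρ := by
  have S := stC (n := n) k q h0
  obtain ⟨r, X, X', g1, g2, g3, g4, g5, g6, g7, g8, g9, -⟩ := S.main (fun g => by omega) hu hi hx hx'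
    si sx (by
      simp only [LinearMap.neg_apply, colL_apply]; linear_combination (norm := abel) e2)
    (fun g hg => by
      rw [← e3 g (by have := hd_le g.1; omega)]
      simp only [LinearMap.neg_apply, colL_apply, Pi.sub_apply, Pi.add_apply, Pi.neg_apply]; abel)
  have m1 := hx.sub ((g1.to.sub (S.mx _ g1)).sub (S.mM _ _ _ g2))
  have m2 := hx'.sub ((g1.to.sub (S.my _ g1)).sub (S.mM _ _ _ g3))
  have s1 := sx.sub (((g4.mono fun g h => by unfold P1 P3 at *; omega).sub (S.sx _ g4)).sub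
    (S.sM _ g5))
  have hc := S.ci i si
  simp only [LinearMap.neg_apply, colL_apply, neg_inj] at g7 g8 g9 m1 m2 s1 hc
  have f1 : u = -(Mc n ((k - 1) / 2) *ᵥ r) := by
    rw [← sub_eq_zero]
    funext g
    by_cases h : hd g.1 ≤ k
    · exact g8 g (by simp only; omega)
    · rw [Pi.sub_apply, su g (by unfold P2; omega), Pi.neg_apply, colM_zero
        (fun g' e => g4 g' (by unfold P3; omega)) (by
          by_cases e : (k - 1) / 2 = 0
          · exact Or.inl e
          · exact Or.inr fun g' e => g4 g' (by have := hd_le g.1; unfold P3; omega))]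
      simp
  have f2 : x' - (r - yB n *ᵥ r - -(Mc n ((k - 1) / 2) *ᵥ X')) =
      x - (r - xB n *ᵥ r - -(Mc n ((k - 1) / 2) *ᵥ X)) := by
    have h1 := OC_M ((k - 1) / 2) ((k - 1) / 2) r
    have h3 := congrArg (Mc n ((k - 1) / 2) *ᵥ ·) g7
    have h4 := congrArg (OC n) f1
    simp only [mulVec_sub, mulVec_add, mulVec_neg, map_neg] at h3 h4
    linear_combination (norm := abel) -e2 - hc + h3 - h4 + h1
  refine ⟨r, X, X', _, g1, g2, g3, fun g => inter_mem (m1 g) (f2 ▸ m2 g), g4, g5, g6,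
    fun g hg => ?_, f1, ?_, ?_, ?_⟩
  · by_cases h : hd g.1 ≤ k
    · exact g9 g (by simp only; have := hd_le g.1; omega)
    · exact s1 g (by unfold P1; omega)
  · linear_combination (norm := abel) -g7
  · abel
  · rw [← f2]; abel

end Vale.Agent.P195
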