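import Mathlib

namespace Vale.Agent.P195

abbrev K := (Fin 2 → ℤ) × (Fin 2 → ℕ) × (Fin 2 → ℕ)
abbrev V := K →₀ ℚ

/-- the ambient ring of operators -/
def R : Type := Module.End ℚ V

noncomputable instance : Ring R := inferInstanceAs (Ring (Module.End ℚ V))
noncomputable instance : Algebra ℚ R := inferInstanceAs (Algebra ℚ (Module.End ℚ V))

/-- application of an operator -/
noncomputable def ap : R →ₐ[ℚ] Module.End ℚ V := AlgHom.id ℚ (Module.End ℚ V)

theorem R_ext {u v : R} (h : ∀ k : K, ap u (Finsupp.single k 1) = ap v (Finsupp.single k 1)) :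
    u = v := by
  change ap u = ap v
  refine Finsupp.lhom_ext' fun k => LinearMap.ext_ring ?_
  simpa using h k

abbrev ei (i : Fin 2) : Fin 2 → ℤ := Pi.single i 1
abbrev en (i : Fin 2) : Fin 2 → ℕ := Pi.single i 1

noncomputable def sh (κ : K) : R := (Finsupp.lmapDomain ℚ ℚ (· + κ) : Module.End ℚ V)

theorem ap_sh (κ k : K) : ap (sh κ) (Finsupp.single k 1) = Finsupp.single (k + κ) 1 := by
  change Finsupp.lmapDomain ℚ ℚ (· + κ) (Finsupp.single k 1) = _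
  simp

theorem sh_mul (κ κ' : K) : sh κ * sh κ' = sh (κ + κ') :=
  R_ext fun k => by rw [map_mul, Module.End.mul_apply, ap_sh, ap_sh, ap_sh, add_assoc, add_comm κ']

theorem sh_zero : sh 0 = 1 := R_ext fun k => by rw [ap_sh]; simp

noncomputable def xp (a : Fin 2 → ℤ) : R := sh (a, 0, 0)
noncomputable def Lg (i : Fin 2) : R := sh (0, en i, 0)
noncomputable def Pp (i : Fin 2) : R := sh (0, 0, en i)

noncomputable def Eu (i : Fin 2) : R := (Finsupp.linearCombination ℚ fun k : K =>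
  ((k.1 i : ℚ) • Finsupp.single k 1 + (k.2.1 i : ℚ) • Finsupp.single (k.1, k.2.1 - en i, k.2.2) 1 : V) :
    Module.End ℚ V)

theorem ap_Eu (i : Fin 2) (k : K) : ap (Eu i) (Finsupp.single k 1) =
    (k.1 i : ℚ) • Finsupp.single k 1 + (k.2.1 i : ℚ) • Finsupp.single (k.1, k.2.1 - en i, k.2.2) 1 := by
  change Finsupp.linearCombination ℚ _ (Finsupp.single k 1) = _
  rw [Finsupp.linearCombination_single, one_smul]

theorem xp_mul (a b : Fin 2 → ℤ) : xp a * xp b = xp (a + b) := by simp [xp, sh_mul]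
theorem xp_zero : xp 0 = 1 := sh_zero

theorem Eu_xp (i : Fin 2) (a : Fin 2 → ℤ) : Eu i * xp a = xp a * Eu i + (a i : ℚ) • xp a :=
  R_ext fun k => by
    obtain ⟨b, l, e⟩ := k
    simp only [xp, map_add, map_mul, map_smul, Module.End.mul_apply, LinearMap.add_apply,
      LinearMap.smul_apply, ap_sh, ap_Eu, Prod.mk_add_mk, add_zero, Pi.add_apply, Int.cast_add]
    module

theorem Eu_Pp (i j : Fin 2) : Eu i * Pp j = Pp j * Eu i :=
  R_ext fun k => by
    obtain ⟨b, l, e⟩ := k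
    simp only [Pp, map_add, map_mul, map_smul, Module.End.mul_apply, ap_sh, ap_Eu, Prod.mk_add_mk,
      add_zero]

theorem Eu_Lg (i j : Fin 2) : Eu i * Lg j = Lg j * Eu i + if i = j then 1 else 0 :=
  R_ext fun k => by
    obtain ⟨b, l, e⟩ := k
    simp only [Lg, map_add, map_mul, map_smul, Module.End.mul_apply, LinearMap.add_apply,
      ap_sh, ap_Eu, Prod.mk_add_mk, add_zero, Pi.add_apply]
    by_cases h : i = j
    · subst h
      have e1 : l + en i - en i = l := by simp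
      simp only [e1, if_true, map_one, Module.End.one_apply, Pi.single_eq_same, Nat.cast_add,
        Nat.cast_one]
      by_cases h0 : l i = 0
      · simp [h0]
      · have e2 : l - en i + en i = l := by
          funext m
          by_cases hm : m = i
          · subst hm; simp; omega
          · simp [Pi.single_eq_of_ne hm]
        rw [e2]; module
    · have e1 : l + en j - en i = l - en i + en j := by
        funext m
        by_cases hm : m = i
        · subst hm; simp [Pi.single_eq_of_ne h]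
        · simp [Pi.single_eq_of_ne hm]
      simp [e1, h, Pi.single_eq_of_ne h]

theorem Eu_Eu : Eu 0 * Eu 1 = Eu 1 * Eu 0 :=
  R_ext fun k => by
    obtain ⟨b, l, e⟩ := k
    have e1 : l - en 1 - en 0 = l - en 0 - en 1 := by
      funext m; simp only [Pi.sub_apply]; omega
    simp only [map_add, map_mul, map_smul, Module.End.mul_apply, ap_Eu, e1, Pi.sub_apply]
    simp only [ne_eq, zero_ne_one, not_false_eq_true, Pi.single_eq_of_ne, one_ne_zero, tsub_zero]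
    module

noncomputable def D (i : Fin 2) : R := xp (-ei i) * Eu i + Pp i

theorem Pp_xp (i : Fin 2) (a : Fin 2 → ℤ) : Pp i * xp a = xp a * Pp i := by
  simp [Pp, xp, sh_mul]
theorem Pp_Lg (i j : Fin 2) : Pp i * Lg j = Lg j * Pp i := by simp [Pp, Lg, sh_mul]
theorem Pp_Pp (i j : Fin 2) : Pp i * Pp j = Pp j * Pp i := by simp [Pp, sh_mul, add_comm]
theorem xp_Lg (a : Fin 2 → ℤ) (j : Fin 2) : xp a * Lg j = Lg j * xp a := by simp [xp, Lg, sh_mul]

theorem D_xp (i : Fin 2) (a : Fin 2 → ℤ) : D i * xp a = xp a * D i + (a i : ℚ) • xp (a - ei i) := by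
  rw [D, add_mul, mul_assoc, Eu_xp, Pp_xp, mul_add, mul_add, ← mul_assoc, ← mul_assoc, xp_mul,
    xp_mul, mul_smul_comm, xp_mul, add_comm (-ei i), ← sub_eq_add_neg]
  abel

theorem D_Lg (i j : Fin 2) : D i * Lg j = Lg j * D i + if i = j then xp (-ei i) else 0 := by
  rw [D, add_mul, mul_assoc, Eu_Lg, Pp_Lg, mul_add, mul_add, ← mul_assoc, ← mul_assoc, xp_Lg]
  split_ifs <;> simp <;> abel

theorem D_comm : D 1 * D 0 = D 0 * D 1 := by
  have h1 : Eu 0 * xp (-ei 1) = xp (-ei 1) * Eu 0 := by rw [Eu_xp]; simp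
  have h2 : Eu 1 * xp (-ei 0) = xp (-ei 0) * Eu 1 := by rw [Eu_xp]; simp
  have h3 : xp (-ei 1) * Eu 1 * (xp (-ei 0) * Eu 0) = xp (-ei 0) * Eu 0 * (xp (-ei 1) * Eu 1) := by
    have h5 : xp (-ei 1) * xp (-ei 0) = xp (-ei 0) * xp (-ei 1) := by
      rw [xp_mul, xp_mul, add_comm]
    calc _ = xp (-ei 1) * (Eu 1 * xp (-ei 0)) * Eu 0 := by simp only [mul_assoc]
      _ = (xp (-ei 1) * xp (-ei 0)) * (Eu 1 * Eu 0) := by rw [h2]; simp only [mul_assoc]
      _ = xp (-ei 0) * (xp (-ei 1) * Eu 0) * Eu 1 := by rw [h5, ← Eu_Eu]; simp only [mul_assoc]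
      _ = _ := by rw [← h1]; simp only [mul_assoc]
  have h4 : ∀ i j, xp (-ei i) * Eu i * Pp j = Pp j * (xp (-ei i) * Eu i) := fun i j => by
    rw [mul_assoc, Eu_Pp, ← mul_assoc, ← Pp_xp, mul_assoc]
  simp only [D, add_mul, mul_add, h3, h4, Pp_Pp 1 0]
  abel

theorem D_comm' (i j : Fin 2) : Commute (D i) (D j) := by
  fin_cases i <;> fin_cases j
  · rfl
  · exact D_comm.symm
  · exact D_comm
  · rfl

/-- normally ordered monomials -/
noncomputable def mono (a : Fin 2 → ℤ) (e : Fin 2 → ℕ) : R := xp a * (D 0 ^ e 0 * D 1 ^ e 1)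

theorem xp_mono (b a : Fin 2 → ℤ) (e : Fin 2 → ℕ) : xp b * mono a e = mono (b + a) e := by
  rw [mono, mono, ← mul_assoc, xp_mul]

theorem D_DD (i : Fin 2) (e : Fin 2 → ℕ) :
    D i * (D 0 ^ e 0 * D 1 ^ e 1) = D 0 ^ (e + en i) 0 * D 1 ^ (e + en i) 1 := by
  fin_cases i
  · simp [pow_succ', mul_assoc]
  · simp only [Fin.mk_one, Pi.add_apply, Pi.single_eq_same, ne_eq, zero_ne_one, not_false_eq_true,
      Pi.single_eq_of_ne, add_zero, pow_succ']
    rw [← mul_assoc, ((D_comm' 1 0).pow_right _).eq, mul_assoc]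

theorem DD_D (i : Fin 2) (e : Fin 2 → ℕ) :
    (D 0 ^ e 0 * D 1 ^ e 1) * D i = D i * (D 0 ^ e 0 * D 1 ^ e 1) :=
  (((D_comm' i 0).pow_right _).mul_right ((D_comm' i 1).pow_right _)).eq.symm

theorem mono_D (i : Fin 2) (a : Fin 2 → ℤ) (e : Fin 2 → ℕ) :
    mono a e * D i = mono a (e + en i) := by
  rw [mono, mul_assoc, DD_D, D_DD, mono]

theorem D_mono (i : Fin 2) (a : Fin 2 → ℤ) (e : Fin 2 → ℕ) :
    D i * mono a e = mono a (e + en i) + (a i : ℚ) • mono (a - ei i) e := by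
  rw [mono, ← mul_assoc, D_xp, add_mul, mul_assoc, D_DD, smul_mul_assoc]; rfl

theorem mono_zero (a : Fin 2 → ℤ) : mono a 0 = xp a := by simp [mono]

theorem ap_mono (a : Fin 2 → ℤ) (e : Fin 2 → ℕ) :
    ap (mono a e) (Finsupp.single 0 1) = Finsupp.single (a, 0, e) 1 := by
  have h1 : ∀ (i : Fin 2) (m : ℕ) (f : Fin 2 → ℕ),
      ap (D i ^ m) (Finsupp.single (0, 0, f) 1) = Finsupp.single (0, 0, f + m • en i) 1 := by
    intro i m f
    induction m with
    | zero => simp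
    | succ m ih =>
      rw [pow_succ', map_mul, Module.End.mul_apply, ih, D, map_add, map_mul, LinearMap.add_apply,
        Module.End.mul_apply, ap_Eu, Pp, ap_sh]
      simp only [Prod.mk_add_mk, succ_nsmul, add_assoc]
      simp
  have h0 : (0 : K) = (0, 0, 0) := rfl
  rw [mono, map_mul, map_mul, Module.End.mul_apply, Module.End.mul_apply, h0, h1, h1, xp, ap_sh]
  congr 1
  simp only [Prod.mk_add_mk, zero_add, add_zero, Prod.mk.injEq, true_and]
  funext i; fin_cases i <;> simp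

def Cond (ι₀ ι₁ : Prop) (p n : ℤ) (a : Fin 2 → ℤ) (e : Fin 2 → ℕ) : Prop :=
  (ι₀ ∨ 0 ≤ a 0) ∧ (ι₁ ∨ 0 ≤ a 1) ∧ max (-a 0) 0 + max (-a 1) 0 + e 0 + e 1 ≤ p ∧
    a 0 + a 1 - e 0 - e 1 = n

/-- spans of monomials with bounded order, given weight and allowed poles -/
noncomputable def Sp (ι₀ ι₁ : Prop) (p n : ℤ) : Submodule ℚ R :=
  Submodule.span ℚ {u | ∃ a e, Cond ι₀ ι₁ p n a e ∧ u = mono a e}

theorem mono_mem {ι₀ ι₁ : Prop} {p n : ℤ} {a : Fin 2 → ℤ} {e : Fin 2 → ℕ}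
    (h : Cond ι₀ ι₁ p n a e) : mono a e ∈ Sp ι₀ ι₁ p n := Submodule.subset_span ⟨a, e, h, rfl⟩

theorem Sp_map {ι₀ ι₁ : Prop} {p n : ℤ} {M : Type*} [AddCommGroup M] [Module ℚ M] (f : R →ₗ[ℚ] M)
    (S : Submodule ℚ M) (h : ∀ a e, Cond ι₀ ι₁ p n a e → f (mono a e) ∈ S) {u : R}
    (hu : u ∈ Sp ι₀ ι₁ p n) : f u ∈ S := by
  have : Sp ι₀ ι₁ p n ≤ S.comap f := Submodule.span_le.mpr (by
    rintro _ ⟨a, e, hc, rfl⟩; exact h a e hc)
  exact this hu

theorem Sp_mono {ι₀ ι₁ ι₀' ι₁' : Prop} {p p' n : ℤ} (h0 : ι₀ → ι₀') (h1 : ι₁ → ι₁') (hp : p ≤ p')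
    {u : R} (hu : u ∈ Sp ι₀ ι₁ p n) : u ∈ Sp ι₀' ι₁' p' n :=
  Sp_map LinearMap.id _ (fun a e hc => mono_mem ⟨hc.1.imp_left h0, hc.2.1.imp_left h1,
    hc.2.2.1.trans hp, hc.2.2.2⟩) hu

theorem xp_mul_mem {ι₀ ι₁ : Prop} {p n q m : ℤ} {b : Fin 2 → ℤ} (hb : Cond ι₀ ι₁ q m b 0) {u : R}
    (hu : u ∈ Sp ι₀ ι₁ p n) : xp b * u ∈ Sp ι₀ ι₁ (q + p) (m + n) := by
  refine Sp_map (LinearMap.mulLeft ℚ (xp b)) _ (fun a e hc => ?_) hu
  rw [LinearMap.mulLeft_apply, xp_mono]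
  obtain ⟨h1, h2, h3, h4⟩ := hc
  obtain ⟨g1, g2, g3, g4⟩ := hb
  simp only [Pi.zero_apply, Nat.cast_zero] at g3 g4
  refine mono_mem ⟨?_, ?_, ?_, ?_⟩ <;> simp only [Pi.add_apply]
  · rcases h1 with h | h; · exact Or.inl h
    rcases g1 with g | g; · exact Or.inl g
    right; omega
  · rcases h2 with h | h; · exact Or.inl h
    rcases g2 with g | g; · exact Or.inl g
    right; omega
  · omega
  · omega

theorem lower_mem {ι₀ ι₁ : Prop} {p n : ℤ} {a : Fin 2 → ℤ} {e : Fin 2 → ℕ} (i : Fin 2)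
    (hc : Cond ι₀ ι₁ p n a e) : (a i : ℚ) • mono (a - ei i) e ∈ Sp ι₀ ι₁ (p + 1) (n - 1) := by
  by_cases h0 : a i = 0
  · simp [h0]
  refine Submodule.smul_mem _ _ (mono_mem ?_)
  obtain ⟨h1, h2, h3, h4⟩ := hc
  fin_cases i <;> simp only [Fin.zero_eta, Fin.mk_one, Fin.isValue] at h0 <;>
    refine ⟨h1.imp_right fun h => ?_, h2.imp_right fun h => ?_, ?_, ?_⟩ <;> simp <;> omega

theorem D_mul_mem {ι₀ ι₁ : Prop} {p n : ℤ} (i : Fin 2) {u : R} (hu : u ∈ Sp ι₀ ι₁ p n) :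
    D i * u ∈ Sp ι₀ ι₁ (p + 1) (n - 1) := by
  refine Sp_map (LinearMap.mulLeft ℚ (D i)) _ (fun a e hc => ?_) hu
  rw [LinearMap.mulLeft_apply, D_mono]
  refine add_mem (mono_mem ?_) (lower_mem i hc)
  obtain ⟨h1, h2, h3, h4⟩ := hc
  fin_cases i <;> refine ⟨h1, h2, ?_, ?_⟩ <;> simp <;> omega

theorem Dpow_mul_mem {ι₀ ι₁ : Prop} {p n : ℤ} (i : Fin 2) (k : ℕ) {u : R} (hu : u ∈ Sp ι₀ ι₁ p n) :
    D i ^ k * u ∈ Sp ι₀ ι₁ (p + k) (n - k) := by
  induction k with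
  | zero => simpa using hu
  | succ k ih =>
    have := D_mul_mem i ih
    rw [pow_succ', mul_assoc]
    convert this using 2 <;> push_cast <;> ring

theorem Sp_mul {ι₀ ι₁ : Prop} {p n q m r l : ℤ} {u v : R} (hu : u ∈ Sp ι₀ ι₁ p n)
    (hv : v ∈ Sp ι₀ ι₁ q m) (hr : p + q ≤ r) (hl : n + m = l) : u * v ∈ Sp ι₀ ι₁ r l := by
  refine Sp_map (LinearMap.mulRight ℚ v) _ (fun a e hc => ?_) hu
  rw [LinearMap.mulRight_apply, mono, mul_assoc, mul_assoc]
  have h1 := Dpow_mul_mem 0 (e 0) (Dpow_mul_mem 1 (e 1) hv)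
  have h2 := xp_mul_mem (b := a) (q := p - e 0 - e 1) (m := n + e 0 + e 1)
    ⟨hc.1, hc.2.1, by have := hc.2.2.1; simp; omega, by have := hc.2.2.2; simp; omega⟩ h1
  refine Sp_mono id id (by omega) (?_ : _ ∈ Sp ι₀ ι₁ (p - e 0 - e 1 + (q + e 1 + e 0)) l)
  convert h2 using 2; omega

theorem xp_mem {ι₀ ι₁ : Prop} {p n : ℤ} {a : Fin 2 → ℤ} (h : Cond ι₀ ι₁ p n a 0) :
    xp a ∈ Sp ι₀ ι₁ p n := by rw [← mono_zero]; exact mono_mem h

theorem one_mem_Sp {ι₀ ι₁ : Prop} {p : ℤ} (hp : 0 ≤ p) : (1 : R) ∈ Sp ι₀ ι₁ p 0 := by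
  rw [← xp_zero]; exact xp_mem ⟨by simp, by simp, by simpa using hp, by simp⟩

theorem alg_mem_Sp {ι₀ ι₁ : Prop} {p : ℤ} (hp : 0 ≤ p) (c : ℚ) : algebraMap ℚ R c ∈ Sp ι₀ ι₁ p 0 := by
  rw [Algebra.algebraMap_eq_smul_one]; exact Submodule.smul_mem _ _ (one_mem_Sp hp)

noncomputable def x (i : Fin 2) : R := xp (ei i)
noncomputable def xi (i : Fin 2) : R := xp (-ei i)

theorem x_xi (i : Fin 2) : x i * xi i = 1 := by simp [x, xi, xp_mul, xp_zero]
theorem xi_x (i : Fin 2) : xi i * x i = 1 := by simp [x, xi, xp_mul, xp_zero]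
theorem x_comm (i j : Fin 2) : x i * x j = x j * x i := by simp [x, xp_mul, add_comm]
theorem x_xi_comm (i j : Fin 2) : x i * xi j = xi j * x i := by simp [x, xi, xp_mul, add_comm]
theorem xi_comm (i j : Fin 2) : xi i * xi j = xi j * xi i := by simp [xi, xp_mul, add_comm]

theorem D_x (i j : Fin 2) : D i * x j = x j * D i + if i = j then 1 else 0 := by
  rw [x, D_xp]
  by_cases h : i = j
  · subst h; simp [xp_zero]
  · simp [h, Pi.single_eq_of_ne h]

theorem D_xi (i j : Fin 2) (h : i ≠ j) : D i * xi j = xi j * D i := by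
  rw [xi, D_xp]; simp [Pi.single_eq_of_ne h]

theorem x_mem {ι₀ ι₁ : Prop} (i : Fin 2) : x i ∈ Sp ι₀ ι₁ 0 1 :=
  xp_mem (by fin_cases i <;> simp [Cond])

theorem D_mem {ι₀ ι₁ : Prop} (i : Fin 2) : D i ∈ Sp ι₀ ι₁ 1 (-1) := by
  simpa using D_mul_mem i (one_mem_Sp (ι₀ := ι₀) (ι₁ := ι₁) le_rfl)

theorem xi0_mem {ι₁ : Prop} : xi 0 ∈ Sp True ι₁ 1 (-1) := xp_mem (by simp [Cond])
theorem xi1_mem {ι₀ : Prop} : xi 1 ∈ Sp ι₀ True 1 (-1) := xp_mem (by simp [Cond])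

theorem Sp_neg {ι₀ ι₁ : Prop} {p n : ℤ} (h : p < 0) {u : R} (hu : u ∈ Sp ι₀ ι₁ p n) : u = 0 :=
  Sp_map LinearMap.id ⊥ (fun a e hc => by have := hc.2.2.1; omega) hu

theorem Sp_fg (ι₀ ι₁ : Prop) (p n : ℤ) : (Sp ι₀ ι₁ p n).FG := by
  refine Submodule.fg_span ?_
  have h := ((Set.finite_Icc (fun _ : Fin 2 => -p) (fun _ => n + 2 * p)).prod
    (Set.finite_Icc (0 : Fin 2 → ℕ) (fun _ => p.toNat))).image fun z => mono z.1 z.2
  refine h.subset ?_
  rintro _ ⟨a, e, ⟨-, -, h3, h4⟩, rfl⟩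
  refine ⟨(a, e), ⟨⟨fun i => ?_, fun i => ?_⟩, ⟨fun i => Nat.zero_le _, fun i => ?_⟩⟩, rfl⟩ <;>
    fin_cases i <;> simp <;> omega

noncomputable abbrev WW := Sp False False
noncomputable abbrev JX := Sp True False
noncomputable abbrev JY := Sp False True
noncomputable abbrev TS := Sp True True

theorem WW_neg {p n : ℤ} (h : n + p < 0) {u : R} (hu : u ∈ WW p n) : u = 0 :=
  Sp_map LinearMap.id ⊥ (fun a e hc => by
    obtain ⟨h1, h2, h3, h4⟩ := hc
    simp at h1 h2; omega) hu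

theorem WW_zero {u : R} (hu : u ∈ WW 0 0) : ∃ c : ℚ, u = algebraMap ℚ R c := by
  have := Sp_map LinearMap.id (Submodule.span ℚ {(1 : R)}) (fun a e hc => by
    obtain ⟨h1, h2, h3, h4⟩ := hc
    simp only [false_or] at h1 h2
    have ha : a = 0 := by funext i; fin_cases i <;> simp <;> omega
    have he : e = 0 := by funext i; fin_cases i <;> simp <;> omega
    rw [ha, he, mono_zero, xp_zero]
    exact Submodule.mem_span_singleton_self _) hu
  obtain ⟨c, hc⟩ := Submodule.mem_span_singleton.mp this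
  exact ⟨c, by rw [Algebra.algebraMap_eq_smul_one]; exact hc.symm⟩

theorem TS_le {p n : ℤ} (hn : -1 ≤ n) {u : R} (hu : u ∈ TS p n) : u ∈ JX p n ⊔ JY p n := by
  refine Sp_map LinearMap.id _ (fun a e hc => ?_) hu
  obtain ⟨h1, h2, h3, h4⟩ := hc
  by_cases h : 0 ≤ a 1
  · exact Submodule.mem_sup_left (mono_mem ⟨Or.inl trivial, Or.inr h, h3, h4⟩)
  · exact Submodule.mem_sup_right (mono_mem ⟨Or.inr (by omega), Or.inl trivial, h3, h4⟩)

noncomputable def evv : R →ₗ[ℚ] V := (LinearMap.applyₗ (Finsupp.single 0 1)).comp ap.toLinearMap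

theorem evv_mono (a : Fin 2 → ℤ) (e : Fin 2 → ℕ) : evv (mono a e) = Finsupp.single (a, 0, e) 1 :=
  ap_mono a e

noncomputable def rcv : V →ₗ[ℚ] R := Finsupp.linearCombination ℚ fun k : K => mono k.1 k.2.2

theorem inter_mem {p n : ℤ} {u : R} (h1 : u ∈ JX p n) (h2 : u ∈ JY p n) : u ∈ WW p n := by
  have e1 : (rcv ∘ₗ evv - LinearMap.id : R →ₗ[ℚ] R) u ∈ (⊥ : Submodule ℚ R) :=
    Sp_map _ _ (fun a e _ => by simp [evv_mono, rcv]) h1
  have key : ∀ ι₀ ι₁ : Prop, u ∈ Sp ι₀ ι₁ p n →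
      evv u ∈ Finsupp.supported ℚ ℚ {k : K | Cond ι₀ ι₁ p n k.1 k.2.2} := fun ι₀ ι₁ h =>
    Sp_map _ _ (fun a e hc => by rw [evv_mono]; exact Finsupp.single_mem_supported _ _ hc) h
  have e2 : rcv (evv u) = u := by simpa [sub_eq_zero] using e1
  rw [← e2, rcv, Finsupp.linearCombination_apply]
  refine Submodule.finsuppSum_mem _ _ _ _ fun k hk => Submodule.smul_mem _ _ (mono_mem ?_)
  have g1 := key _ _ h1 (Finsupp.mem_support_iff.mpr hk)
  have g2 := key _ _ h2 (Finsupp.mem_support_iff.mpr hk)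
  exact ⟨g2.1, g1.2.1, g1.2.2⟩

theorem one_ne : (1 : R) ≠ 0 := by
  intro h
  have := evv_mono 0 0
  rw [mono_zero, xp_zero, h, map_zero] at this
  exact (Finsupp.single_ne_zero.mpr one_ne_zero) this.symm

theorem alg_inj {c : ℚ} (h : algebraMap ℚ R c = 0) : c = 0 := by
  rw [Algebra.algebraMap_eq_smul_one] at h
  exact (smul_eq_zero.mp h).resolve_right one_ne

/-- inner derivation -/
noncomputable def ad (z : R) : R →ₗ[ℚ] R := LinearMap.mulRight ℚ z - LinearMap.mulLeft ℚ z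

theorem ad_apply (z u : R) : ad z u = u * z - z * u := rfl

theorem ad_mul (z u v : R) : ad z (u * v) = ad z u * v + u * ad z v := by
  simp only [ad_apply]; noncomm_ring

theorem ad_one (z : R) : ad z 1 = 0 := by simp [ad_apply]

theorem ad_alg (z : R) (c : ℚ) : ad z (algebraMap ℚ R c) = 0 := by
  rw [Algebra.algebraMap_eq_smul_one, map_smul, ad_one, smul_zero]

noncomputable def th (i : Fin 2) : R →ₗ[ℚ] R := ad (Lg i)

theorem th_mul (i : Fin 2) (u v : R) : th i (u * v) = th i u * v + u * th i v := ad_mul _ _ _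
theorem th_one (i : Fin 2) : th i 1 = 0 := ad_one _
theorem th_alg (i : Fin 2) (c : ℚ) : th i (algebraMap ℚ R c) = 0 := ad_alg _ _
theorem th_xp (i : Fin 2) (a : Fin 2 → ℤ) : th i (xp a) = 0 := by simp [th, ad_apply, xp_Lg]
theorem th_x (i j : Fin 2) : th i (x j) = 0 := th_xp _ _
theorem th_D (i j : Fin 2) : th i (D j) = if j = i then xi j else 0 := by
  simp [th, ad_apply, D_Lg, xi]

theorem th_mem {ι₀ ι₁ : Prop} (i : Fin 2) (hi : xi i ∈ Sp ι₀ ι₁ 1 (-1)) {p n : ℤ} {u : R}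
    (hu : u ∈ WW p n) : th i u ∈ Sp ι₀ ι₁ p n := by
  refine Sp_map _ _ (fun a e hc => ?_) hu
  have key : ∀ (j : Fin 2) (k : ℕ) (q m : ℤ) (v : R), v ∈ Sp ι₀ ι₁ q m → th i v ∈ Sp ι₀ ι₁ q m →
      th i (D j ^ k * v) ∈ Sp ι₀ ι₁ (q + k) (m - k) := by
    intro j k q m v hv hv'
    induction k with
    | zero => simpa using hv'
    | succ k ih =>
      rw [pow_succ', mul_assoc, th_mul]
      refine add_mem (Sp_mul (p := 1) (n := -1) ?_ (Dpow_mul_mem j k hv) (by push_cast; omega)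
        (by push_cast; omega)) (Sp_mul (D_mem j) ih (by push_cast; omega) (by push_cast; omega))
      rw [th_D]
      split_ifs with h
      · rw [h]; exact hi
      · exact zero_mem _
  have h1 := key 0 (e 0) _ _ _ (Dpow_mul_mem 1 (e 1) (one_mem_Sp le_rfl))
    (key 1 (e 1) _ _ _ (one_mem_Sp le_rfl) (by rw [th_one]; exact zero_mem _))
  rw [mul_one] at h1
  rw [mono, th_mul, th_xp, zero_mul, zero_add]
  obtain ⟨g1, g2, g3, g4⟩ := hc
  simp only [false_or] at g1 g2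
  exact Sp_mul (xp_mem (p := 0) (n := a 0 + a 1) ⟨Or.inr g1, Or.inr g2, by simp; omega, by simp⟩) h1
    (by omega) (by omega)

theorem W_to {ι₀ ι₁ : Prop} {p n : ℤ} {u : R} (hu : u ∈ WW p n) : u ∈ Sp ι₀ ι₁ p n :=
  Sp_mono False.elim False.elim le_rfl hu

theorem thth_mem {p n q m r l : ℤ} {u v : R} (hu : u ∈ WW p n) (hv : v ∈ WW q m) (hr : p + q ≤ r)
    (hl : n + m = l) : th 0 u * th 1 v ∈ TS r l :=
  Sp_mul (th_mem 0 xi0_mem hu) (th_mem 1 xi1_mem hv) hr hl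

theorem adD_mono (i : Fin 2) (a : Fin 2 → ℤ) (e : Fin 2 → ℕ) :
    ad (D i) (mono a e) = -((a i : ℚ) • mono (a - ei i) e) := by
  rw [ad_apply, D_mono, mono_D]; abel

theorem adx_pow (i j : Fin 2) (k : ℕ) :
    ad (x i) (D j ^ k) = if j = i then (k : ℚ) • D j ^ (k - 1) else 0 := by
  induction k with
  | zero => simp [ad_one]
  | succ k ih =>
    have h1 : ad (x i) (D j) = if j = i then 1 else 0 := by simp [ad_apply, D_x]
    rw [pow_succ', ad_mul, ih, h1]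
    split_ifs with h
    · rcases k with _ | k
      · simp
      · simp [add_smul, pow_succ', add_comm, mul_add]
    · simp

theorem adx_mono (i : Fin 2) (a : Fin 2 → ℤ) (e : Fin 2 → ℕ) :
    ad (x i) (mono a e) = (e i : ℚ) • mono a (e - en i) := by
  have h0 : ad (x i) (xp a) = 0 := by simp [ad_apply, x, xp_mul, add_comm]
  rw [mono, ad_mul, h0, ad_mul, adx_pow, adx_pow, mono]
  fin_cases i <;> simp

end Vale.Agent.P195
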